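import Crest.Agent.R168.Basic

/-!
Bayes formula for the observation `z + s ω` with Laplace noise, and the one-step resampling
measure.
-/

set_option autoImplicit false
set_option linter.unusedSectionVars false

open MeasureTheory ProbabilityTheory Filter Topology
open scoped ENNReal NNReal

namespace Crest.Agent.R168

variable {I : Type*}

lemma lap_map_add (c : ℝ) :
    lap.map (fun y => y + c) = lap.withDensity (fun y => ENNReal.ofReal (Real.exp (fld c y))) := by
  refine Measure.ext_of_lintegral _ fun g hg => ?_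
  rw [lintegral_map hg (by fun_prop), lintegral_withDensity_eq_lintegral_mul _ (by fun_prop) hg,
    lap, lintegral_withDensity_eq_lintegral_mul _ (by fun_prop) (by fun_prop),
    lintegral_withDensity_eq_lintegral_mul _ (by fun_prop) (by fun_prop),
    ← lintegral_sub_right_eq_self _ c]
  refine lintegral_congr fun y => ?_
  simp only [Pi.mul_apply, sub_add_cancel]
  rw [← mul_assoc, ← ENNReal.ofReal_mul (by positivity)]
  congr 2
  rw [fld, div_mul_eq_mul_div, ← Real.exp_add]
  congr 2
  ring

lemma infinitePi_withDensity_prod {X : Type*} [MeasurableSpace X] (μ : Measure X)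
    [IsProbabilityMeasure μ] (F : Finset I) (ρ : I → X → ℝ≥0∞) (hρ : ∀ i, Measurable (ρ i))
    [∀ i, IsProbabilityMeasure (μ.withDensity (ρ i))] (h1 : ∀ i, i ∉ F → ρ i = 1) :
    (Measure.infinitePi (fun _ : I => μ)).withDensity (fun y => ∏ i ∈ F, ρ i (y i)) =
      Measure.infinitePi (fun i => μ.withDensity (ρ i)) := by
  classical
  refine Measure.eq_infinitePi _ fun s t ht => ?_
  have hm : MeasurableSet (Set.pi (s : Set I) t) := .pi s.countable_toSet fun i _ => ht i
  rw [withDensity_apply _ hm, ← lintegral_indicator hm]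
  let X' : I → X → ℝ≥0∞ := fun i => if i ∈ s then (t i).indicator (ρ i) else ρ i
  have hX' : ∀ i, Measurable (X' i) := by
    intro i
    simp only [X']
    split_ifs
    · exact (hρ i).indicator (ht i)
    · exact hρ i
  have key : ∀ y : I → X, (Set.pi (s : Set I) t).indicator (fun y => ∏ i ∈ F, ρ i (y i)) y =
      ∏ i ∈ s ∪ F, X' i (y i) := by
    intro y
    by_cases hy : y ∈ Set.pi (s : Set I) t
    · rw [Set.indicator_of_mem hy]
      have : ∀ i, X' i (y i) = ρ i (y i) := by
        intro i
        simp only [X']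
        split_ifs with hi
        · exact Set.indicator_of_mem (hy i hi) _
        · rfl
      simp_rw [this]
      refine Finset.prod_subset Finset.subset_union_right fun i _ hi => ?_
      rw [h1 i hi]; rfl
    · rw [Set.indicator_of_notMem hy]
      simp only [Set.mem_pi, Finset.mem_coe, not_forall] at hy
      obtain ⟨i, hi, hyi⟩ := hy
      refine (Finset.prod_eq_zero (Finset.mem_union_left _ hi) ?_).symm
      simp only [X', hi, if_true]
      exact Set.indicator_of_notMem hyi _
  simp_rw [key]
  rw [lintegral_prod_eq_prod_lintegral_of_indepFun (s ∪ F) (fun i (y : I → X) => X' i (y i))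
    (iIndepFun_infinitePi (P := fun _ : I => μ) hX') (fun i => (hX' i).comp (by fun_prop))]
  have h2 : ∀ i, ∫⁻ y : I → X, X' i (y i) ∂(Measure.infinitePi (fun _ : I => μ)) =
      if i ∈ s then μ.withDensity (ρ i) (t i) else 1 := by
    intro i
    rw [(measurePreserving_eval_infinitePi (fun _ : I => μ) i).lintegral_comp (hX' i)]
    simp only [X']
    split_ifs with hi
    · rw [withDensity_apply _ (ht i), lintegral_indicator (ht i)]
    · rw [← measure_univ (μ := μ.withDensity (ρ i)), withDensity_apply _ MeasurableSet.univ,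
        Measure.restrict_univ]
  simp_rw [h2]
  rw [Finset.prod_ite_mem, Finset.union_inter_cancel_left]

lemma gam_map_shift (F : Finset I) (s : ℝ) (ω : I → Bool) :
    (gam I).map (fun z => shift F s z ω) =
      (gam I).withDensity (fun y => ENNReal.ofReal (wt F (fun j => fld s (y j)) ω)) := by
  classical
  let c : I → ℝ := fun j => if j ∈ F then s * bv (ω j) else 0
  have h1 : (fun z => shift F s z ω) = fun (z : I → ℝ) j => (fun j y => y + c j) j (z j) := by
    funext z j
    simp only [shift, c]
  have : ∀ i, IsProbabilityMeasure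
      (lap.withDensity (fun y => ENNReal.ofReal (Real.exp (fld (c i) y)))) := by
    intro i
    rw [← lap_map_add]
    exact Measure.isProbabilityMeasure_map (by fun_prop)
  rw [h1, gam, Measure.infinitePi_map_pi _ (f := fun j y => y + c j) (by fun_prop)]
  simp_rw [lap_map_add]
  rw [← infinitePi_withDensity_prod lap F (fun i y => ENNReal.ofReal (Real.exp (fld (c i) y)))
    (by fun_prop) (fun i hi => by funext y; simp [c, hi])]
  congr 1
  funext y
  rw [← ENNReal.ofReal_prod_of_nonneg (fun i _ => (Real.exp_pos _).le), wt, Real.exp_sum]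
  congr 1
  refine Finset.prod_congr rfl fun j hj => ?_
  simp only [c, hj, if_true]
  cases ω j <;> simp [bv]

variable (ν : Measure (I → Bool)) [IsProbabilityMeasure ν]

/-- The joint law of the observation and the signal. -/
noncomputable def joint (F : Finset I) (s : ℝ) : Measure ((I → ℝ) × (I → Bool)) :=
  ((gam I).prod ν).map (fun p => (shift F s p.1 p.2, p.2))

/-- The law of the observation. -/
noncomputable def obs (F : Finset I) (s : ℝ) : Measure (I → ℝ) :=
  ((gam I).prod ν).map (fun p => shift F s p.1 p.2)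

instance (F : Finset I) (s : ℝ) : IsProbabilityMeasure (joint ν F s) :=
  Measure.isProbabilityMeasure_map (by fun_prop)

instance (F : Finset I) (s : ℝ) : IsProbabilityMeasure (obs ν F s) :=
  Measure.isProbabilityMeasure_map (by fun_prop)

lemma joint_eq (F : Finset I) (s : ℝ) :
    joint ν F s = ((gam I).prod ν).withDensity
      (fun p => ENNReal.ofReal (wt F (fun j => fld s (p.1 j)) p.2)) := by
  refine Measure.ext_of_lintegral _ fun g hg => ?_
  rw [joint, lintegral_map hg (by fun_prop),
    lintegral_withDensity_eq_lintegral_mul _ (by fun_prop) hg,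
    lintegral_prod_symm' _ (by fun_prop), lintegral_prod_symm' _ (by fun_prop)]
  refine lintegral_congr fun ω => ?_
  have hg' : Measurable (fun y : I → ℝ => g (y, ω)) := by fun_prop
  rw [← lintegral_map hg' (by fun_prop), gam_map_shift,
    lintegral_withDensity_eq_lintegral_mul _ (by fun_prop) hg']
  rfl

lemma lintegral_wt (W : Finset I) (h : I → ℝ) :
    ∫⁻ ω, ENNReal.ofReal (wt W h ω) ∂ν = ENNReal.ofReal (Zp ν W h) := by
  rw [Zp, ofReal_integral_eq_lintegral_ofReal (integrable_wt ν W h)
    (ae_of_all _ fun ω => (wt_pos W h ω).le)]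

lemma measurable_Zp_fld (F : Finset I) (s : ℝ) :
    Measurable (fun y : I → ℝ => Zp ν F (fun j => fld s (y j))) :=
  (measurable_Zp ν F).comp (by fun_prop)

lemma obs_eq (F : Finset I) (s : ℝ) :
    obs ν F s = (gam I).withDensity (fun y => ENNReal.ofReal (Zp ν F (fun j => fld s (y j)))) := by
  have : obs ν F s = (joint ν F s).map Prod.fst := by
    rw [joint, Measure.map_map (by fun_prop) (by fun_prop)]
    rfl
  rw [this, joint_eq]
  refine Measure.ext_of_lintegral _ fun g hg => ?_
  have hZ := measurable_Zp_fld ν F s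
  rw [lintegral_map hg (by fun_prop),
    lintegral_withDensity_eq_lintegral_mul _ (by fun_prop) (by fun_prop),
    lintegral_withDensity_eq_lintegral_mul _ (by fun_prop) hg,
    lintegral_prod _ (by fun_prop)]
  refine lintegral_congr fun y => ?_
  simp only [Pi.mul_apply]
  rw [lintegral_mul_const _ (by fun_prop), lintegral_wt]

lemma obs_zero (F : Finset I) : obs ν F 0 = gam I := by
  simp only [obs, shift_zero]
  simp

/-- The posterior density. -/
noncomputable def post (F : Finset I) (s : ℝ) (y : I → ℝ) (ω : I → Bool) : ℝ :=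
  wt F (fun j => fld s (y j)) ω / Zp ν F (fun j => fld s (y j))

lemma post_pos (F : Finset I) (s : ℝ) (y : I → ℝ) (ω : I → Bool) : 0 < post ν F s y ω :=
  div_pos (wt_pos _ _ _) (Zp_pos ν _ _)

lemma post_le (F : Finset I) (s : ℝ) (y : I → ℝ) (ω : I → Bool) :
    post ν F s y ω ≤ Real.exp (2 * (F.card * |s|)) := by
  have h1 : ∑ j ∈ F, |fld s (y j)| ≤ F.card * |s| := by
    have := Finset.sum_le_card_nsmul F (fun j => |fld s (y j)|) |s| fun j _ => abs_fld_le s (y j)
    simpa using this
  rw [post, div_le_iff₀ (Zp_pos ν _ _)]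
  calc wt F (fun j => fld s (y j)) ω ≤ Real.exp (∑ j ∈ F, |fld s (y j)|) := wt_le _ _ _
    _ ≤ Real.exp (2 * (F.card * |s|)) * Real.exp (-∑ j ∈ F, |fld s (y j)|) := by
        rw [← Real.exp_add]
        gcongr
        linarith
    _ ≤ _ := by
        gcongr
        exact le_Zp ν _ _

lemma measurable_post {α : Type*} [MeasurableSpace α] (F : Finset I) (s : ℝ) {y : α → I → ℝ}
    {ω : α → I → Bool} (hy : Measurable y) (hω : Measurable ω) :
    Measurable (fun a => post ν F s (y a) (ω a)) := by
  unfold post
  refine Measurable.div (by fun_prop) ((measurable_Zp_fld ν F s).comp hy)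

lemma integral_post (F : Finset I) (s : ℝ) (y : I → ℝ) : ∫ ω, post ν F s y ω ∂ν = 1 := by
  unfold post
  rw [integral_div]
  exact div_self (Zp_pos ν _ _).ne'

lemma integral_post_bv (F : Finset I) (s : ℝ) (y : I → ℝ) (i : I) :
    ∫ ω, post ν F s y ω * bv (ω i) ∂ν = vel ν i F s y := by
  unfold post vel pm Np
  rw [← integral_div]
  congr 1
  funext ω
  ring

lemma lintegral_post (F : Finset I) (s : ℝ) (y : I → ℝ) :
    ∫⁻ ω, ENNReal.ofReal (post ν F s y ω) ∂ν = 1 := by
  rw [← ofReal_integral_eq_lintegral_ofReal, integral_post, ENNReal.ofReal_one]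
  · exact (integrable_wt ν F _).div_const _
  · exact ae_of_all _ fun ω => (post_pos ν F s y ω).le

section resample

variable {Ω : Type*} [MeasurableSpace Ω] (P : Measure Ω) [IsProbabilityMeasure P]

/-- Resample the signal from its posterior given the current position `Y`. -/
noncomputable def resample (F : Finset I) (s : ℝ) (Y : Ω → I → ℝ) : Measure (Ω × (I → Bool)) :=
  (P.prod ν).withDensity (fun p => ENNReal.ofReal (post ν F s (Y p.1) p.2))

lemma resample_map_fst (F : Finset I) (s : ℝ) {Y : Ω → I → ℝ} (hY : Measurable Y) :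
    (resample ν P F s Y).map Prod.fst = P := by
  refine Measure.ext_of_lintegral _ fun g hg => ?_
  have hp : Measurable (fun p : Ω × (I → Bool) => post ν F s (Y p.1) p.2) :=
    measurable_post ν F s (by fun_prop) (by fun_prop)
  rw [lintegral_map hg (by fun_prop), resample,
    lintegral_withDensity_eq_lintegral_mul _ (by fun_prop) (by fun_prop),
    lintegral_prod _ (by fun_prop)]
  refine lintegral_congr fun x => ?_
  simp only [Pi.mul_apply]
  have hp' : Measurable (fun ω : I → Bool => post ν F s (Y x) ω) :=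
    measurable_post ν F s (by fun_prop) (by fun_prop)
  rw [lintegral_mul_const _ (by fun_prop), lintegral_post, one_mul]

lemma isProbabilityMeasure_resample (F : Finset I) (s : ℝ) {Y : Ω → I → ℝ} (hY : Measurable Y) :
    IsProbabilityMeasure (resample ν P F s Y) := by
  constructor
  have := congrArg (fun μ : Measure Ω => μ Set.univ) (resample_map_fst ν P F s hY)
  simpa [Measure.map_apply measurable_fst MeasurableSet.univ] using this

lemma resample_map_pair (F : Finset I) (s : ℝ) {Y : Ω → I → ℝ} (hY : Measurable Y)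
    (hlaw : P.map Y = obs ν F s) :
    (resample ν P F s Y).map (fun p => (Y p.1, p.2)) = joint ν F s := by
  refine Measure.ext_of_lintegral _ fun g hg => ?_
  have hp : Measurable (fun p : Ω × (I → Bool) => post ν F s (Y p.1) p.2) :=
    measurable_post ν F s (by fun_prop) (by fun_prop)
  have hp2 : Measurable (fun p : (I → ℝ) × (I → Bool) => post ν F s p.1 p.2) :=
    measurable_post ν F s (by fun_prop) (by fun_prop)
  have hZ := measurable_Zp_fld ν F s
  rw [lintegral_map hg (by fun_prop), resample,
    lintegral_withDensity_eq_lintegral_mul _ (by fun_prop) (by fun_prop),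
    lintegral_prod _ (by fun_prop), joint_eq,
    lintegral_withDensity_eq_lintegral_mul _ (by fun_prop) hg, lintegral_prod _ (by fun_prop)]
  have hm : Measurable (fun y : I → ℝ => ∫⁻ ω, ENNReal.ofReal (post ν F s y ω) * g (y, ω) ∂ν) :=
    Measurable.lintegral_prod_right' (f := fun p : (I → ℝ) × (I → Bool) =>
      ENNReal.ofReal (post ν F s p.1 p.2) * g (p.1, p.2)) (by fun_prop)
  calc ∫⁻ x, ∫⁻ ω, ENNReal.ofReal (post ν F s (Y x) ω) * g (Y x, ω) ∂ν ∂P
      = ∫⁻ y, ∫⁻ ω, ENNReal.ofReal (post ν F s y ω) * g (y, ω) ∂ν ∂(P.map Y) :=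
        (lintegral_map hm hY).symm
    _ = _ := by
      rw [hlaw, obs_eq, lintegral_withDensity_eq_lintegral_mul _ (by fun_prop) hm]
      refine lintegral_congr fun y => ?_
      simp only [Pi.mul_apply]
      have hp' : Measurable (fun ω : I → Bool => post ν F s y ω) :=
        measurable_post ν F s (by fun_prop) (by fun_prop)
      rw [← lintegral_const_mul _ (by fun_prop)]
      refine lintegral_congr fun ω => ?_
      rw [← mul_assoc, ← ENNReal.ofReal_mul (Zp_pos ν _ _).le, post,
        mul_div_cancel₀ _ (Zp_pos ν _ _).ne']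

lemma integral_resample (F : Finset I) (s : ℝ) {Y : Ω → I → ℝ} (hY : Measurable Y)
    {G : Ω × (I → Bool) → ℝ} (hG : Measurable G) {C : ℝ} (hC : ∀ p, |G p| ≤ C) :
    ∫ p, G p ∂(resample ν P F s Y) = ∫ x, ∫ ω, post ν F s (Y x) ω * G (x, ω) ∂ν ∂P := by
  have hp : Measurable (fun p : Ω × (I → Bool) => post ν F s (Y p.1) p.2) :=
    measurable_post ν F s (by fun_prop) (by fun_prop)
  rw [resample, integral_withDensity_eq_integral_toReal_smul (by fun_prop) (by simp)]
  simp only [smul_eq_mul]
  simp_rw [ENNReal.toReal_ofReal (post_pos ν F s _ _).le]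
  rw [integral_prod]
  refine Integrable.of_bound (C := Real.exp (2 * (F.card * |s|)) * C)
    (Measurable.aestronglyMeasurable (by fun_prop)) (ae_of_all _ fun p => ?_)
  rw [Real.norm_eq_abs, abs_mul, abs_of_pos (post_pos ν F s _ _)]
  exact mul_le_mul (post_le ν F s _ _) (hC p) (abs_nonneg _) (Real.exp_pos _).le

lemma integral_resample_mul (F : Finset I) (s : ℝ) {Y : Ω → I → ℝ} (hY : Measurable Y)
    {g : Ω → ℝ} (hg : Measurable g) {C : ℝ} (hC : ∀ x, |g x| ≤ C) (i : I) :
    ∫ p, g p.1 * bv (p.2 i) ∂(resample ν P F s Y) = ∫ x, g x * vel ν i F s (Y x) ∂P := by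
  rw [integral_resample ν P F s hY (by fun_prop) (C := C)]
  · congr 1
    funext x
    rw [← integral_post_bv, ← integral_const_mul]
    congr 1
    funext ω
    ring
  · intro p
    rw [abs_mul]
    exact (mul_le_of_le_one_right (abs_nonneg _) (abs_bv_le _)).trans (hC _)

end resample

/-- Bayes formula. -/
lemma integral_mul_vel (F : Finset I) (s : ℝ) {g : (I → ℝ) → ℝ} (hg : Measurable g) {C : ℝ}
    (hC : ∀ y, |g y| ≤ C) (i : I) :
    ∫ y, g y * vel ν i F s y ∂(obs ν F s) =
      ∫ p, g (shift F s p.1 p.2) * bv (p.2 i) ∂((gam I).prod ν) := by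
  have h1 := integral_resample_mul ν (obs ν F s) F s measurable_id hg hC i
  have h2 := resample_map_pair ν (obs ν F s) F s measurable_id (by simp)
  simp only [id, Prod.mk.eta, Measure.map_id'] at h1 h2
  rw [← h1]
  change ∫ p, g p.1 * bv (p.2 i) ∂(resample ν (obs ν F s) F s id) = _
  change resample ν (obs ν F s) F s id = _ at h2
  rw [h2, joint, integral_map (by fun_prop) (Measurable.aestronglyMeasurable (by fun_prop))]

lemma Mq_eq (i : I) (W : Finset I) (s : ℝ) :
    Mq ν i W s = ∫ y, vel ν i W s y ^ 2 ∂(obs ν W s) := by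
  have hZ := measurable_Zp_fld ν W s
  rw [obs_eq, integral_withDensity_eq_integral_toReal_smul (by fun_prop) (by simp), Mq]
  congr 1
  funext y
  rw [ENNReal.toReal_ofReal (Zp_pos ν _ _).le, smul_eq_mul, mul_comm]

lemma Mq_le_one (i : I) (W : Finset I) (s : ℝ) : Mq ν i W s ≤ 1 := by
  rw [Mq_eq]
  have hv := measurable_vel ν i W s
  have : ∫ y, vel ν i W s y ^ 2 ∂(obs ν W s) ≤ ∫ _y, (1 : ℝ) ∂(obs ν W s) := by
    refine integral_mono_of_nonneg (ae_of_all _ fun y => by positivity) (integrable_const _)
      (ae_of_all _ fun y => ?_)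
    have := vel_nonneg ν i W s y
    have := vel_le_one ν i W s y
    simp only
    nlinarith
  simpa using this

lemma integral_vel_sub_sq {W F : Finset I} (hWF : W ⊆ F) (i : I) (s : ℝ) :
    ∫ y, (vel ν i F s y - vel ν i W s y) ^ 2 ∂(obs ν F s) = Mq ν i F s - Mq ν i W s := by
  have hvF := measurable_vel ν i F s
  have hvW := measurable_vel ν i W s
  have hshift : ∀ p : (I → ℝ) × (I → Bool),
      vel ν i W s (shift F s p.1 p.2) = vel ν i W s (shift W s p.1 p.2) := fun p =>
    vel_congr ν i s fun j hj => by rw [shift_of_mem hj, shift_of_mem (hWF hj)]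
  have h1 : ∫ y, vel ν i W s y * vel ν i F s y ∂(obs ν F s) = Mq ν i W s := by
    rw [integral_mul_vel ν F s hvW (abs_vel_le ν i W s) i]
    simp_rw [hshift]
    rw [← integral_mul_vel ν W s hvW (abs_vel_le ν i W s) i, Mq_eq]
    simp_rw [sq]
  have h2 : ∫ y, vel ν i W s y ^ 2 ∂(obs ν F s) = Mq ν i W s := by
    rw [Mq_eq, obs, obs,
      integral_map (by fun_prop) (Measurable.aestronglyMeasurable (by fun_prop)),
      integral_map (by fun_prop) (Measurable.aestronglyMeasurable (by fun_prop))]
    simp_rw [hshift]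
  have hint : ∀ {f : (I → ℝ) → ℝ}, Measurable f → (∀ y, |f y| ≤ 1) →
      Integrable f (obs ν F s) := fun hf hb =>
    Integrable.of_bound (C := 1) hf.aestronglyMeasurable (ae_of_all _ hb)
  have hsq : ∀ (W' : Finset I) y, |vel ν i W' s y ^ 2| ≤ 1 := fun W' y => by
    rw [abs_pow]
    exact pow_le_one₀ (abs_nonneg _) (abs_vel_le ν i W' s y)
  have h3 : ∀ y, (vel ν i F s y - vel ν i W s y) ^ 2 =
      vel ν i F s y ^ 2 - 2 * (vel ν i W s y * vel ν i F s y) + vel ν i W s y ^ 2 := by
    intro y; ring
  have hi1 : Integrable (fun y => vel ν i F s y ^ 2) (obs ν F s) := hint (by fun_prop) (hsq F)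
  have hi2 : Integrable (fun y => vel ν i W s y * vel ν i F s y) (obs ν F s) :=
    hint (by fun_prop) fun y => by
      rw [abs_mul]
      exact mul_le_one₀ (abs_vel_le ν i W s y) (abs_nonneg _) (abs_vel_le ν i F s y)
  have hi3 : Integrable (fun y => vel ν i W s y ^ 2) (obs ν F s) := hint (by fun_prop) (hsq W)
  simp_rw [h3]
  have hi4 : Integrable (fun y => vel ν i F s y ^ 2 - 2 * (vel ν i W s y * vel ν i F s y))
    (obs ν F s) := hi1.sub (hi2.const_mul 2)
  rw [integral_add hi4 hi3, integral_sub hi1 (hi2.const_mul 2),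
    integral_const_mul, h1, h2, ← Mq_eq]
  ring

lemma Mq_mono {W F : Finset I} (hWF : W ⊆ F) (i : I) (s : ℝ) : Mq ν i W s ≤ Mq ν i F s := by
  rw [← sub_nonneg, ← integral_vel_sub_sq ν hWF i s]
  exact integral_nonneg fun y => by positivity

end Crest.Agent.R168
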