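import Mathlib

/-!
Definitions for the factor-of-iid construction (row 168): tilted posterior means, Laplace noise,
the multi-scale Euler scheme and the output map.
-/

set_option autoImplicit false

open MeasureTheory ProbabilityTheory Filter Topology
open scoped ENNReal NNReal

namespace Crest.Agent.R168

variable {I : Type*}

/-- The `0/1` value of a Boolean. -/
def bv (b : Bool) : ℝ := if b then 1 else 0

/-- Tilting weight with log-fields `h` on the window `W`. -/
noncomputable def wt (W : Finset I) (h : I → ℝ) (ω : I → Bool) : ℝ :=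
  Real.exp (∑ j ∈ W, h j * bv (ω j))

/-- Partition function of the tilt. -/
noncomputable def Zp (ν : Measure (I → Bool)) (W : Finset I) (h : I → ℝ) : ℝ :=
  ∫ ω, wt W h ω ∂ν

/-- Numerator of the tilted mean at `i`. -/
noncomputable def Np (ν : Measure (I → Bool)) (i : I) (W : Finset I) (h : I → ℝ) : ℝ :=
  ∫ ω, bv (ω i) * wt W h ω ∂ν

/-- Tilted mean at `i`. -/
noncomputable def pm (ν : Measure (I → Bool)) (i : I) (W : Finset I) (h : I → ℝ) : ℝ :=
  Np ν i W h / Zp ν W h

/-- The tilted means are Lipschitz in the sup norm of the log-fields. -/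
def IsLip (ν : Measure (I → Bool)) (L : ℝ) : Prop :=
  ∀ (i : I) (W : Finset I) (h h' : I → ℝ) (r : ℝ), 0 ≤ r → (∀ j ∈ W, |h j - h' j| ≤ r) →
    |pm ν i W h - pm ν i W h'| ≤ L * r

/-- Log-likelihood ratio of the Laplace law shifted by `s`. -/
noncomputable def fld (s y : ℝ) : ℝ := |y| - |y - s|

/-- The Laplace law. -/
noncomputable def lap : Measure ℝ :=
  volume.withDensity (fun y => ENNReal.ofReal (Real.exp (-|y|) / 2))

lemma integral_exp_neg_mul_abs {c : ℝ} (hc : 0 < c) :
    ∫ y : ℝ, Real.exp (-c * |y|) = 2 / c := by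
  rw [integral_comp_abs (f := fun x => Real.exp (-c * x)), integral_exp_mul_Ioi (by linarith)]
  simp
  field_simp

lemma lintegral_exp_neg_mul_abs {c : ℝ} (hc : 0 < c) :
    ∫⁻ y : ℝ, ENNReal.ofReal (Real.exp (-c * |y|)) = ENNReal.ofReal (2 / c) := by
  rw [← integral_exp_neg_mul_abs hc, ofReal_integral_eq_lintegral_ofReal]
  · apply Integrable.of_integral_ne_zero
    rw [integral_exp_neg_mul_abs hc]
    positivity
  · exact ae_of_all _ fun y => (Real.exp_pos _).le

instance : IsProbabilityMeasure lap := by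
  constructor
  rw [lap, withDensity_apply _ MeasurableSet.univ, Measure.restrict_univ]
  have : ∀ y : ℝ, ENNReal.ofReal (Real.exp (-|y|) / 2) =
      ENNReal.ofReal (Real.exp (-1 * |y|)) * ENNReal.ofReal (1 / 2) := by
    intro y
    rw [← ENNReal.ofReal_mul (Real.exp_pos _).le]
    congr 1
    simp [div_eq_mul_inv]
  simp_rw [this]
  rw [lintegral_mul_const _ (by fun_prop), lintegral_exp_neg_mul_abs one_pos,
    ← ENNReal.ofReal_mul (by norm_num)]
  norm_num

instance : NullSingletonClass lap := by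
  unfold lap
  infer_instance

/-- Independent Laplace noise. -/
noncomputable def gam (I : Type*) : Measure (I → ℝ) := Measure.infinitePi (fun _ : I => lap)

instance : IsProbabilityMeasure (gam I) := by
  unfold gam
  infer_instance

/-- The velocity field: posterior mean of `ω i` given `y = z + s ω` on the window `W`. -/
noncomputable def vel (ν : Measure (I → Bool)) (i : I) (W : Finset I) (s : ℝ) (y : I → ℝ) : ℝ :=
  pm ν i W (fun j => fld s (y j))

/-- Second moment of the posterior mean. -/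
noncomputable def Mq (ν : Measure (I → Bool)) (i : I) (W : Finset I) (s : ℝ) : ℝ :=
  ∫ y, vel ν i W s y ^ 2 * Zp ν W (fun j => fld s (y j)) ∂gam I

/-- Sum of the second moments over the time grid. -/
noncomputable def Jq (ν : Measure (I → Bool)) (W : ℕ → I → Finset I) (K H : ℕ) (i : I) (N : ℕ) :
    ℝ :=
  ∑ l ∈ Finset.range H, Mq ν i (W N i) ((l : ℝ) / K)

/-- The index of the window used for accuracy `1 / (j + 1)`. -/
noncomputable def sel (ν : Measure (I → Bool)) (W : ℕ → I → Finset I) (K H j : ℕ) (i : I) : ℕ :=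
  sInf {N | ∀ N', Jq ν W K H i N' ≤ Jq ν W K H i N + 1 / ((j : ℝ) + 1) ^ 2}

/-- The window used for accuracy `1 / (j + 1)`. -/
noncomputable def win (ν : Measure (I → Bool)) (W : ℕ → I → Finset I) (K H j : ℕ) (i : I) :
    Finset I :=
  W (sel ν W K H j i) i

/-- The multi-scale Euler scheme. -/
noncomputable def sch (ν : Measure (I → Bool)) (W : ℕ → I → Finset I) (K H : ℕ) (z : I → ℝ) :
    ℕ → ℕ → I → ℝ
  | 0, _, _ => 0
  | t + 1, j, i => sch ν W K H z t j i + (1 / K : ℝ) * vel ν i (win ν W K H j i) ((t : ℝ) / K)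
      (fun i' => z i' + sch ν W K H z t ((j + 1) * (win ν W K H j i).card) i')

lemma sch_zero (ν : Measure (I → Bool)) (W : ℕ → I → Finset I) (K H : ℕ) (z : I → ℝ) (j : ℕ)
    (i : I) : sch ν W K H z 0 j i = 0 := by
  have := @sch.eq_def I
  simp only [sch]

lemma sch_succ (ν : Measure (I → Bool)) (W : ℕ → I → Finset I) (K H : ℕ) (z : I → ℝ) (t j : ℕ)
    (i : I) : sch ν W K H z (t + 1) j i = sch ν W K H z t j i +
      (1 / K : ℝ) * vel ν i (win ν W K H j i) ((t : ℝ) / K)
        (fun i' => z i' + sch ν W K H z t ((j + 1) * (win ν W K H j i).card) i') := by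
  simp only [sch]

/-- Number of grid points per unit time at stage `n`. -/
noncomputable def Kn (L : ℝ) (n : ℕ) : ℕ := ⌈6 * L * n * Real.exp (2 * L * n)⌉₊ + 1

/-- Accuracy at stage `n`. -/
noncomputable def jn (L : ℝ) (n : ℕ) : ℕ := ⌈2 ^ (n + 1) * n * Real.exp (2 * L * n)⌉₊

/-- The stage-`n` position. -/
noncomputable def pos (ν : Measure (I → Bool)) (W : ℕ → I → Finset I) (L : ℝ) (n : ℕ)
    (z : I → ℝ) (i : I) : ℝ :=
  z i + sch ν W (Kn L n) (n * Kn L n) z (n * Kn L n) (jn L n) i

open Classical in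
/-- The output map. -/
noncomputable def Phi (ν : Measure (I → Bool)) (W : ℕ → I → Finset I) (L : ℝ)
    (z : I → ℝ) (i : I) : Bool :=
  decide (∀ᶠ n : ℕ in atTop, (n : ℝ) / 2 < pos ν W L n z i)

open Classical in
/-- The noisy observation `z + s ω` on the window `F`. -/
noncomputable def shift (F : Finset I) (s : ℝ) (z : I → ℝ) (ω : I → Bool) : I → ℝ :=
  fun j => z j + if j ∈ F then s * bv (ω j) else 0

/-! ### Elementary properties -/

lemma bv_nonneg (b : Bool) : 0 ≤ bv b := by cases b <;> simp [bv]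

lemma bv_le_one (b : Bool) : bv b ≤ 1 := by cases b <;> simp [bv]

lemma abs_bv_le (b : Bool) : |bv b| ≤ 1 := by cases b <;> simp [bv]

@[fun_prop]
lemma measurable_bv : Measurable bv := measurable_of_countable _

lemma wt_pos (W : Finset I) (h : I → ℝ) (ω : I → Bool) : 0 < wt W h ω := Real.exp_pos _

lemma wt_le (W : Finset I) (h : I → ℝ) (ω : I → Bool) :
    wt W h ω ≤ Real.exp (∑ j ∈ W, |h j|) := by
  unfold wt
  gcongr with j hj
  calc h j * bv (ω j) ≤ |h j * bv (ω j)| := le_abs_self _
    _ = |h j| * |bv (ω j)| := abs_mul _ _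
    _ ≤ |h j| * 1 := by gcongr; exact abs_bv_le _
    _ = |h j| := mul_one _

lemma le_wt (W : Finset I) (h : I → ℝ) (ω : I → Bool) :
    Real.exp (-∑ j ∈ W, |h j|) ≤ wt W h ω := by
  unfold wt
  rw [← Finset.sum_neg_distrib]
  gcongr with j hj
  have : |h j * bv (ω j)| ≤ |h j| := by
    calc |h j * bv (ω j)| = |h j| * |bv (ω j)| := abs_mul _ _
      _ ≤ |h j| * 1 := by gcongr; exact abs_bv_le _
      _ = |h j| := mul_one _
  linarith [neg_abs_le (h j * bv (ω j))]

@[fun_prop]
lemma measurable_wt {α : Type*} [MeasurableSpace α] (W : Finset I) {h : α → I → ℝ}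
    {ω : α → I → Bool} (hh : Measurable h) (hω : Measurable ω) :
    Measurable (fun a => wt W (h a) (ω a)) := by
  unfold wt
  fun_prop

lemma integrable_wt (ν : Measure (I → Bool)) [IsFiniteMeasure ν] (W : Finset I) (h : I → ℝ) :
    Integrable (wt W h) ν := by
  refine Integrable.of_bound (C := Real.exp (∑ j ∈ W, |h j|))
    (Measurable.aestronglyMeasurable (by fun_prop)) (ae_of_all _ fun ω => ?_)
  rw [Real.norm_eq_abs, abs_of_pos (wt_pos _ _ _)]
  exact wt_le _ _ _

lemma integrable_bv_wt (ν : Measure (I → Bool)) [IsFiniteMeasure ν] (i : I) (W : Finset I)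
    (h : I → ℝ) : Integrable (fun ω => bv (ω i) * wt W h ω) ν := by
  refine Integrable.of_bound (C := Real.exp (∑ j ∈ W, |h j|))
    (Measurable.aestronglyMeasurable (by fun_prop)) (ae_of_all _ fun ω => ?_)
  rw [Real.norm_eq_abs, abs_mul, abs_of_pos (wt_pos _ _ _)]
  calc |bv (ω i)| * wt W h ω ≤ 1 * wt W h ω := by
        gcongr
        · exact (wt_pos _ _ _).le
        · exact abs_bv_le _
    _ ≤ _ := by rw [one_mul]; exact wt_le _ _ _

section prob

variable (ν : Measure (I → Bool)) [IsProbabilityMeasure ν]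

lemma le_Zp (W : Finset I) (h : I → ℝ) : Real.exp (-∑ j ∈ W, |h j|) ≤ Zp ν W h := by
  have : ∫ _ω, Real.exp (-∑ j ∈ W, |h j|) ∂ν ≤ Zp ν W h :=
    integral_mono (integrable_const _) (integrable_wt ν W h) (fun ω => le_wt W h ω)
  simpa using this

lemma Zp_pos (W : Finset I) (h : I → ℝ) : 0 < Zp ν W h :=
  lt_of_lt_of_le (Real.exp_pos _) (le_Zp ν W h)

lemma Zp_le (W : Finset I) (h : I → ℝ) : Zp ν W h ≤ Real.exp (∑ j ∈ W, |h j|) := by
  have : Zp ν W h ≤ ∫ _ω, Real.exp (∑ j ∈ W, |h j|) ∂ν :=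
    integral_mono (integrable_wt ν W h) (integrable_const _) (fun ω => wt_le W h ω)
  simpa using this

omit [IsProbabilityMeasure ν] in
lemma Np_nonneg (i : I) (W : Finset I) (h : I → ℝ) : 0 ≤ Np ν i W h :=
  integral_nonneg fun ω => mul_nonneg (bv_nonneg _) (wt_pos W h ω).le

lemma Np_le_Zp (i : I) (W : Finset I) (h : I → ℝ) : Np ν i W h ≤ Zp ν W h := by
  refine integral_mono (integrable_bv_wt ν i W h) (integrable_wt ν W h) (fun ω => ?_)
  have := wt_pos W h ω
  have := bv_le_one (ω i)
  simp only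
  nlinarith

lemma pm_nonneg (i : I) (W : Finset I) (h : I → ℝ) : 0 ≤ pm ν i W h :=
  div_nonneg (Np_nonneg ν i W h) (Zp_pos ν W h).le

lemma pm_le_one (i : I) (W : Finset I) (h : I → ℝ) : pm ν i W h ≤ 1 :=
  (div_le_one (Zp_pos ν W h)).2 (Np_le_Zp ν i W h)

lemma vel_nonneg (i : I) (W : Finset I) (s : ℝ) (y : I → ℝ) : 0 ≤ vel ν i W s y :=
  pm_nonneg ν i W _

lemma vel_le_one (i : I) (W : Finset I) (s : ℝ) (y : I → ℝ) : vel ν i W s y ≤ 1 :=
  pm_le_one ν i W _

lemma abs_vel_le (i : I) (W : Finset I) (s : ℝ) (y : I → ℝ) : |vel ν i W s y| ≤ 1 :=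
  abs_le.2 ⟨by linarith [vel_nonneg ν i W s y], vel_le_one ν i W s y⟩

lemma measurable_Zp (W : Finset I) : Measurable (fun h : I → ℝ => Zp ν W h) := by
  have : StronglyMeasurable (Function.uncurry fun (h : I → ℝ) (ω : I → Bool) => wt W h ω) :=
    Measurable.stronglyMeasurable (by unfold Function.uncurry; fun_prop)
  exact (this.integral_prod_right (ν := ν)).measurable

lemma measurable_Np (i : I) (W : Finset I) : Measurable (fun h : I → ℝ => Np ν i W h) := by
  have : StronglyMeasurable
      (Function.uncurry fun (h : I → ℝ) (ω : I → Bool) => bv (ω i) * wt W h ω) :=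
    Measurable.stronglyMeasurable (by unfold Function.uncurry; fun_prop)
  exact (this.integral_prod_right (ν := ν)).measurable

lemma measurable_pm (i : I) (W : Finset I) : Measurable (fun h : I → ℝ => pm ν i W h) :=
  (measurable_Np ν i W).div (measurable_Zp ν W)

end prob

lemma abs_fld_le (s y : ℝ) : |fld s y| ≤ |s| := by
  unfold fld
  have := abs_abs_sub_abs_le_abs_sub y (y - s)
  simpa using this

lemma abs_fld_sub_le (s s' y y' : ℝ) : |fld s y - fld s' y'| ≤ 2 * |y - y'| + |s - s'| := by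
  unfold fld
  have h1 := abs_abs_sub_abs_le_abs_sub y y'
  have h2 := abs_abs_sub_abs_le_abs_sub (y - s) (y' - s')
  have h3 : |y - s - (y' - s')| ≤ |y - y'| + |s - s'| := by
    have : y - s - (y' - s') = (y - y') - (s - s') := by ring
    rw [this]
    exact abs_sub _ _
  have h4 : |y| - |y - s| - (|y'| - |y' - s'|) = (|y| - |y'|) - (|y - s| - |y' - s'|) := by ring
  rw [h4]
  have := abs_sub (|y| - |y'|) (|y - s| - |y' - s'|)
  linarith

@[simp] lemma fld_zero (y : ℝ) : fld 0 y = 0 := by simp [fld]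

@[fun_prop]
lemma measurable_fld (s : ℝ) : Measurable (fld s) := by
  unfold fld
  fun_prop

lemma measurable_vel (ν : Measure (I → Bool)) [IsProbabilityMeasure ν] (i : I) (W : Finset I)
    (s : ℝ) : Measurable (vel ν i W s) :=
  (measurable_pm ν i W).comp (by fun_prop)

lemma wt_congr {W : Finset I} {h h' : I → ℝ} (hh : ∀ j ∈ W, h j = h' j) : wt W h = wt W h' := by
  funext ω
  unfold wt
  congr 1
  exact Finset.sum_congr rfl fun j hj => by rw [hh j hj]

lemma pm_congr (ν : Measure (I → Bool)) (i : I) {W : Finset I} {h h' : I → ℝ}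
    (hh : ∀ j ∈ W, h j = h' j) : pm ν i W h = pm ν i W h' := by
  unfold pm Np Zp
  rw [wt_congr hh]

lemma vel_congr (ν : Measure (I → Bool)) (i : I) {W : Finset I} (s : ℝ) {y y' : I → ℝ}
    (hh : ∀ j ∈ W, y j = y' j) : vel ν i W s y = vel ν i W s y' :=
  pm_congr ν i fun j hj => by rw [hh j hj]

lemma IsLip.vel {ν : Measure (I → Bool)} {L : ℝ} (hL : IsLip ν L) (i : I) (W : Finset I)
    {s s' r r' : ℝ} {y y' : I → ℝ} (hr : 0 ≤ r) (hy : ∀ j ∈ W, |y j - y' j| ≤ r)
    (hs : |s - s'| ≤ r') : |vel ν i W s y - vel ν i W s' y'| ≤ L * (2 * r + r') := by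
  refine hL i W _ _ _ (by linarith [abs_nonneg (s - s')]) fun j hj => ?_
  have := abs_fld_sub_le s s' (y j) (y' j)
  linarith [hy j hj]

@[fun_prop]
lemma measurable_shift {α : Type*} [MeasurableSpace α] (F : Finset I) (s : ℝ) {z : α → I → ℝ}
    {ω : α → I → Bool} (hz : Measurable z) (hω : Measurable ω) :
    Measurable (fun a => shift F s (z a) (ω a)) := by
  refine measurable_pi_lambda _ fun j => ?_
  unfold shift
  by_cases hj : j ∈ F
  · simp only [hj, if_true]
    fun_prop
  · simp only [hj, if_false]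
    fun_prop

lemma shift_of_mem {F : Finset I} {j : I} (hj : j ∈ F) (s : ℝ) (z : I → ℝ) (ω : I → Bool) :
    shift F s z ω j = z j + s * bv (ω j) := by
  simp [shift, hj]

lemma shift_zero (F : Finset I) (z : I → ℝ) (ω : I → Bool) : shift F 0 z ω = z := by
  funext j
  simp [shift]

lemma shift_shift (F : Finset I) (s s' : ℝ) (z : I → ℝ) (ω : I → Bool) :
    shift F s' (shift F s z ω) ω = shift F (s + s') z ω := by
  funext j
  unfold shift
  split_ifs <;> ring

lemma abs_shift_sub_le (F : Finset I) (s : ℝ) (z : I → ℝ) (ω : I → Bool) (j : I) :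
    |shift F s z ω j - z j| ≤ |s| := by
  unfold shift
  split_ifs
  · rw [add_sub_cancel_left, abs_mul]
    exact mul_le_of_le_one_right (abs_nonneg _) (abs_bv_le _)
  · simp

end Crest.Agent.R168
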