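import Crest.Agent.R168.Bayes

/-!
The resampling chain: a process with exact marginals `obs ν F (u δ)` whose increments are `δ`
times a posterior sample.
-/

set_option autoImplicit false
set_option linter.unusedSectionVars false

open MeasureTheory ProbabilityTheory Filter Topology
open scoped ENNReal NNReal

universe u

namespace Crest.Agent.R168

variable {I : Type u} (ν : Measure (I → Bool)) [IsProbabilityMeasure ν]

/-- The martingale part of the chain. -/
noncomputable def mart {Ω : Type*} (F : Finset I) (δ : ℝ) (y : ℕ → Ω → I → ℝ)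
    (ω : ℕ → Ω → I → Bool) (u : ℕ) (i : I) (x : Ω) : ℝ :=
  ∑ u' ∈ Finset.range u, (bv (ω u' x i) - vel ν i F (u' * δ) (y u' x))

lemma abs_bv_sub_vel_le (b : Bool) (i : I) (F : Finset I) (s : ℝ) (y : I → ℝ) :
    |bv b - vel ν i F s y| ≤ 1 := by
  have := bv_nonneg b
  have := bv_le_one b
  have := vel_nonneg ν i F s y
  have := vel_le_one ν i F s y
  rw [abs_le]
  constructor <;> linarith

lemma abs_mart_le {Ω : Type*} (F : Finset I) (δ : ℝ) (y : ℕ → Ω → I → ℝ)
    (ω : ℕ → Ω → I → Bool) (u : ℕ) (i : I) (x : Ω) : |mart ν F δ y ω u i x| ≤ u := by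
  refine (Finset.abs_sum_le_sum_abs _ _).trans ?_
  have := Finset.sum_le_card_nsmul (Finset.range u)
    (fun u' => |bv (ω u' x i) - vel ν i F (u' * δ) (y u' x)|) 1
    fun u' _ => abs_bv_sub_vel_le ν _ i F _ _
  simpa using this

lemma measurable_mart {Ω : Type*} [MeasurableSpace Ω] (F : Finset I) (δ : ℝ)
    {y : ℕ → Ω → I → ℝ} {ω : ℕ → Ω → I → Bool} (hy : ∀ u, Measurable (y u))
    (hω : ∀ u, Measurable (ω u)) (u : ℕ) (i : I) : Measurable (mart ν F δ y ω u i) := by
  unfold mart
  refine Finset.measurable_sum _ fun u' _ => ?_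
  have := hω u'
  exact Measurable.sub (by fun_prop) ((measurable_vel ν i F _).comp (hy u'))

/-- The properties of the resampling chain up to step `U`. -/
structure IsChain (F : Finset I) (δ : ℝ) (U : ℕ) {Ω : Type*} [MeasurableSpace Ω] (P : Measure Ω)
    (y : ℕ → Ω → I → ℝ) (ω : ℕ → Ω → I → Bool) : Prop where
  my : ∀ u, Measurable (y u)
  mω : ∀ u, Measurable (ω u)
  law : ∀ u ≤ U, P.map (y u) = obs ν F (u * δ)
  step : ∀ u < U, ∀ x, y (u + 1) x = shift F δ (y u x) (ω u x)
  hmart : ∀ u ≤ U, ∀ i, ∫ x, mart ν F δ y ω u i x ^ 2 ∂P ≤ u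

theorem exists_chain (F : Finset I) (δ : ℝ) (U : ℕ) :
    ∃ (Ω : Type u) (_ : MeasurableSpace Ω) (P : Measure Ω) (_ : IsProbabilityMeasure P)
      (y : ℕ → Ω → I → ℝ) (ω : ℕ → Ω → I → Bool), IsChain ν F δ U P y ω := by
  induction U with
  | zero =>
    refine ⟨I → ℝ, inferInstance, gam I, inferInstance, fun _ z => z, fun _ _ _ => false,
      fun _ => measurable_id, fun _ => measurable_const, fun u hu => ?_,
      fun u hu => absurd hu (Nat.not_lt_zero _), fun u hu i => ?_⟩
    · obtain rfl : u = 0 := by omega
      simp [obs_zero]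
    · obtain rfl : u = 0 := by omega
      simp [mart]
  | succ U ih =>
    obtain ⟨Ω, mΩ, P, hP, y, ω, hc⟩ := ih
    have hyU := hc.my U
    let y' : ℕ → Ω × (I → Bool) → I → ℝ := fun u p =>
      if u ≤ U then y u p.1 else shift F δ (y U p.1) p.2
    let ω' : ℕ → Ω × (I → Bool) → I → Bool := fun u p => if u < U then ω u p.1 else p.2
    have hP' := isProbabilityMeasure_resample ν P F (U * δ) hyU
    have hfst := resample_map_fst ν P F (U * δ) hyU
    have hy' : ∀ u, Measurable (y' u) := by
      intro u
      have := hc.my u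
      simp only [y']
      split_ifs
      · fun_prop
      · fun_prop
    have hω' : ∀ u, Measurable (ω' u) := by
      intro u
      have := hc.mω u
      simp only [ω']
      split_ifs
      · fun_prop
      · fun_prop
    have hmart : ∀ u ≤ U, ∀ i p, mart ν F δ y' ω' u i p = mart ν F δ y ω u i p.1 := by
      intro u hu i p
      refine Finset.sum_congr rfl fun u' hu' => ?_
      have h1 : u' < U := lt_of_lt_of_le (Finset.mem_range.1 hu') hu
      simp only [y', ω', h1, h1.le, if_true]
    have hint : ∀ {g : Ω → ℝ}, Measurable g →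
        ∫ p, g p.1 ∂(resample ν P F (U * δ) (y U)) = ∫ x, g x ∂P := by
      intro g hg
      conv_rhs => rw [← hfst]
      rw [integral_map (by fun_prop) hg.aestronglyMeasurable]
    refine ⟨Ω × (I → Bool), inferInstance, resample ν P F (U * δ) (y U), hP', y', ω', hy', hω',
      fun u hu => ?_, fun u hu p => ?_, fun u hu i => ?_⟩
    · rcases Nat.lt_or_ge U u with h | h
      · obtain rfl : u = U + 1 := by omega
        have h1 : y' (U + 1) = (fun q : (I → ℝ) × (I → Bool) => shift F δ q.1 q.2) ∘
            (fun p => (y U p.1, p.2)) := by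
          funext p
          simp [y']
        rw [h1, ← Measure.map_map (by fun_prop) (by fun_prop),
          resample_map_pair ν P F _ hyU (hc.law U le_rfl), joint,
          Measure.map_map (by fun_prop) (by fun_prop), obs]
        congr 1
        funext p
        simp only [Function.comp, shift_shift]
        push_cast
        ring_nf
      · have h1 : y' u = y u ∘ Prod.fst := by
          funext p
          simp [y', h]
        rw [h1, ← Measure.map_map (hc.my u) (by fun_prop), hfst, hc.law u h]
    · rcases Nat.lt_or_ge u U with h | h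
      · have h1 : u + 1 ≤ U := h
        simp only [y', ω', h, h1, h.le, if_true]
        exact hc.step u h p.1
      · obtain rfl : u = U := by omega
        simp [y', ω']
    · rcases Nat.lt_or_ge U u with h | h
      · obtain rfl : u = U + 1 := by omega
        have hm := measurable_mart ν F δ hc.my hc.mω U i
        have hv : Measurable (fun x => vel ν i F (U * δ) (y U x)) :=
          (measurable_vel ν i F _).comp hyU
        have h1 : ∀ p : Ω × (I → Bool), mart ν F δ y' ω' (U + 1) i p ^ 2 ≤
            mart ν F δ y ω U i p.1 ^ 2 + 2 * (mart ν F δ y ω U i p.1 * bv (p.2 i)) -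
              2 * (mart ν F δ y ω U i p.1 * vel ν i F (U * δ) (y U p.1)) + 1 := by
          intro p
          have h2 : mart ν F δ y' ω' (U + 1) i p =
              mart ν F δ y ω U i p.1 + (bv (p.2 i) - vel ν i F (U * δ) (y U p.1)) := by
            rw [← hmart U le_rfl i p, mart, Finset.sum_range_succ]
            simp [y', ω', mart]
          have h3 := abs_bv_sub_vel_le ν (p.2 i) i F (U * δ) (y U p.1)
          have h4 : (bv (p.2 i) - vel ν i F (U * δ) (y U p.1)) ^ 2 ≤ 1 := by
            rw [← sq_abs]
            exact pow_le_one₀ (abs_nonneg _) h3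
          rw [h2]
          nlinarith
        have hb : ∀ {f : Ω × (I → Bool) → ℝ} (C : ℝ), Measurable f → (∀ p, |f p| ≤ C) →
            Integrable f (resample ν P F (U * δ) (y U)) := fun C hf hb =>
          Integrable.of_bound (C := C) hf.aestronglyMeasurable (ae_of_all _ hb)
        have hi1 : Integrable (fun p : Ω × (I → Bool) => mart ν F δ y ω U i p.1 ^ 2)
            (resample ν P F (U * δ) (y U)) := hb ((U : ℝ) ^ 2) (by fun_prop) fun p => by
          rw [abs_pow]
          exact pow_le_pow_left₀ (abs_nonneg _) (abs_mart_le ν F δ y ω U i p.1) 2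
        have hi2 : Integrable (fun p : Ω × (I → Bool) => mart ν F δ y ω U i p.1 * bv (p.2 i))
            (resample ν P F (U * δ) (y U)) := hb U (by fun_prop) fun p => by
          rw [abs_mul]
          exact (mul_le_of_le_one_right (abs_nonneg _) (abs_bv_le _)).trans
            (abs_mart_le ν F δ y ω U i p.1)
        have hi3 : Integrable (fun p : Ω × (I → Bool) =>
            mart ν F δ y ω U i p.1 * vel ν i F (U * δ) (y U p.1))
            (resample ν P F (U * δ) (y U)) :=
          hb U ((hm.comp measurable_fst).mul (hv.comp measurable_fst)) fun p => by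
          rw [abs_mul]
          exact (mul_le_of_le_one_right (abs_nonneg _) (abs_vel_le ν _ _ _ _)).trans
            (abs_mart_le ν F δ y ω U i p.1)
        have hi4 : Integrable (fun p : Ω × (I → Bool) => mart ν F δ y ω U i p.1 ^ 2 +
            2 * (mart ν F δ y ω U i p.1 * bv (p.2 i))) (resample ν P F (U * δ) (y U)) :=
          hi1.add (hi2.const_mul 2)
        have hi5 : Integrable (fun p : Ω × (I → Bool) => mart ν F δ y ω U i p.1 ^ 2 +
            2 * (mart ν F δ y ω U i p.1 * bv (p.2 i)) -
              2 * (mart ν F δ y ω U i p.1 * vel ν i F (U * δ) (y U p.1)))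
            (resample ν P F (U * δ) (y U)) := hi4.sub (hi3.const_mul 2)
        refine (integral_mono_of_nonneg (ae_of_all _ fun p => by positivity)
          (hi5.add (integrable_const 1)) (ae_of_all _ h1)).trans ?_
        simp only [Pi.add_apply]
        rw [integral_add hi5 (integrable_const 1), integral_sub hi4 (hi3.const_mul 2),
          integral_add hi1 (hi2.const_mul 2), integral_const_mul, integral_const_mul,
          integral_resample_mul ν P F _ hyU hm (abs_mart_le ν F δ y ω U i) i,
          hint (g := fun x => mart ν F δ y ω U i x ^ 2) (by fun_prop),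
          hint (g := fun x => mart ν F δ y ω U i x * vel ν i F (U * δ) (y U x)) (by fun_prop)]
        have := hc.hmart U le_rfl i
        simp only [integral_const, probReal_univ, smul_eq_mul, mul_one]
        push_cast
        linarith
      · have hm := measurable_mart ν F δ hc.my hc.mω u i
        simp_rw [hmart u h i]
        rw [hint (g := fun x => mart ν F δ y ω u i x ^ 2) (by fun_prop)]
        exact hc.hmart u h i

variable {ν}

section consequences

variable {F : Finset I} {δ : ℝ} {U : ℕ} {Ω : Type*} [MeasurableSpace Ω] {P : Measure Ω}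
  {y : ℕ → Ω → I → ℝ} {ω : ℕ → Ω → I → Bool}

lemma IsChain.abs_incr_le (hc : IsChain ν F δ U P y ω) (hδ : 0 ≤ δ) (u k : ℕ) (hu : u + k ≤ U)
    (x : Ω) (i : I) : |y (u + k) x i - y u x i| ≤ k * δ := by
  induction k with
  | zero => simp
  | succ k ih =>
    have h1 := ih (by omega)
    have h2 := abs_shift_sub_le F δ (y (u + k) x) (ω (u + k) x) i
    rw [← hc.step (u + k) (by omega) x, abs_of_nonneg hδ] at h2
    have h3 := abs_sub_le (y (u + k + 1) x i) (y (u + k) x i) (y u x i)
    rw [← add_assoc]
    push_cast
    linarith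

lemma IsChain.sub_eq (hc : IsChain ν F δ U P y ω) (u : ℕ) (hu : u ≤ U) (x : Ω) {i : I}
    (hi : i ∈ F) : y u x i - y 0 x i =
      δ * mart ν F δ y ω u i x + δ * ∑ u' ∈ Finset.range u, vel ν i F (u' * δ) (y u' x) := by
  induction u with
  | zero => simp [mart]
  | succ u ih =>
    have h1 := ih (by omega)
    rw [hc.step u (by omega) x, shift_of_mem hi]
    simp only [mart, Finset.sum_range_succ] at h1 ⊢
    linarith

end consequences

end Crest.Agent.R168
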