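import Crest.Agent.R168.Chain

/-!
Comparison of the multi-scale scheme with the resampling chain.
-/

set_option autoImplicit false
set_option linter.unusedSectionVars false

open MeasureTheory ProbabilityTheory Filter Topology
open scoped ENNReal NNReal

universe u

namespace Crest.Agent.R168

variable {I : Type u} {ν : Measure (I → Bool)} [IsProbabilityMeasure ν]

lemma lintegral_abs_le_of_sq {Ω : Type*} [MeasurableSpace Ω] {P : Measure Ω}
    [IsProbabilityMeasure P] {f : Ω → ℝ} (hf : Measurable f) {C : ℝ} (hb : ∀ x, |f x| ≤ C)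
    {ε : ℝ} (hε : 0 < ε) (h : ∫ x, f x ^ 2 ∂P ≤ ε ^ 2) :
    ∫⁻ x, ENNReal.ofReal |f x| ∂P ≤ ENNReal.ofReal ε := by
  have hi1 : Integrable (fun x => |f x|) P :=
    Integrable.of_bound (C := C) (Measurable.aestronglyMeasurable (by fun_prop))
      (ae_of_all _ fun x => by simpa using hb x)
  have hi2 : Integrable (fun x => f x ^ 2) P :=
    Integrable.of_bound (C := C ^ 2) (Measurable.aestronglyMeasurable (by fun_prop))
      (ae_of_all _ fun x => by
        rw [Real.norm_eq_abs, abs_pow]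
        exact pow_le_pow_left₀ (abs_nonneg _) (hb x) 2)
  rw [← ofReal_integral_eq_lintegral_ofReal hi1 (ae_of_all _ fun x => abs_nonneg _)]
  refine ENNReal.ofReal_le_ofReal ?_
  have h1 : ∀ x, |f x| ≤ f x ^ 2 / (2 * ε) + ε / 2 := by
    intro x
    rw [← sq_abs, div_add_div _ _ (by positivity) (by positivity), le_div_iff₀ (by positivity)]
    nlinarith [sq_nonneg (|f x| - ε)]
  have hi3 : Integrable (fun x => f x ^ 2 / (2 * ε)) P := hi2.div_const _
  calc ∫ x, |f x| ∂P ≤ ∫ x, (f x ^ 2 / (2 * ε) + ε / 2) ∂P :=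
        integral_mono hi1 (hi3.add (integrable_const _)) h1
    _ = (∫ x, f x ^ 2 ∂P) / (2 * ε) + ε / 2 := by
        rw [integral_add hi3 (integrable_const _), integral_div]
        simp
    _ ≤ ε ^ 2 / (2 * ε) + ε / 2 := by gcongr
    _ = ε := by field_simp; ring

/-- The windows exhaust the index set. -/
def Exhausts (W : ℕ → I → Finset I) : Prop := ∀ (i : I) (F : Finset I), ∃ N, F ⊆ W N i

lemma Jq_le (W : ℕ → I → Finset I) (K H : ℕ) (i : I) (N : ℕ) : Jq ν W K H i N ≤ H := by
  have := Finset.sum_le_card_nsmul (Finset.range H) (fun l => Mq ν i (W N i) ((l : ℝ) / K)) 1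
    fun l _ => Mq_le_one ν _ _ _
  simpa [Jq] using this

lemma sel_nonempty (W : ℕ → I → Finset I) (K H j : ℕ) (i : I) :
    {N | ∀ N', Jq ν W K H i N' ≤ Jq ν W K H i N + 1 / ((j : ℝ) + 1) ^ 2}.Nonempty := by
  have hb : BddAbove (Set.range (Jq ν W K H i)) := ⟨H, by
    rintro _ ⟨N, rfl⟩
    exact Jq_le W K H i N⟩
  have hpos : (0 : ℝ) < 1 / ((j : ℝ) + 1) ^ 2 := by positivity
  obtain ⟨N, hN⟩ := exists_lt_of_lt_ciSup
    (f := Jq ν W K H i) (b := (⨆ N, Jq ν W K H i N) - 1 / ((j : ℝ) + 1) ^ 2) (by linarith)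
  refine ⟨N, fun N' => ?_⟩
  have := le_ciSup hb N'
  linarith

lemma win_err {W : ℕ → I → Finset I} (hW : Exhausts W) (K H j : ℕ) (i : I) {F : Finset I}
    (hF : win ν W K H j i ⊆ F) {l : ℕ} (hl : l < H) :
    Mq ν i F ((l : ℝ) / K) - Mq ν i (win ν W K H j i) ((l : ℝ) / K) ≤ (1 / ((j : ℝ) + 1)) ^ 2 := by
  obtain ⟨N', hN'⟩ := hW i F
  have h1 := Nat.sInf_mem (sel_nonempty (ν := ν) W K H j i) N'
  have h2 : Jq ν W K H i N' - Jq ν W K H i (sel ν W K H j i) =
      ∑ l ∈ Finset.range H, (Mq ν i (W N' i) ((l : ℝ) / K) -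
        Mq ν i (win ν W K H j i) ((l : ℝ) / K)) := by
    rw [Finset.sum_sub_distrib]
    rfl
  have h3 := Finset.single_le_sum (f := fun l : ℕ => Mq ν i (W N' i) ((l : ℝ) / K) -
        Mq ν i (win ν W K H j i) ((l : ℝ) / K)) (s := Finset.range H)
    (fun l _ => sub_nonneg.2 (Mq_mono ν (hF.trans hN') i _)) (Finset.mem_range.2 hl)
  have h4 := Mq_mono ν hN' i ((l : ℝ) / K)
  rw [one_div_pow]
  change Jq ν W K H i N' ≤ Jq ν W K H i (sel ν W K H j i) + _ at h1
  linarith

lemma lintegral_win_err {W : ℕ → I → Finset I} (hW : Exhausts W) (K H j : ℕ) (i : I)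
    {F : Finset I} (hF : win ν W K H j i ⊆ F) {l : ℕ} (hl : l < H) :
    ∫⁻ y, ENNReal.ofReal |vel ν i F ((l : ℝ) / K) y - vel ν i (win ν W K H j i) ((l : ℝ) / K) y|
      ∂(obs ν F ((l : ℝ) / K)) ≤ ENNReal.ofReal (1 / ((j : ℝ) + 1)) := by
  refine lintegral_abs_le_of_sq (C := 2)
    (f := fun y => vel ν i F ((l : ℝ) / K) y - vel ν i (win ν W K H j i) ((l : ℝ) / K) y)
    ((measurable_vel ν i F _).sub (measurable_vel ν i _ _))
    (fun y => ?_) (by positivity) ?_
  · have := abs_sub (vel ν i F ((l : ℝ) / K) y) (vel ν i (win ν W K H j i) ((l : ℝ) / K) y)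
    linarith [abs_vel_le ν i F ((l : ℝ) / K) y, abs_vel_le ν i (win ν W K H j i) ((l : ℝ) / K) y]
  · rw [integral_vel_sub_sq ν hF]
    exact win_err hW K H j i hF hl

lemma measurable_sch (W : ℕ → I → Finset I) (K H t j : ℕ) (i : I) :
    Measurable (fun z => sch ν W K H z t j i) := by
  induction t generalizing j i with
  | zero => simp [sch]
  | succ t ih =>
    simp only [sch]
    refine (ih j i).add (Measurable.const_mul ((measurable_vel ν i _ _).comp ?_) _)
    exact measurable_pi_lambda _ fun i' => (measurable_pi_apply i').add (ih _ i')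

lemma measurable_pos (W : ℕ → I → Finset I) (L : ℝ) (n : ℕ) (i : I) :
    Measurable (fun z => pos ν W L n z i) :=
  (measurable_pi_apply i).add (measurable_sch W _ _ _ _ i)

/-- The chain seen at the coarse times. -/
structure IsCoarse (ν : Measure (I → Bool)) (F : Finset I) (K H : ℕ) (e μ : ℝ) {Ω : Type*}
    [MeasurableSpace Ω] (P : Measure Ω) (Y : ℕ → Ω → I → ℝ) : Prop where
  mY : ∀ l, Measurable (Y l)
  law : ∀ l ≤ H, P.map (Y l) = obs ν F ((l : ℝ) / K)
  err : ∀ t ≤ H, ∀ i ∈ F, ∫⁻ x, ENNReal.ofReal (|Y t x i - Y 0 x i -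
    (1 / K : ℝ) * ∑ l ∈ Finset.range t, vel ν i F ((l : ℝ) / K) (Y l x)| - e) ∂P ≤
      ENNReal.ofReal μ

lemma ofReal_le_combo {ι : Type*} (w : Finset ι) {a b c κ lam : ℝ} {p r : ι → ℝ} (hκ : 0 ≤ κ)
    (hlam : 0 ≤ lam)
    (h : a ≤ b + κ * c + lam * ∑ i ∈ w, (max (p i) 0 + max (r i) 0)) :
    ENNReal.ofReal a ≤ ENNReal.ofReal b + ENNReal.ofReal κ * ENNReal.ofReal c +
      ENNReal.ofReal lam * ∑ i ∈ w, (ENNReal.ofReal (p i) + ENNReal.ofReal (r i)) := by
  have h1 : ∑ i ∈ w, (ENNReal.ofReal (p i) + ENNReal.ofReal (r i)) =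
      ENNReal.ofReal (∑ i ∈ w, (max (p i) 0 + max (r i) 0)) := by
    rw [ENNReal.ofReal_sum_of_nonneg (fun i _ => by positivity)]
    refine Finset.sum_congr rfl fun i _ => ?_
    rw [ENNReal.ofReal_add (by positivity) (by positivity)]
    simp
  rw [h1, ← ENNReal.ofReal_mul hκ, ← ENNReal.ofReal_mul hlam]
  refine (ENNReal.ofReal_le_ofReal h).trans ?_
  refine ENNReal.ofReal_add_le.trans ?_
  gcongr
  exact ENNReal.ofReal_add_le

lemma coarse_main {L : ℝ} (hL : IsLip ν L) (hL0 : 0 ≤ L) {W : ℕ → I → Finset I}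
    (hW : Exhausts W) (K H : ℕ) (t : ℕ) (ht : t ≤ H) (j : ℕ) (i : I) :
    ∃ (F₀ : Finset I) (C : ℝ), 0 ≤ C ∧ ∀ (F : Finset I), F₀ ⊆ F →
      ∀ (e μ : ℝ), 0 ≤ e → 0 ≤ μ → ∀ (Ω : Type u) [MeasurableSpace Ω] (P : Measure Ω)
        (Y : ℕ → Ω → I → ℝ), IsCoarse ν F K H e μ P Y →
        ∫⁻ x, ENNReal.ofReal (|(1 / K : ℝ) * ∑ l ∈ Finset.range t,
          vel ν i F ((l : ℝ) / K) (Y l x) - sch ν W K H (Y 0 x) t j i| -
            e * ((1 + 2 * L * (1 / K)) ^ t - 1)) ∂P ≤
          ENNReal.ofReal (t * (1 / K) * (1 + 2 * L * (1 / K)) ^ t / (j + 1) + C * μ) := by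
  classical
  induction t generalizing j i with
  | zero =>
    refine ⟨∅, 0, le_rfl, fun F _ e μ _ _ Ω _ P Y _ => ?_⟩
    simp [sch]
  | succ t ih =>
    obtain ⟨F₁, C₁, hC₁, h₁⟩ := ih (by omega) j i
    set w := win ν W K H j i with hw
    set j' := (j + 1) * w.card with hj'
    choose F₂ C₂ hC₂ h₂ using fun i' => ih (by omega) j' i'
    set κ : ℝ := 1 / K with hκ
    have hκ0 : 0 ≤ κ := by positivity
    set q : ℝ := 1 + 2 * L * κ with hq
    have hq1 : 1 ≤ q := by
      have : 0 ≤ 2 * L * κ := by positivity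
      linarith
    refine ⟨F₁ ∪ w ∪ w.biUnion F₂, C₁ + 2 * L * κ * ∑ i' ∈ w, (1 + C₂ i'), ?_,
      fun F hF e μ he hμ Ω _ P Y hc => ?_⟩
    · have : 0 ≤ ∑ i' ∈ w, (1 + C₂ i') := Finset.sum_nonneg fun i' _ => by linarith [hC₂ i']
      positivity
    have hF₁ : F₁ ⊆ F := (Finset.subset_union_left.trans Finset.subset_union_left).trans hF
    have hwF : w ⊆ F := (Finset.subset_union_right.trans Finset.subset_union_left).trans hF
    have hF₂ : ∀ i' ∈ w, F₂ i' ⊆ F := fun i' hi' =>
      ((Finset.subset_biUnion_of_mem F₂ hi').trans Finset.subset_union_right).trans hF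
    let X : ℕ → I → Ω → ℝ := fun j i x =>
      |κ * ∑ l ∈ Finset.range t, vel ν i F ((l : ℝ) / K) (Y l x) - sch ν W K H (Y 0 x) t j i| -
        e * (q ^ t - 1)
    let A : I → Ω → ℝ := fun i x =>
      |Y t x i - Y 0 x i - κ * ∑ l ∈ Finset.range t, vel ν i F ((l : ℝ) / K) (Y l x)| - e
    let D : Ω → ℝ := fun x =>
      |vel ν i F ((t : ℝ) / K) (Y t x) - vel ν i w ((t : ℝ) / K) (Y t x)|
    have hmS : ∀ i, Measurable
        (fun x => ∑ l ∈ Finset.range t, vel ν i F ((l : ℝ) / K) (Y l x)) := fun i =>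
      Finset.measurable_sum _ fun l _ => (measurable_vel ν i F _).comp (hc.mY l)
    have hmX : ∀ j i, Measurable (X j i) := by
      intro j i
      have h1 := hmS i
      have h2 : Measurable (fun x => sch ν W K H (Y 0 x) t j i) :=
        (measurable_sch W K H t j i).comp (hc.mY 0)
      simp only [X]
      fun_prop
    have hmA : ∀ i, Measurable (A i) := by
      intro i
      have h1 := hmS i
      have h2 := hc.mY t
      have h3 := hc.mY 0
      simp only [A]
      fun_prop
    have hmD0 : Measurable (fun y : I → ℝ =>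
        |vel ν i F ((t : ℝ) / K) y - vel ν i w ((t : ℝ) / K) y|) := by
      have h1 := measurable_vel ν i F ((t : ℝ) / K)
      have h2 := measurable_vel ν i w ((t : ℝ) / K)
      fun_prop
    have hmD : Measurable D := hmD0.comp (hc.mY t)
    have hpt : ∀ x, |κ * ∑ l ∈ Finset.range (t + 1), vel ν i F ((l : ℝ) / K) (Y l x) -
        sch ν W K H (Y 0 x) (t + 1) j i| - e * (q ^ (t + 1) - 1) ≤
        X j i x + κ * D x + 2 * L * κ * ∑ i' ∈ w, (max (A i' x) 0 + max (X j' i' x) 0) := by
      intro x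
      set R := ∑ i' ∈ w, (max (A i' x) 0 + max (X j' i' x) 0) with hR
      have hR0 : 0 ≤ R := Finset.sum_nonneg fun i' _ => by positivity
      have hq0 : 0 ≤ e * q ^ t := by positivity
      have h1 : ∀ i' ∈ w, |Y t x i' - (Y 0 x i' + sch ν W K H (Y 0 x) t j' i')| ≤ e * q ^ t + R := by
        intro i' hi'
        have h2 : max (A i' x) 0 + max (X j' i' x) 0 ≤ R :=
          Finset.single_le_sum (f := fun i' => max (A i' x) 0 + max (X j' i' x) 0)
            (fun i' _ => by positivity) hi'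
        have h3 := le_max_left (A i' x) 0
        have h4 := le_max_left (X j' i' x) 0
        have h5 := abs_add_le
          (Y t x i' - Y 0 x i' - κ * ∑ l ∈ Finset.range t, vel ν i' F ((l : ℝ) / K) (Y l x))
          (κ * ∑ l ∈ Finset.range t, vel ν i' F ((l : ℝ) / K) (Y l x) -
            sch ν W K H (Y 0 x) t j' i')
        have h6 : Y t x i' - (Y 0 x i' + sch ν W K H (Y 0 x) t j' i') =
          (Y t x i' - Y 0 x i' - κ * ∑ l ∈ Finset.range t, vel ν i' F ((l : ℝ) / K) (Y l x)) +
          (κ * ∑ l ∈ Finset.range t, vel ν i' F ((l : ℝ) / K) (Y l x) -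
            sch ν W K H (Y 0 x) t j' i') := by ring
        rw [h6]
        simp only [A, X] at h3 h4
        linarith
      have h2 := hL.vel i w (s := (t : ℝ) / K) (s' := (t : ℝ) / K) (r' := 0) (y := Y t x)
        (y' := fun i' => Y 0 x i' + sch ν W K H (Y 0 x) t j' i') (by positivity) h1 (by simp)
      have h3 : κ * ∑ l ∈ Finset.range (t + 1), vel ν i F ((l : ℝ) / K) (Y l x) -
          sch ν W K H (Y 0 x) (t + 1) j i =
          (κ * ∑ l ∈ Finset.range t, vel ν i F ((l : ℝ) / K) (Y l x) -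
            sch ν W K H (Y 0 x) t j i) +
          κ * (vel ν i F ((t : ℝ) / K) (Y t x) - vel ν i w ((t : ℝ) / K) (Y t x)) +
          κ * (vel ν i w ((t : ℝ) / K) (Y t x) - vel ν i w ((t : ℝ) / K)
            (fun i' => Y 0 x i' + sch ν W K H (Y 0 x) t j' i')) := by
        rw [Finset.sum_range_succ]
        simp only [sch]
        rw [← hw, ← hj', ← hκ]
        ring
      rw [h3]
      refine le_trans (sub_le_sub_right (abs_add_three _ _ _) _) ?_
      rw [abs_mul, abs_mul, abs_of_nonneg hκ0]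
      have h4 := mul_le_mul_of_nonneg_left h2 hκ0
      simp only [X, D]
      have h5 : e * (q ^ (t + 1) - 1) = e * (q ^ t - 1) + 2 * L * κ * (e * q ^ t) := by
        rw [pow_succ, hq]
        ring
      rw [h5]
      nlinarith
    calc _ ≤ ∫⁻ x, (ENNReal.ofReal (X j i x) + ENNReal.ofReal κ * ENNReal.ofReal (D x) +
          ENNReal.ofReal (2 * L * κ) *
            ∑ i' ∈ w, (ENNReal.ofReal (A i' x) + ENNReal.ofReal (X j' i' x))) ∂P :=
          lintegral_mono fun x =>
            ofReal_le_combo w hκ0 (by positivity) (hpt x)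
      _ = ∫⁻ x, ENNReal.ofReal (X j i x) ∂P + ENNReal.ofReal κ * ∫⁻ x, ENNReal.ofReal (D x) ∂P +
          ENNReal.ofReal (2 * L * κ) * ∑ i' ∈ w, (∫⁻ x, ENNReal.ofReal (A i' x) ∂P +
            ∫⁻ x, ENNReal.ofReal (X j' i' x) ∂P) := by
          have m1 : ∀ j i, Measurable (fun x => ENNReal.ofReal (X j i x)) :=
            fun j i => (hmX j i).ennreal_ofReal
          have m2 : ∀ i, Measurable (fun x => ENNReal.ofReal (A i x)) :=
            fun i => (hmA i).ennreal_ofReal
          have m3 : Measurable (fun x => ENNReal.ofReal (D x)) := hmD.ennreal_ofReal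
          have m4 : ∀ i', Measurable
              (fun x => ENNReal.ofReal (A i' x) + ENNReal.ofReal (X j' i' x)) :=
            fun i' => (m2 i').add (m1 j' i')
          have m5 : Measurable (fun x => ENNReal.ofReal (X j i x) +
              ENNReal.ofReal κ * ENNReal.ofReal (D x)) := (m1 j i).add (m3.const_mul _)
          have m6 : Measurable (fun x =>
              ∑ i' ∈ w, (ENNReal.ofReal (A i' x) + ENNReal.ofReal (X j' i' x))) :=
            Finset.measurable_sum _ fun i' _ => m4 i'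
          rw [lintegral_add_left m5, lintegral_add_left (m1 j i),
            lintegral_const_mul _ m3, lintegral_const_mul _ m6,
            lintegral_finsetSum _ fun i' _ => m4 i']
          congr 2
          exact Finset.sum_congr rfl fun i' _ => lintegral_add_left (m2 i') _
      _ ≤ ENNReal.ofReal (t * κ * q ^ t / (j + 1) + C₁ * μ) +
          ENNReal.ofReal κ * ENNReal.ofReal (1 / ((j : ℝ) + 1)) +
          ENNReal.ofReal (2 * L * κ) * ∑ i' ∈ w, (ENNReal.ofReal μ +
            ENNReal.ofReal (t * κ * q ^ t / (j' + 1) + C₂ i' * μ)) := by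
          gcongr with i' hi'
          · exact h₁ F hF₁ e μ he hμ Ω P Y hc
          · have := lintegral_win_err (ν := ν) hW K H j i hwF (l := t) (by omega)
            rw [← hc.law t (by omega), lintegral_map hmD0.ennreal_ofReal (hc.mY t)] at this
            exact this
          · exact hc.err t (by omega) i' (hwF hi')
          · exact h₂ i' F (hF₂ i' hi') e μ he hμ Ω P Y hc
      _ = ENNReal.ofReal ((t * κ * q ^ t / (j + 1) + C₁ * μ) + κ * (1 / ((j : ℝ) + 1)) +
          (2 * L * κ) * ∑ i' ∈ w, (μ + (t * κ * q ^ t / (j' + 1) + C₂ i' * μ))) := by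
          have p1 : ∀ i', 0 ≤ t * κ * q ^ t / (j' + 1) + C₂ i' * μ := fun i' => by
            have := hC₂ i'
            positivity
          have p2 : 0 ≤ ∑ i' ∈ w, (μ + (t * κ * q ^ t / (j' + 1) + C₂ i' * μ)) :=
            Finset.sum_nonneg fun i' _ => add_nonneg hμ (p1 i')
          rw [ENNReal.ofReal_add (p := _ + κ * (1 / ((j : ℝ) + 1))) (by positivity)
              (by positivity),
            ENNReal.ofReal_add (q := κ * (1 / ((j : ℝ) + 1))) (by positivity) (by positivity),
            ENNReal.ofReal_mul hκ0,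
            ENNReal.ofReal_mul (p := 2 * L * κ) (by positivity),
            ENNReal.ofReal_sum_of_nonneg fun i' _ => add_nonneg hμ (p1 i')]
          congr 2
          exact Finset.sum_congr rfl fun i' _ => (ENNReal.ofReal_add hμ (p1 i')).symm
      _ ≤ _ := by
          refine ENNReal.ofReal_le_ofReal ?_
          have h1 : ∑ i' ∈ w, (μ + (t * κ * q ^ t / (j' + 1) + C₂ i' * μ)) =
              w.card * (t * κ * q ^ t / (j' + 1)) + (∑ i' ∈ w, (1 + C₂ i')) * μ := by
            rw [Finset.sum_mul, ← nsmul_eq_mul w.card, ← Finset.sum_const,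
              ← Finset.sum_add_distrib]
            exact Finset.sum_congr rfl fun i' _ => by ring
          have h2 : w.card * (t * κ * q ^ t / (j' + 1)) ≤ t * κ * q ^ t / (j + 1) := by
            rw [← mul_div_assoc, div_le_div_iff₀ (by positivity) (by positivity), hj']
            have : 0 ≤ t * κ * q ^ t := by positivity
            push_cast
            nlinarith
          have h3 : 1 ≤ q ^ (t + 1) := one_le_pow₀ hq1
          have h4 : t * κ * q ^ t / (j + 1) + κ * (1 / ((j : ℝ) + 1)) +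
              2 * L * κ * (t * κ * q ^ t / (j + 1)) ≤
              ((t + 1 : ℕ) : ℝ) * κ * q ^ (t + 1) / (j + 1) := by
            have h5 : t * κ * q ^ t / (j + 1) + κ * (1 / ((j : ℝ) + 1)) +
                2 * L * κ * (t * κ * q ^ t / (j + 1)) = (t * κ * q ^ (t + 1) + κ) / (j + 1) := by
              rw [pow_succ, hq]
              ring
            rw [h5]
            gcongr
            push_cast
            nlinarith
          rw [h1]
          have h6 : 2 * L * κ * (w.card * (t * κ * q ^ t / (j' + 1))) ≤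
              2 * L * κ * (t * κ * q ^ t / (j + 1)) := by gcongr
          nlinarith

end Crest.Agent.R168
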