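import Crest.Agent.R168.Bayes

/-!
Naturality of the output map under injections of index sets, and joint measurability in a
parameter.
-/

set_option autoImplicit false
set_option linter.unusedSectionVars false
set_option linter.unusedVariables false
set_option maxHeartbeats 400000

open MeasureTheory ProbabilityTheory Filter Topology
open scoped ENNReal NNReal

namespace Crest.Agent.R168

section natural

variable {I I' : Type*} (σ : I' ↪ I) {ν : Measure (I → Bool)} [IsProbabilityMeasure ν]
  {ν' : Measure (I' → Bool)} (hν : ν' = ν.map (fun ω => ω ∘ σ))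

lemma wt_map (W : Finset I') (h : I → ℝ) (ω : I → Bool) :
    wt (W.map σ) h ω = wt W (h ∘ σ) (ω ∘ σ) := by
  simp [wt, Finset.sum_map]

lemma measurable_comp_emb {X : Type*} [MeasurableSpace X] :
    Measurable (fun ω : I → X => ω ∘ σ) :=
  measurable_pi_lambda _ fun i => measurable_pi_apply (σ i)

include hν

lemma Zp_map (W : Finset I') (h : I → ℝ) : Zp ν (W.map σ) h = Zp ν' W (h ∘ σ) := by
  rw [hν, Zp, Zp, integral_map (measurable_comp_emb σ).aemeasurable
    (Measurable.aestronglyMeasurable (by fun_prop))]
  simp_rw [wt_map]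

lemma Np_map (i : I') (W : Finset I') (h : I → ℝ) :
    Np ν (σ i) (W.map σ) h = Np ν' i W (h ∘ σ) := by
  rw [hν, Np, Np, integral_map (measurable_comp_emb σ).aemeasurable
    (Measurable.aestronglyMeasurable (by fun_prop))]
  simp_rw [wt_map]
  rfl

lemma pm_map (i : I') (W : Finset I') (h : I → ℝ) :
    pm ν (σ i) (W.map σ) h = pm ν' i W (h ∘ σ) := by
  rw [pm, pm, Zp_map σ hν, Np_map σ hν]

lemma vel_map (i : I') (W : Finset I') (s : ℝ) (y : I → ℝ) :
    vel ν (σ i) (W.map σ) s y = vel ν' i W s (y ∘ σ) :=
  pm_map σ hν i W _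

omit hν in
lemma gam_map_comp : (gam I).map (fun z => z ∘ σ) = gam I' :=
  Measure.map_infinitePi_infinitePi_of_inj (P := fun _ : I => lap) σ.injective

lemma Mq_map (i : I') (W : Finset I') (s : ℝ) : Mq ν (σ i) (W.map σ) s = Mq ν' i W s := by
  have : IsProbabilityMeasure ν' := by
    rw [hν]
    exact Measure.isProbabilityMeasure_map (measurable_comp_emb σ).aemeasurable
  have h1 := measurable_vel ν' i W s
  have h2 := measurable_Zp_fld ν' W s
  rw [Mq, Mq, ← gam_map_comp σ, integral_map (measurable_comp_emb σ).aemeasurable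
    (Measurable.aestronglyMeasurable (by fun_prop))]
  simp_rw [vel_map σ hν, Zp_map σ hν]
  rfl

lemma IsLip.map {L : ℝ} (hL : IsLip ν L) : IsLip ν' L := by
  classical
  intro i W h h' r hr hh
  have h1 : ∀ g : I' → ℝ, pm ν' i W g = pm ν (σ i) (W.map σ) (Function.extend σ g 0) := by
    intro g
    rw [pm_map σ hν, Function.extend_comp σ.injective]
  rw [h1, h1]
  refine hL _ _ _ _ r hr fun j hj => ?_
  obtain ⟨j', hj', rfl⟩ := Finset.mem_map.1 hj
  rw [σ.injective.extend_apply, σ.injective.extend_apply]
  exact hh j' hj'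

variable {W : ℕ → I → Finset I} {W' : ℕ → I' → Finset I'}
  (hW : ∀ N i, W N (σ i) = (W' N i).map σ)

include hW

lemma Jq_map (K H : ℕ) (i : I') (N : ℕ) : Jq ν W K H (σ i) N = Jq ν' W' K H i N := by
  simp only [Jq, hW, Mq_map σ hν]

lemma sel_map (K H j : ℕ) (i : I') : sel ν W K H j (σ i) = sel ν' W' K H j i := by
  simp only [sel, Jq_map σ hν hW]

lemma win_map (K H j : ℕ) (i : I') : win ν W K H j (σ i) = (win ν' W' K H j i).map σ := by
  simp only [win, sel_map σ hν hW, hW]

lemma sch_map (K H : ℕ) (z : I → ℝ) (t j : ℕ) (i : I') :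
    sch ν W K H z t j (σ i) = sch ν' W' K H (z ∘ σ) t j i := by
  induction t generalizing j i with
  | zero => simp [sch]
  | succ t ih =>
    simp only [sch, win_map σ hν hW, vel_map σ hν, Finset.card_map, ih]
    congr 3
    funext i'
    simp only [Function.comp, ih]

lemma pos_map (L : ℝ) (n : ℕ) (z : I → ℝ) (i : I') :
    pos ν W L n z (σ i) = pos ν' W' L n (z ∘ σ) i := by
  simp only [pos, sch_map σ hν hW, Function.comp]

theorem Phi_map (L : ℝ) (z : I → ℝ) (i : I') :
    Phi ν W L z (σ i) = Phi ν' W' L (z ∘ σ) i := by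
  have : (∀ᶠ n : ℕ in atTop, (n : ℝ) / 2 < pos ν W L n z (σ i)) ↔
      (∀ᶠ n : ℕ in atTop, (n : ℝ) / 2 < pos ν' W' L n (z ∘ σ) i) := by
    simp only [pos_map σ hν hW]
  unfold Phi
  exact decide_eq_decide.2 this

end natural

section param

variable {I Θ : Type*} [Countable I] [MeasurableSpace Θ] (κ : Kernel Θ (I → Bool))
  [IsMarkovKernel κ]

lemma measurable_Zp_param (W : Finset I) :
    Measurable (fun p : Θ × (I → ℝ) => Zp (κ p.1) W p.2) := by
  have : StronglyMeasurable
      (Function.uncurry fun (p : Θ × (I → ℝ)) (ω : I → Bool) => wt W p.2 ω) :=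
    Measurable.stronglyMeasurable (by unfold Function.uncurry; fun_prop)
  exact (this.integral_kernel_prod_right (κ := Kernel.prodMkRight (I → ℝ) κ)).measurable

lemma measurable_Np_param (i : I) (W : Finset I) :
    Measurable (fun p : Θ × (I → ℝ) => Np (κ p.1) i W p.2) := by
  have : StronglyMeasurable
      (Function.uncurry fun (p : Θ × (I → ℝ)) (ω : I → Bool) => bv (ω i) * wt W p.2 ω) :=
    Measurable.stronglyMeasurable (by unfold Function.uncurry; fun_prop)
  exact (this.integral_kernel_prod_right (κ := Kernel.prodMkRight (I → ℝ) κ)).measurable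

lemma measurable_vel_param (i : I) (W : Finset I) (s : ℝ) :
    Measurable (fun p : Θ × (I → ℝ) => vel (κ p.1) i W s p.2) := by
  have h : Measurable (fun p : Θ × (I → ℝ) => (p.1, fun j => fld s (p.2 j))) := by fun_prop
  exact ((measurable_Np_param κ i W).comp h).div ((measurable_Zp_param κ W).comp h)

lemma measurable_Mq_param (i : I) (W : Finset I) (s : ℝ) :
    Measurable (fun θ : Θ => Mq (κ θ) i W s) := by
  have h : Measurable (fun p : Θ × (I → ℝ) => (p.1, fun j => fld s (p.2 j))) := by fun_prop
  have h1 := measurable_vel_param κ i W s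
  have h2 := (measurable_Zp_param κ W).comp h
  have : StronglyMeasurable (Function.uncurry fun (θ : Θ) (y : I → ℝ) =>
      vel (κ θ) i W s y ^ 2 * Zp (κ θ) W (fun j => fld s (y j))) :=
    Measurable.stronglyMeasurable ((h1.pow_const 2).mul h2)
  exact (this.integral_prod_right (ν := gam I)).measurable

/-- Measurability of a function with a measurably chosen finite set plugged in. -/
lemma measurable_plug {α β : Type*} [MeasurableSpace α] [MeasurableSpace β]
    {S : α → Finset I} (hS : ∀ j, MeasurableSet {a | j ∈ S a}) {f : Finset I → α → β}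
    (hf : ∀ F, Measurable (f F)) : Measurable (fun a => f (S a) a) := by
  let _ : MeasurableSpace (Finset I) := ⊤
  have h1 : Measurable S := by
    refine measurable_to_countable' fun F => ?_
    have : S ⁻¹' {F} = ⋂ j, {a | j ∈ S a ↔ j ∈ F} := by
      ext a
      simp [Finset.ext_iff]
    rw [this]
    exact MeasurableSet.iInter fun j => (hS j).iff (MeasurableSet.const _)
  have h2 : Measurable fun p : α × Finset I => f p.2 p.1 :=
    measurable_from_prod_countable_left fun F => hf F
  exact h2.comp (measurable_id.prodMk h1)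

lemma measurable_plug_nat {α β : Type*} [MeasurableSpace α] [MeasurableSpace β]
    {S : α → ℕ} (hS : Measurable S) {f : ℕ → α → β}
    (hf : ∀ n, Measurable (f n)) : Measurable (fun a => f (S a) a) := by
  have h2 : Measurable fun p : α × ℕ => f p.2 p.1 :=
    measurable_from_prod_countable_left fun F => hf F
  exact h2.comp (measurable_id.prodMk hS)

lemma measurable_sInf_nat {α : Type*} [MeasurableSpace α] {p : α → ℕ → Prop}
    (hp : ∀ n, MeasurableSet {a | p a n}) : Measurable (fun a => sInf {n | p a n}) := by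
  refine measurable_to_countable' fun n => ?_
  have : (fun a => sInf {n | p a n}) ⁻¹' {n} =
      ({a | p a n} ∩ ⋂ m, ⋂ _ : m < n, {a | p a m}ᶜ) ∪ ({a | n = 0} ∩ ⋂ m, {a | p a m}ᶜ) := by
    ext a
    simp only [Set.mem_preimage, Set.mem_singleton_iff, Set.mem_union, Set.mem_inter_iff,
      Set.mem_ofPred_eq, Set.mem_iInter, Set.mem_compl_iff]
    constructor
    · intro h
      by_cases hne : {n | p a n}.Nonempty
      · left
        refine ⟨h ▸ Nat.sInf_mem hne, fun m hm => ?_⟩
        exact Nat.notMem_of_lt_sInf (s := {n | p a n}) (h ▸ hm)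
      · right
        rw [Set.not_nonempty_iff_eq_empty] at hne
        refine ⟨by rw [← h, hne, Nat.sInf_empty], fun m hm => ?_⟩
        have : m ∈ {n | p a n} := hm
        rw [hne] at this
        exact this
    · rintro (⟨h1, h2⟩ | ⟨h1, h2⟩)
      · refine le_antisymm (Nat.sInf_le h1) ?_
        by_contra hlt
        exact h2 _ (not_le.1 hlt) (Nat.sInf_mem (s := {n | p a n}) ⟨n, h1⟩)
      · have : {n | p a n} = ∅ := Set.eq_empty_of_forall_notMem h2
        rw [this, Nat.sInf_empty, h1]
  rw [this]
  exact ((hp n).inter (MeasurableSet.iInter fun m => MeasurableSet.iInter fun _ =>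
    (hp m).compl)).union ((MeasurableSet.const _).inter (MeasurableSet.iInter fun m =>
      (hp m).compl))

variable {W : Θ → ℕ → I → Finset I} (hW : ∀ N i j, MeasurableSet {θ | j ∈ W θ N i})

include hW

lemma measurable_Jq_param (K H : ℕ) (i : I) (N : ℕ) :
    Measurable (fun θ => Jq (κ θ) (W θ) K H i N) :=
  Finset.measurable_sum _ fun l _ =>
    measurable_plug (f := fun F θ => Mq (κ θ) i F ((l : ℝ) / K)) (hW N i)
      fun F => measurable_Mq_param κ i F _

lemma measurable_sel_param (K H j : ℕ) (i : I) :
    Measurable (fun θ => sel (κ θ) (W θ) K H j i) := by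
  refine measurable_sInf_nat fun N => ?_
  simp only [Set.ofPred_forall]
  exact MeasurableSet.iInter fun N' => measurableSet_le (measurable_Jq_param κ hW K H i N')
    ((measurable_Jq_param κ hW K H i N).add_const _)

lemma measurableSet_win_param (K H j : ℕ) (i i' : I) :
    MeasurableSet {θ | i' ∈ win (κ θ) (W θ) K H j i} := by
  have : Measurable (fun θ => i' ∈ W θ (sel (κ θ) (W θ) K H j i) i) :=
    measurable_plug_nat (f := fun N θ => i' ∈ W θ N i) (measurable_sel_param κ hW K H j i)
      fun N => measurableSet_setOfPred.1 (hW N i i')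
  exact measurableSet_setOfPred.2 this

lemma measurable_sch_param (K H t j : ℕ) (i : I) :
    Measurable (fun p : Θ × (I → ℝ) => sch (κ p.1) (W p.1) K H p.2 t j i) := by
  induction t generalizing j i with
  | zero => simp [sch]
  | succ t ih =>
    simp only [sch]
    refine (ih j i).add (Measurable.const_mul ?_ _)
    refine measurable_plug (S := fun p : Θ × (I → ℝ) => win (κ p.1) (W p.1) K H j i)
      (f := fun F p => vel (κ p.1) i F ((t : ℝ) / K)
        (fun i' => p.2 i' + sch (κ p.1) (W p.1) K H p.2 t ((j + 1) * F.card) i'))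
      (fun i' => measurable_fst (measurableSet_win_param κ hW K H j i i')) fun F => ?_
    have hg0 : Measurable (fun (p : Θ × (I → ℝ)) (i' : I) =>
        p.2 i' + sch (κ p.1) (W p.1) K H p.2 t ((j + 1) * F.card) i') :=
      measurable_pi_lambda _ fun i' =>
        Measurable.add ((measurable_pi_apply i').comp measurable_snd) (ih _ i')
    have hg := (measurable_vel_param κ i F ((t : ℝ) / K)).comp (measurable_fst.prodMk hg0)
    simpa only [Function.comp_def] using hg

theorem measurable_Phi_param (L : ℝ) :
    Measurable (fun p : Θ × (I → ℝ) => Phi (κ p.1) (W p.1) L p.2) := by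
  refine measurable_pi_lambda _ fun i => measurable_to_bool ?_
  have : (fun p : Θ × (I → ℝ) => Phi (κ p.1) (W p.1) L p.2 i) ⁻¹' {true} =
      ⋃ N : ℕ, ⋂ n : ℕ, ⋂ _ : N ≤ n, {p | (n : ℝ) / 2 < pos (κ p.1) (W p.1) L n p.2 i} := by
    ext z
    simp [Phi, eventually_atTop]
  rw [this]
  exact MeasurableSet.iUnion fun N => MeasurableSet.iInter fun n => MeasurableSet.iInter fun _ =>
    measurableSet_lt measurable_const
      (Measurable.add (by fun_prop) (measurable_sch_param κ hW _ _ _ _ i))

end param

end Crest.Agent.R168
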