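import Crest.Agent.R168.Basic
import Crest.Prelude.Def_StronglyRayleigh

/-!
Strongly Rayleigh laws have sup-norm Lipschitz tilted means.
-/

set_option autoImplicit false
set_option linter.unusedSectionVars false
set_option linter.unusedVariables false
set_option maxHeartbeats 400000

open MeasureTheory ProbabilityTheory Filter Topology
open Crest.ProbabilityR.StronglyRayleigh

namespace Crest.Agent.R168

variable {I : Type*}

lemma deriv_bound_of_slit {u : ℂ → ℂ} (hu : DifferentiableOn ℂ u {w | |w.im| < Real.pi / 2})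
    (hs : ∀ w : ℂ, |w.im| < Real.pi / 2 → u w ∈ Complex.slitPlane) (t : ℂ) (ht : t.im = 0) :
    ‖deriv u t‖ ≤ Real.exp (2 * Real.pi) * ‖u t‖ := by
  have hopen : IsOpen {w : ℂ | |w.im| < Real.pi / 2} := isOpen_lt (by fun_prop) (by fun_prop)
  have hpi := Real.pi_gt_three
  have htm : |t.im| < Real.pi / 2 := by rw [ht, abs_zero]; linarith
  have hG : DifferentiableOn ℂ (fun w => Complex.exp (Complex.I * Complex.log (u w)))
      {w | |w.im| < Real.pi / 2} :=
    ((hu.clog hs).const_mul _).cexp
  have hnorm : ∀ z : ℂ, ‖Complex.exp (Complex.I * Complex.log z)‖ = Real.exp (-z.arg) := by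
    intro z
    rw [Complex.norm_exp]
    simp [Complex.log_im]
  have hsub : Metric.closedBall t 1 ⊆ {w : ℂ | |w.im| < Real.pi / 2} := by
    intro w hw
    have h1 : |(w - t).im| ≤ ‖w - t‖ := Complex.abs_im_le_norm _
    rw [mem_closedBall_iff_norm] at hw
    simp only [Complex.sub_im, ht, sub_zero] at h1
    simp only [Set.mem_ofPred_eq]
    linarith
  have h1 := Complex.norm_deriv_le_of_forall_mem_sphere_norm_le (C := Real.exp Real.pi) one_pos
    (hG.diffContOnCl_ball hsub) (fun z _ => by
      rw [hnorm]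
      exact Real.exp_le_exp.2 (by linarith [Complex.neg_pi_lt_arg (u z)]))
  have hd : HasDerivAt u (deriv u t) t := (hu.differentiableAt (hopen.mem_nhds htm)).hasDerivAt
  have hd2 := ((hd.clog (hs t htm)).const_mul Complex.I).cexp
  rw [hd2.deriv, div_one, norm_mul, hnorm, norm_mul, Complex.norm_I, one_mul, norm_div] at h1
  have hu0 : 0 < ‖u t‖ := norm_pos_iff.2 (Complex.slitPlane_ne_zero (hs t htm))
  have h2 : Real.exp (-Real.pi) ≤ Real.exp (-(u t).arg) :=
    Real.exp_le_exp.2 (by linarith [Complex.arg_le_pi (u t)])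
  have h3 : Real.exp (-Real.pi) * (‖deriv u t‖ / ‖u t‖) ≤ Real.exp Real.pi :=
    le_trans (by gcongr) h1
  rw [← div_le_iff₀ hu0]
  have h4 : Real.exp (2 * Real.pi) * Real.exp (-Real.pi) = Real.exp Real.pi := by
    rw [← Real.exp_add]
    congr 1
    ring
  rw [← h4, mul_comm] at h3
  exact le_of_mul_le_mul_right h3 (Real.exp_pos _)

/-- Mass of the cylinder with occupied set `S` inside `F`. -/
noncomputable def cyl (ν : Measure (I → Bool)) (F S : Finset I) : ℝ :=
  (ν {ω | ∀ i ∈ F, (ω i = true ↔ i ∈ S)}).toReal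

lemma cyl_nonneg (ν : Measure (I → Bool)) (F S : Finset I) : 0 ≤ cyl ν F S :=
  ENNReal.toReal_nonneg

lemma measurableSet_cyl (F S : Finset I) :
    MeasurableSet {ω : I → Bool | ∀ i ∈ F, (ω i = true ↔ i ∈ S)} := by
  simp only [Set.ofPred_forall]
  exact Finset.measurableSet_biInter _ fun i _ =>
    (measurableSet_eq_fun (measurable_pi_apply i) measurable_const).iff (MeasurableSet.const _)

lemma integral_filter {E : Type*} [NormedAddCommGroup E] [NormedSpace ℝ E] [CompleteSpace E]
    (ν : Measure (I → Bool)) [IsFiniteMeasure ν] (F : Finset I) (G : Finset I → E) :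
    ∫ ω, G (F.filter fun i => ω i = true) ∂ν = ∑ S ∈ F.powerset, cyl ν F S • G S := by
  classical
  have h1 : ∀ ω : I → Bool, G (F.filter fun i => ω i = true) = ∑ S ∈ F.powerset,
      {ω : I → Bool | ∀ i ∈ F, (ω i = true ↔ i ∈ S)}.indicator (fun _ => G S) ω := by
    intro ω
    rw [Finset.sum_eq_single (F.filter fun i => ω i = true)]
    · rw [Set.indicator_of_mem]
      intro i hi
      simp [hi]
    · intro S hS hne
      rw [Set.indicator_of_notMem]
      intro hcon
      apply hne
      ext i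
      rw [Finset.mem_filter]
      constructor
      · intro hi
        have := Finset.mem_powerset.1 hS hi
        exact ⟨this, (hcon i this).2 hi⟩
      · rintro ⟨h1, h2⟩
        exact (hcon i h1).1 h2
    · intro h
      exact absurd (Finset.mem_powerset.2 (Finset.filter_subset _ _)) h
  simp_rw [h1]
  rw [integral_finsetSum _ fun S _ => (integrable_const _).indicator (measurableSet_cyl F S)]
  refine Finset.sum_congr rfl fun S _ => ?_
  rw [integral_indicator_const _ (measurableSet_cyl F S)]
  rfl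

lemma wt_eq_filter (F : Finset I) (h : I → ℝ) (ω : I → Bool) :
    wt F h ω = Real.exp (∑ j ∈ F.filter (fun i => ω i = true), h j) := by
  rw [wt, Finset.sum_filter]
  congr 1
  refine Finset.sum_congr rfl fun j _ => ?_
  cases ω j <;> simp [bv]

lemma Zp_eq_sum (ν : Measure (I → Bool)) [IsFiniteMeasure ν] (F : Finset I) (h : I → ℝ) :
    Zp ν F h = ∑ S ∈ F.powerset, cyl ν F S * Real.exp (∑ j ∈ S, h j) := by
  rw [Zp]
  simp_rw [wt_eq_filter]
  exact integral_filter ν F fun S => Real.exp (∑ j ∈ S, h j)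

open Classical in
lemma Np_eq_sum (ν : Measure (I → Bool)) [IsFiniteMeasure ν] (F : Finset I) {i : I} (hi : i ∈ F)
    (h : I → ℝ) : Np ν i F h =
      ∑ S ∈ F.powerset, cyl ν F S * if i ∈ S then Real.exp (∑ j ∈ S, h j) else 0 := by
  rw [Np]
  simp_rw [wt_eq_filter]
  rw [← show _ = ∑ S ∈ F.powerset, cyl ν F S * if i ∈ S then Real.exp (∑ j ∈ S, h j) else 0 from
    integral_filter ν F fun S => if i ∈ S then Real.exp (∑ j ∈ S, h j) else 0]
  congr 1
  funext ω
  cases hω : ω i <;> simp [bv, hω, hi]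

section direction

variable (ν : Measure (I → Bool)) [IsProbabilityMeasure ν] (F : Finset I) (i : I) (h a : I → ℝ)

/-- Complexified partition function along a direction. -/
noncomputable def Zc (w : ℂ) : ℂ :=
  ∑ S ∈ F.powerset, (cyl ν F S : ℂ) * Complex.exp (∑ j ∈ S, ((h j : ℂ) + w * a j))

open Classical in
/-- Complexified numerator along a direction. -/
noncomputable def Nc (w : ℂ) : ℂ :=
  ∑ S ∈ F.powerset, (cyl ν F S : ℂ) *
    if i ∈ S then Complex.exp (∑ j ∈ S, ((h j : ℂ) + w * a j)) else 0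

lemma differentiable_Zc : Differentiable ℂ (Zc ν F h a) := by
  unfold Zc
  fun_prop

lemma differentiable_Nc : Differentiable ℂ (Nc ν F i h a) := by
  unfold Nc
  refine Differentiable.fun_sum fun S _ => ?_
  split_ifs
  · fun_prop
  · fun_prop

lemma Zc_ofReal (t : ℝ) : Zc ν F h a t = (Zp ν F (fun j => h j + t * a j) : ℝ) := by
  rw [Zp_eq_sum, Zc]
  push_cast
  rfl

lemma Nc_ofReal (hi : i ∈ F) (t : ℝ) :
    Nc ν F i h a t = (Np ν i F (fun j => h j + t * a j) : ℝ) := by
  rw [Np_eq_sum ν F hi, Nc]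
  push_cast
  refine Finset.sum_congr rfl fun S _ => ?_
  split_ifs
  · push_cast
    rfl
  · simp

lemma Zc_conj (w : ℂ) : Zc ν F h a (starRingEnd ℂ w) = starRingEnd ℂ (Zc ν F h a w) := by
  simp [Zc, map_sum, ← Complex.exp_conj]

lemma Nc_conj (w : ℂ) : Nc ν F i h a (starRingEnd ℂ w) = starRingEnd ℂ (Nc ν F i h a w) := by
  simp only [Nc, map_sum, map_mul, Complex.conj_ofReal]
  refine Finset.sum_congr rfl fun S _ => ?_
  split_ifs
  · simp [map_sum, ← Complex.exp_conj]
  · simp

variable {ν F i a}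

lemma comb_ne_zero_pos (hsr : IsStronglyRayleigh ν) (hi : i ∈ F)
    (ha : ∀ j ∈ F, 0 < a j ∧ a j ≤ 2) {w : ℂ} (hw0 : 0 < w.im) (hw : w.im < Real.pi / 2)
    {ζ : ℝ} (hζ : 0 < ζ) : Zc ν F h a w + (ζ - 1) * Nc ν F i h a w ≠ 0 := by
  classical
  let z : I → ℂ := fun j => (if j = i then (ζ : ℂ) else 1) * Complex.exp ((h j : ℂ) + w * a j)
  have hz : ∀ j ∈ F, 0 < (z j).im := by
    intro j hj
    obtain ⟨h1, h2⟩ := ha j hj
    have h3 : 0 < (Complex.exp ((h j : ℂ) + w * a j)).im := by
      rw [Complex.exp_im]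
      refine mul_pos (Real.exp_pos _) (Real.sin_pos_of_pos_of_lt_pi ?_ ?_)
      · simp only [Complex.add_im, Complex.ofReal_im, Complex.mul_im, Complex.ofReal_re, mul_zero,
          zero_add]
        positivity
      · simp only [Complex.add_im, Complex.ofReal_im, Complex.mul_im, Complex.ofReal_re, mul_zero,
          zero_add]
        nlinarith
    simp only [z]
    split_ifs
    · rw [Complex.im_ofReal_mul]
      positivity
    · rwa [one_mul]
  have h1 := hsr F z hz
  convert h1 using 1
  rw [genPoly, Zc, Nc, Finset.mul_sum, ← Finset.sum_add_distrib]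
  refine Finset.sum_congr rfl fun S _ => ?_
  simp only [z]
  rw [Finset.prod_mul_distrib, Finset.prod_ite_eq', ← Complex.exp_sum]
  change _ = (cyl ν F S : ℂ) * _
  split_ifs
  · ring
  · ring

lemma comb_ne_zero (hsr : IsStronglyRayleigh ν) (hi : i ∈ F)
    (ha : ∀ j ∈ F, 0 < a j ∧ a j ≤ 2) {w : ℂ} (hw : |w.im| < Real.pi / 2)
    {ζ : ℝ} (hζ : 0 < ζ) : Zc ν F h a w + (ζ - 1) * Nc ν F i h a w ≠ 0 := by
  rw [abs_lt] at hw
  rcases lt_trichotomy w.im 0 with h0 | h0 | h0
  · have h1 := comb_ne_zero_pos h hsr hi ha (w := starRingEnd ℂ w) (by simpa using h0)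
      (by simp; linarith) hζ
    rw [Zc_conj, Nc_conj] at h1
    intro h2
    apply h1
    have := congrArg (starRingEnd ℂ) h2
    simpa using this
  · have h1 : w = (w.re : ℂ) := Complex.ext (by simp) (by simpa using h0)
    rw [h1, Zc_ofReal, Nc_ofReal ν F i h a hi]
    have h2 := Zp_pos ν F (fun j => h j + w.re * a j)
    have h3 := Np_nonneg ν i F (fun j => h j + w.re * a j)
    have h4 := Np_le_Zp ν i F (fun j => h j + w.re * a j)
    have h5 : 0 < Zp ν F (fun j => h j + w.re * a j) +
        (ζ - 1) * Np ν i F (fun j => h j + w.re * a j) := by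
      rcases h3.eq_or_lt with h6 | h6
      · rw [← h6]
        linarith
      · nlinarith [mul_pos hζ h6]
    exact_mod_cast h5.ne'
  · exact comb_ne_zero_pos h hsr hi ha h0 hw.2 hζ

lemma pm_dir (hsr : IsStronglyRayleigh ν) (hi : i ∈ F)
    (ha : ∀ j ∈ F, 0 < a j ∧ a j ≤ 2) (t : ℝ) :
    |pm ν i F (fun j => h j + t * a j) - pm ν i F h| ≤ 3 * Real.exp (2 * Real.pi) * |t| := by
  let u : ℂ → ℂ := fun w => (Zc ν F h a w + Nc ν F i h a w) / (2 * Zc ν F h a w - Nc ν F i h a w)
  have hden : ∀ w : ℂ, |w.im| < Real.pi / 2 → 2 * Zc ν F h a w - Nc ν F i h a w ≠ 0 := by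
    intro w hw h0
    apply comb_ne_zero h hsr hi ha hw (ζ := 1 / 2) (by norm_num)
    push_cast
    linear_combination (1 / 2 : ℂ) * h0
  have hZ := differentiable_Zc ν F h a
  have hN := differentiable_Nc ν F i h a
  have hu : DifferentiableOn ℂ u {w | |w.im| < Real.pi / 2} :=
    DifferentiableOn.div (by fun_prop) (by fun_prop) hden
  have hs : ∀ w : ℂ, |w.im| < Real.pi / 2 → u w ∈ Complex.slitPlane := by
    intro w hw
    by_contra hcon
    rw [Complex.mem_slitPlane_iff, not_or, not_lt, not_not] at hcon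
    set ρ : ℝ := -(u w).re with hρ
    have hρ0 : 0 ≤ ρ := by linarith [hcon.1]
    have h1 : u w = -(ρ : ℂ) := Complex.ext (by simp [hρ]) (by simpa using hcon.2)
    have h2 : Zc ν F h a w + Nc ν F i h a w = -(ρ : ℂ) * (2 * Zc ν F h a w - Nc ν F i h a w) :=
      (div_eq_iff (hden w hw)).1 h1
    apply comb_ne_zero h hsr hi ha hw (ζ := (2 + ρ) / (1 + 2 * ρ)) (by positivity)
    have h3 : (1 + 2 * ρ : ℂ) ≠ 0 := by
      have : (1 + 2 * ρ : ℝ) ≠ 0 := by positivity
      exact_mod_cast this
    push_cast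
    field_simp
    linear_combination h2
  have hreal : ∀ s : ℝ, u s = ((1 + pm ν i F (fun j => h j + s * a j)) /
      (2 - pm ν i F (fun j => h j + s * a j)) : ℝ) := by
    intro s
    have h2 := Zp_pos ν F (fun j => h j + s * a j)
    have h4 := Np_le_Zp ν i F (fun j => h j + s * a j)
    simp only [u]
    rw [Zc_ofReal, Nc_ofReal ν F i h a hi, pm]
    norm_cast
    have : 2 * Zp ν F (fun j => h j + s * a j) - Np ν i F (fun j => h j + s * a j) ≠ 0 := by
      linarith
    field_simp
  have hpi := Real.pi_pos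
  have hconv : Convex ℝ {w : ℂ | w.im = 0} := convex_hyperplane (f := Complex.im)
    ⟨Complex.add_im, fun c x => by simp⟩ 0
  have hopen : IsOpen {w : ℂ | |w.im| < Real.pi / 2} := isOpen_lt (by fun_prop) (by fun_prop)
  have h1 := hconv.norm_image_sub_le_of_norm_deriv_le (𝕜 := ℂ) (f := u)
    (C := Real.exp (2 * Real.pi) * 2) (x := (0 : ℝ)) (y := (t : ℝ))
    (fun w hw => hu.differentiableAt (hopen.mem_nhds (by
      simp only [Set.mem_ofPred_eq] at hw ⊢
      rw [hw, abs_zero]
      positivity)))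
    (fun w hw => by
      refine (deriv_bound_of_slit hu hs w hw).trans ?_
      gcongr
      have h1 : w = (w.re : ℂ) := Complex.ext (by simp) (by simpa using hw)
      rw [h1, hreal, Complex.norm_real, Real.norm_eq_abs]
      have h2 := pm_nonneg ν i F (fun j => h j + w.re * a j)
      have h3 := pm_le_one ν i F (fun j => h j + w.re * a j)
      rw [abs_of_nonneg (div_nonneg (by linarith) (by linarith)), div_le_iff₀ (by linarith)]
      linarith)
    (by simp) (by simp)
  rw [hreal, hreal, ← Complex.ofReal_sub, ← Complex.ofReal_sub, Complex.norm_real,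
    Complex.norm_real, Real.norm_eq_abs, Real.norm_eq_abs, sub_zero] at h1
  simp only [zero_mul, add_zero] at h1
  set m := pm ν i F (fun j => h j + t * a j) with hm
  set m' := pm ν i F h with hm'
  have a1 : 0 ≤ m := pm_nonneg ν i F _
  have a2 : m ≤ 1 := pm_le_one ν i F _
  have a3 : 0 ≤ m' := pm_nonneg ν i F _
  have a4 : m' ≤ 1 := pm_le_one ν i F _
  have h2 : m - m' = ((1 + m) / (2 - m) - (1 + m') / (2 - m')) * ((2 - m) * (2 - m') / 3) := by
    have : 2 - m ≠ 0 := by linarith
    have : 2 - m' ≠ 0 := by linarith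
    field_simp
    ring
  have h3 : |(2 - m) * (2 - m') / 3| ≤ 4 / 3 := by
    rw [abs_of_nonneg (div_nonneg (mul_nonneg (by linarith) (by linarith)) (by norm_num))]
    nlinarith
  rw [h2, abs_mul]
  calc _ ≤ (Real.exp (2 * Real.pi) * 2 * |t|) * (4 / 3) := by gcongr
    _ ≤ _ := by nlinarith [mul_nonneg (Real.exp_pos (2 * Real.pi)).le (abs_nonneg t)]

end direction

/-- The Lipschitz constant for strongly Rayleigh laws. -/
noncomputable def Lsr : ℝ := 6 * Real.exp (2 * Real.pi)

lemma Lsr_nonneg : 0 ≤ Lsr := by unfold Lsr; positivity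

theorem isLip_of_stronglyRayleigh {ν : Measure (I → Bool)} [IsProbabilityMeasure ν]
    (hsr : IsStronglyRayleigh ν) : IsLip ν Lsr := by
  classical
  intro i W h h' r hr hh
  rcases hr.eq_or_lt with rfl | hr
  · rw [pm_congr ν i (h := h) (h' := h') fun j hj => by
      have := hh j hj
      rwa [abs_nonpos_iff, sub_eq_zero] at this]
    simp
  have hext : ∀ g : I → ℝ, pm ν i W g = pm ν i (insert i W) (fun j => if j ∈ W then g j else 0) := by
    intro g
    have : wt W g = wt (insert i W) (fun j => if j ∈ W then g j else 0) := by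
      funext ω
      unfold wt
      congr 1
      simp only [ite_mul, zero_mul]
      rw [Finset.sum_ite_mem, Finset.inter_eq_right.2 (Finset.subset_insert _ _)]
    unfold pm Np Zp
    rw [this]
  rw [hext h, hext h']
  set g : I → ℝ := fun j => if j ∈ W then h j else 0 with hg
  set g' : I → ℝ := fun j => if j ∈ W then h' j else 0 with hg'
  have hd : ∀ j, |(g' j - g j) / r| ≤ 1 := by
    intro j
    rw [abs_div, abs_of_pos hr, div_le_one hr]
    simp only [hg, hg']
    split_ifs with hj
    · rw [abs_sub_comm]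
      exact hh j hj
    · simpa using hr.le
  have h1 := pm_dir g hsr (Finset.mem_insert_self i W)
    (a := fun j => 1 + max ((g' j - g j) / r) 0) (fun j _ => ⟨by positivity, by
      have := max_le (abs_le.1 (hd j)).2 zero_le_one
      linarith⟩) r
  have h2 := pm_dir g' hsr (Finset.mem_insert_self i W)
    (a := fun j => 1 + max (-((g' j - g j) / r)) 0) (fun j _ => ⟨by positivity, by
      have := max_le (neg_le.1 (abs_le.1 (hd j)).1) zero_le_one
      linarith⟩) r
  have h3 : (fun j => g j + r * (1 + max ((g' j - g j) / r) 0)) =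
      (fun j => g' j + r * (1 + max (-((g' j - g j) / r)) 0)) := by
    funext j
    have := max_zero_sub_max_neg_zero_eq_self ((g' j - g j) / r)
    have h4 : r * ((g' j - g j) / r) = g' j - g j := by field_simp
    nlinarith
  rw [h3] at h1
  rw [abs_of_pos hr] at h1 h2
  rw [abs_sub_comm] at h1
  have h5 := abs_sub_le (pm ν i (insert i W) g)
    (pm ν i (insert i W) fun j => g' j + r * (1 + max (-((g' j - g j) / r)) 0))
    (pm ν i (insert i W) g')
  unfold Lsr
  linarith

end Crest.Agent.R168
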