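import Mathlib

/-!
Linear algebra for the weighted matrix-tree theorem: a Cauchy--Binet expansion of the
determinant of a weighted Gram matrix, and its non-vanishing for weights in the closed upper
half-plane with the non-positive reals removed.
-/

set_option autoImplicit false

namespace Crest.Agent.R168

open Finset Matrix

section CB

variable {ι R K : Type*} [Fintype R] [DecidableEq R] [CommRing K]

/-- weighted Gram matrix -/
def gram (E : Finset ι) (B : ι → R → K) (z : ι → K) : Matrix R R K :=
  Matrix.of fun i j => ∑ e ∈ E, z e * B e i * B e j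

/-- the term of the Cauchy--Binet expansion -/
def cbTerm (B : ι → R → K) (f : R → ι) : K :=
  (∏ i, B (f i) i) * (Matrix.of fun i j => B (f i) j).det

theorem det_gram_eq_sum_fun [DecidableEq ι] (E : Finset ι) (B : ι → R → K) (z : ι → K) :
    (gram E B z).det =
      ∑ f ∈ Fintype.piFinset (fun _ : R => E), (∏ i, z (f i)) * cbTerm B f := by
  have h1 : (gram E B z) = Matrix.of (fun i => ∑ e ∈ E, (z e * B e i) • (B e)) := by
    ext i j
    simp [gram, Finset.sum_apply]
  have h2 : (gram E B z).det =
      (Matrix.detRowAlternating : (R → K) [⋀^R]→ₗ[K] K).toMultilinearMap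
        (fun i => ∑ e ∈ E, (z e * B e i) • (B e)) := by
    rw [h1]; rfl
  rw [h2, MultilinearMap.map_sum_finset]
  refine Finset.sum_congr rfl fun f _ => ?_
  rw [MultilinearMap.map_smul_univ, Finset.prod_mul_distrib, cbTerm, smul_eq_mul, mul_assoc]
  rfl

theorem cbTerm_eq_zero (B : ι → R → K) (f : R → ι) (hf : ¬ Function.Injective f) :
    cbTerm B f = 0 := by
  simp only [Function.Injective, not_forall] at hf
  obtain ⟨i, j, hij, hne⟩ := hf
  have : (Matrix.of fun i j => B (f i) j).det = 0 :=
    Matrix.det_zero_of_row_eq hne (by ext k; simp [hij])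
  rw [cbTerm, this, mul_zero]

/-- Cauchy--Binet, grouped by the image. -/
theorem det_gram_eq_sum [DecidableEq ι] (E : Finset ι) (B : ι → R → K) (z : ι → K) :
    (gram E B z).det =
      ∑ A ∈ E.powerset.filter (fun A => A.card = Fintype.card R),
        (∏ e ∈ A, z e) * (gram A B (fun _ => 1)).det := by
  classical
  rw [det_gram_eq_sum_fun]
  rw [← Finset.sum_filter_add_sum_filter_not _ (fun f : R → ι => Function.Injective f)]
  rw [Finset.sum_eq_zero (s := Finset.filter (fun f : R → ι => ¬ Function.Injective f) _)
    (fun f hf => by rw [cbTerm_eq_zero B f (Finset.mem_filter.mp hf).2, mul_zero]), add_zero]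
  rw [← Finset.sum_fiberwise_of_maps_to (g := fun f : R → ι => Finset.univ.image f)
    (t := E.powerset.filter (fun A => A.card = Fintype.card R))]
  · refine Finset.sum_congr rfl fun A hA => ?_
    obtain ⟨hAE, hAc⟩ := Finset.mem_filter.mp hA
    rw [Finset.mem_powerset] at hAE
    rw [det_gram_eq_sum_fun]
    rw [← Finset.sum_filter_add_sum_filter_not (Fintype.piFinset fun _ : R => A)
      (fun f : R → ι => Function.Injective f)]
    rw [Finset.sum_eq_zero (s := Finset.filter (fun f : R → ι => ¬ Function.Injective f) _)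
      (fun f hf => by rw [cbTerm_eq_zero B f (Finset.mem_filter.mp hf).2, mul_zero]), add_zero]
    rw [Finset.mul_sum]
    refine Finset.sum_congr ?_ ?_
    · ext f
      simp only [Finset.mem_filter, Fintype.mem_piFinset]
      constructor
      · rintro ⟨⟨_, hinj⟩, him⟩
        refine ⟨fun i => ?_, hinj⟩
        rw [← him]; exact Finset.mem_image_of_mem _ (Finset.mem_univ i)
      · rintro ⟨hA', hinj⟩
        refine ⟨⟨fun i => hAE (hA' i), hinj⟩, ?_⟩
        apply Finset.eq_of_subset_of_card_le
        · intro e he
          obtain ⟨i, _, rfl⟩ := Finset.mem_image.mp he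
          exact hA' i
        · rw [Finset.card_image_of_injective _ hinj, hAc, Finset.card_univ]
    · intro f hf
      obtain ⟨hA', hinj⟩ := Finset.mem_filter.mp hf
      rw [Fintype.mem_piFinset] at hA'
      have him : Finset.univ.image f = A := by
        apply Finset.eq_of_subset_of_card_le
        · intro e he
          obtain ⟨i, _, rfl⟩ := Finset.mem_image.mp he
          exact hA' i
        · rw [Finset.card_image_of_injective _ hinj, hAc, Finset.card_univ]
      rw [← him, Finset.prod_image (fun a _ b _ h => hinj h)]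
      simp
  · intro f hf
    obtain ⟨hE, hinj⟩ := Finset.mem_filter.mp hf
    rw [Fintype.mem_piFinset] at hE
    refine Finset.mem_filter.mpr ⟨Finset.mem_powerset.mpr ?_, ?_⟩
    · intro e he
      obtain ⟨i, _, rfl⟩ := Finset.mem_image.mp he
      exact hE i
    · rw [Finset.card_image_of_injective _ hinj, Finset.card_univ]

/-- For `|A| = |R|` the unweighted Gram determinant is a square. -/
theorem det_gram_one_eq_sq (A : Finset ι) (B : ι → R → K) (g : R ≃ A) :
    (gram A B (fun _ => 1)).det = (Matrix.of fun i j => B (g i) j).det ^ 2 := by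
  have : gram A B (fun _ => 1) =
      (Matrix.of fun i j => B (g i) j)ᵀ * (Matrix.of fun i j => B (g i) j) := by
    ext i j
    simp only [gram, Matrix.of_apply, Matrix.mul_apply, Matrix.transpose_apply, one_mul]
    rw [← Finset.sum_coe_sort A]
    exact (Equiv.sum_comp g (fun e : A => B e i * B e j)).symm
  rw [this, Matrix.det_mul, Matrix.det_transpose, sq]

end CB

theorem sum_halfplane_eq_zero {ι : Type*} (E : Finset ι) (z : ι → ℂ) (t : ι → ℝ)
    (hz : ∀ e, 0 < (z e).im ∨ ((z e).im = 0 ∧ 0 < (z e).re)) (ht : ∀ e, 0 ≤ t e)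
    (h : ∑ e ∈ E, z e * (t e : ℂ) = 0) : ∀ e ∈ E, t e = 0 := by
  have him : ∑ e ∈ E, (z e).im * t e = 0 := by
    have := congrArg Complex.im h
    simpa [Complex.im_sum] using this
  have hre : ∑ e ∈ E, (z e).re * t e = 0 := by
    have := congrArg Complex.re h
    simpa [Complex.re_sum] using this
  have him0 : ∀ e, 0 ≤ (z e).im := fun e => by
    rcases hz e with h | h
    · exact h.le
    · exact h.1.ge
  have h1 := (Finset.sum_eq_zero_iff_of_nonneg
    (fun e _ => mul_nonneg (him0 e) (ht e))).mp him
  have h2 : ∀ e ∈ E, 0 ≤ (z e).re * t e := fun e he => by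
    rcases hz e with h | h
    · have : t e = 0 := by
        rcases mul_eq_zero.mp (h1 e he) with h' | h'
        · exact absurd h' h.ne'
        · exact h'
      rw [this, mul_zero]
    · exact mul_nonneg h.2.le (ht e)
  have h3 := (Finset.sum_eq_zero_iff_of_nonneg h2).mp hre
  intro e he
  rcases hz e with h | h
  · rcases mul_eq_zero.mp (h1 e he) with h' | h'
    · exact absurd h' h.ne'
    · exact h'
  · rcases mul_eq_zero.mp (h3 e he) with h' | h'
    · exact absurd h' h.2.ne'
    · exact h'

/-- The weighted Gram determinant of an integer matrix with trivial kernel does not vanish for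
weights in the upper half-plane or on the positive real axis. -/
theorem det_gram_ne_zero {ι R : Type*} [Fintype R] [DecidableEq R] (E : Finset ι)
    (B : ι → R → ℤ) (z : ι → ℂ)
    (hz : ∀ e, 0 < (z e).im ∨ ((z e).im = 0 ∧ 0 < (z e).re))
    (hB : ∀ x : R → ℂ, (∀ e ∈ E, ∑ j, (B e j : ℂ) * x j = 0) → x = 0) :
    (gram E (fun e i => (B e i : ℂ)) z).det ≠ 0 := by
  intro h0
  obtain ⟨x, hx0, hx⟩ := Matrix.exists_mulVec_eq_zero_iff.mpr h0
  apply hx0
  apply hB
  set y : ι → ℂ := fun e => ∑ j, (B e j : ℂ) * x j with hy
  have key : ∑ e ∈ E, z e * ((Complex.normSq (y e) : ℝ) : ℂ) = 0 := by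
    have h1 : ∑ i, (starRingEnd ℂ) (x i) * ((gram E (fun e i => (B e i : ℂ)) z) *ᵥ x) i = 0 := by
      rw [hx]; simp
    rw [← h1]
    have h2 : ∀ e, ((Complex.normSq (y e) : ℝ) : ℂ) =
        (∑ i, (starRingEnd ℂ) (x i) * (B e i : ℂ)) * y e := fun e => by
      rw [Complex.normSq_eq_conj_mul_self]
      congr 1
      simp only [hy, map_sum, map_mul, map_intCast]
      exact Finset.sum_congr rfl fun i _ => mul_comm _ _
    have h3 : ∀ i, ((gram E (fun e i => (B e i : ℂ)) z) *ᵥ x) i =
        ∑ e ∈ E, z e * (B e i : ℂ) * y e := fun i => by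
      simp only [Matrix.mulVec, dotProduct, gram, Matrix.of_apply, hy, Finset.mul_sum,
        Finset.sum_mul]
      rw [Finset.sum_comm]
      exact Finset.sum_congr rfl fun e _ => Finset.sum_congr rfl fun j _ => by ring
    simp_rw [h3, Finset.mul_sum]
    rw [Finset.sum_comm]
    refine Finset.sum_congr rfl fun e _ => ?_
    rw [h2, Finset.sum_mul, Finset.mul_sum]
    exact Finset.sum_congr rfl fun i _ => by ring
  intro e he
  have := sum_halfplane_eq_zero E z (fun e => Complex.normSq (y e)) hz
    (fun e => Complex.normSq_nonneg _) key e he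
  exact Complex.normSq_eq_zero.mp this

end Crest.Agent.R168
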