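import Mathlib
import Crest.Prelude.Def_SpanningTrees
import Crest.Agent.R168.UST1

/-!
Spanning trees of a finite piece of a graph: a combinatorial characterisation, the weighted
matrix-tree theorem and the stability of the spanning-tree polynomial.
-/

set_option autoImplicit false

namespace Crest.Agent.R168

open Finset Matrix Crest.ProbabilityR.SpanningTrees

open Classical in
/-- edge sets of the spanning trees of the piece of `G` induced on `S` -/
noncomputable def trees {V : Type*} (G : SimpleGraph V) (S : Finset V) :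
    Finset (Finset (Sym2 V)) :=
  (edgesIn G S).powerset.filter (fun A => IsSpanningTreeOn G S A)

variable {V : Type*}

theorem mem_edgesIn {G : SimpleGraph V} {S : Finset V} {e : Sym2 V} :
    e ∈ edgesIn G S ↔ e ∈ G.edgeSet ∧ ∀ a ∈ e, a ∈ S := by
  unfold edgesIn
  simp only [Finset.mem_filter, Finset.mem_sym2_iff]
  exact and_comm

theorem mk_mem_edgesIn {G : SimpleGraph V} {S : Finset V} {a b : V} :
    s(a, b) ∈ edgesIn G S ↔ G.Adj a b ∧ a ∈ S ∧ b ∈ S := by
  rw [mem_edgesIn]
  simp

theorem mem_trees {G : SimpleGraph V} {S : Finset V} {A : Finset (Sym2 V)} :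
    A ∈ trees G S ↔ IsSpanningTreeOn G S A := by
  unfold trees
  simp only [Finset.mem_filter, Finset.mem_powerset]
  exact ⟨fun h => h.2, fun h => ⟨h.1, h⟩⟩

/-- every predicate constant along the edges of `A` is constant on `S` -/
def Lnk (S : Finset V) (A : Finset (Sym2 V)) : Prop :=
  ∀ x : V → Prop, (∀ a b, s(a, b) ∈ A → (x a ↔ x b)) → ∀ a ∈ S, ∀ b ∈ S, (x a ↔ x b)

theorem Lnk.eq {S : Finset V} {A : Finset (Sym2 V)} (h : Lnk S A) {K : Type*} (x : V → K)
    (hx : ∀ a b, s(a, b) ∈ A → x a = x b) {a b : V} (ha : a ∈ S) (hb : b ∈ S) : x a = x b := by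
  have := h (fun v => x v = x b) (fun c d hcd => by rw [hx c d hcd]) a ha b hb
  exact this.mpr rfl

theorem preconnected_iff_lnk {S : Finset V} {A : Finset (Sym2 V)}
    (hA : ∀ e ∈ A, ∀ a ∈ e, a ∈ S) :
    ((SimpleGraph.fromEdgeSet (A : Set (Sym2 V))).induce (S : Set V)).Preconnected ↔ Lnk S A := by
  constructor
  · intro h x hx a ha b hb
    obtain ⟨p⟩ := h ⟨a, ha⟩ ⟨b, hb⟩
    have : ∀ (u v : (S : Set V))
        (_ : ((SimpleGraph.fromEdgeSet (A : Set (Sym2 V))).induce (S : Set V)).Walk u v),
        (x u ↔ x v) := by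
      intro u v p
      induction p with
      | nil => rfl
      | cons hadj _ ih =>
        refine Iff.trans (hx _ _ ?_) ih
        simp only [SimpleGraph.comap_adj, Function.Embedding.subtype_apply,
          SimpleGraph.fromEdgeSet_adj, Finset.mem_coe] at hadj
        exact hadj.1
    exact this _ _ p
  · intro h u v
    have key := h (fun w => ∃ hw : w ∈ (S : Set V),
      ((SimpleGraph.fromEdgeSet (A : Set (Sym2 V))).induce (S : Set V)).Reachable u ⟨w, hw⟩)
      (fun a b hab => ?_) u u.2 v v.2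
    · obtain ⟨_, hv⟩ := key.mp ⟨u.2, SimpleGraph.Reachable.refl _⟩
      exact hv
    · have ha : a ∈ S := hA _ hab a (by simp)
      have hb : b ∈ S := hA _ hab b (by simp)
      by_cases hab' : a = b
      · subst hab'; rfl
      have hadj : ((SimpleGraph.fromEdgeSet (A : Set (Sym2 V))).induce (S : Set V)).Adj
          ⟨a, ha⟩ ⟨b, hb⟩ := by
        simp only [SimpleGraph.comap_adj, Function.Embedding.subtype_apply,
          SimpleGraph.fromEdgeSet_adj, Finset.mem_coe]
        exact ⟨hab, hab'⟩
      constructor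
      · rintro ⟨_, hr⟩
        exact ⟨hb, hr.trans hadj.reachable⟩
      · rintro ⟨_, hr⟩
        exact ⟨ha, hr.trans hadj.symm.reachable⟩

theorem connected_iff_lnk {S : Finset V} {A : Finset (Sym2 V)}
    (hA : ∀ e ∈ A, ∀ a ∈ e, a ∈ S) :
    ((SimpleGraph.fromEdgeSet (A : Set (Sym2 V))).induce (S : Set V)).Connected ↔
      S.Nonempty ∧ Lnk S A := by
  rw [SimpleGraph.connected_iff, preconnected_iff_lnk hA, and_comm]
  refine and_congr_left fun _ => ?_
  exact ⟨fun ⟨x⟩ => ⟨x.1, x.2⟩, fun ⟨x, hx⟩ => ⟨⟨x, hx⟩⟩⟩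

theorem induce_edgesIn (G : SimpleGraph V) (S : Finset V) :
    (SimpleGraph.fromEdgeSet (edgesIn G S : Set (Sym2 V))).induce (S : Set V) =
      G.induce (S : Set V) := by
  ext u v
  simp only [SimpleGraph.comap_adj, Function.Embedding.subtype_apply,
    SimpleGraph.fromEdgeSet_adj, Finset.mem_coe, mk_mem_edgesIn]
  exact ⟨fun h => h.1.1, fun h => ⟨⟨h, u.2, v.2⟩, h.ne⟩⟩

theorem induce_connected_iff (G : SimpleGraph V) (S : Finset V) :
    (G.induce (S : Set V)).Connected ↔ S.Nonempty ∧ Lnk S (edgesIn G S) := by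
  rw [← induce_edgesIn, connected_iff_lnk (fun e he => (mem_edgesIn.mp he).2)]

theorem card_edgeSet_induce {G : SimpleGraph V} {S : Finset V} {A : Finset (Sym2 V)}
    (hA : A ⊆ edgesIn G S) :
    Nat.card ((SimpleGraph.fromEdgeSet (A : Set (Sym2 V))).induce (S : Set V)).edgeSet =
      A.card := by
  have hinj : Function.Injective (Sym2.map (fun x : (S : Set V) => (x : V))) :=
    Sym2.map.injective (fun _ _ h => Subtype.ext h)
  have him : Sym2.map (fun x : (S : Set V) => (x : V)) ''
      ((SimpleGraph.fromEdgeSet (A : Set (Sym2 V))).induce (S : Set V)).edgeSet = A := by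
    ext e
    constructor
    · rintro ⟨e', he', rfl⟩
      induction e' using Sym2.ind with
      | h u v =>
        simp only [SimpleGraph.mem_edgeSet, SimpleGraph.comap_adj,
          Function.Embedding.subtype_apply, SimpleGraph.fromEdgeSet_adj, Finset.mem_coe] at he'
        simpa using he'.1
    · intro he
      induction e using Sym2.ind with
      | h a b =>
        obtain ⟨hab, ha, hb⟩ := mk_mem_edgesIn.mp (hA he)
        refine ⟨s(⟨a, ha⟩, ⟨b, hb⟩), ?_, by simp⟩
        simp only [SimpleGraph.mem_edgeSet, SimpleGraph.comap_adj,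
          Function.Embedding.subtype_apply, SimpleGraph.fromEdgeSet_adj, Finset.mem_coe]
        exact ⟨he, hab.ne⟩
  rw [Nat.card_coe_set_eq, ← Set.ncard_image_of_injective _ hinj, him, Set.ncard_coe_finset]

theorem isSpanningTreeOn_iff {G : SimpleGraph V} {S : Finset V} {A : Finset (Sym2 V)} :
    IsSpanningTreeOn G S A ↔
      A ⊆ edgesIn G S ∧ S.Nonempty ∧ Lnk S A ∧ A.card + 1 = S.card := by
  unfold IsSpanningTreeOn
  refine and_congr_right fun hA => ?_
  rw [SimpleGraph.isTree_iff_connected_and_card,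
    connected_iff_lnk (fun e he => (mem_edgesIn.mp (hA he)).2), card_edgeSet_induce hA,
    and_assoc]
  simp

section Inc

open Classical in
/-- signed incidence vector of the edge `e`, on the vertices in `T` -/
noncomputable def inc (T : Finset V) (e : Sym2 V) (i : T) : ℤ :=
  (if (i : V) = e.out.1 then 1 else 0) - (if (i : V) = e.out.2 then 1 else 0)

open Classical in
/-- extension by zero -/
noncomputable def ext0 {K : Type*} [Zero K] (T : Finset V) (x : T → K) (v : V) : K :=
  if h : v ∈ T then x ⟨v, h⟩ else 0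

open Classical in
theorem sum_ite_mul {K : Type*} [CommRing K] (T : Finset V) (x : T → K) (a : V) :
    ∑ j : T, (if (j : V) = a then (1 : K) else 0) * x j = ext0 T x a := by
  unfold ext0
  split_ifs with h
  · rw [Finset.sum_eq_single ⟨a, h⟩]
    · simp
    · intro b _ hb
      have : (b : V) ≠ a := fun h' => hb (Subtype.ext h')
      simp [this]
    · simp
  · refine Finset.sum_eq_zero fun j _ => ?_
    have : (j : V) ≠ a := fun h' => h (h' ▸ j.2)
    simp [this]

theorem sum_inc_mul {K : Type*} [CommRing K] (T : Finset V) (x : T → K) (e : Sym2 V) :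
    ∑ j : T, (inc T e j : K) * x j = ext0 T x e.out.1 - ext0 T x e.out.2 := by
  rw [← sum_ite_mul, ← sum_ite_mul, ← Finset.sum_sub_distrib]
  refine Finset.sum_congr rfl fun j _ => ?_
  unfold inc
  push_cast
  ring

theorem out_eq_iff {K : Type*} (y : V → K) (a b : V) :
    y (s(a, b) : Sym2 V).out.1 = y (s(a, b) : Sym2 V).out.2 ↔ y a = y b := by
  have h : s((s(a, b) : Sym2 V).out.1, (s(a, b) : Sym2 V).out.2) = s(a, b) := by
    rw [Sym2.mk, Quot.out_eq]
  rcases Sym2.eq_iff.mp h with ⟨h1, h2⟩ | ⟨h1, h2⟩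
  · rw [h1, h2]
  · rw [h1, h2, eq_comm]

theorem ker_trivial [DecidableEq V] {K : Type*} [CommRing K] {S : Finset V} {r : V} (hr : r ∈ S)
    {A : Finset (Sym2 V)} (hA : Lnk S A) (x : S.erase r → K)
    (hx : ∀ e ∈ A, ∑ j, (inc (S.erase r) e j : K) * x j = 0) : x = 0 := by
  have h1 : ∀ a b, s(a, b) ∈ A → ext0 (S.erase r) x a = ext0 (S.erase r) x b := by
    intro a b hab
    have := hx _ hab
    rw [sum_inc_mul, sub_eq_zero] at this
    exact (out_eq_iff _ a b).mp this
  funext i
  have h2 := hA.eq _ h1 (Finset.mem_of_mem_erase i.2) hr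
  have h3 : ext0 (S.erase r) x r = 0 := by simp [ext0]
  have h4 : ext0 (S.erase r) x i = x i := by
    unfold ext0; rw [dif_pos i.2]
  rw [h3, h4] at h2
  exact h2

theorem ker_nontrivial [DecidableEq V] {S : Finset V} {r : V} (hr : r ∈ S)
    {A : Finset (Sym2 V)} (hAS : ∀ e ∈ A, ∀ a ∈ e, a ∈ S) (hA : ¬ Lnk S A) :
    ∃ x : S.erase r → ℤ, x ≠ 0 ∧ ∀ e ∈ A, ∑ j, (inc (S.erase r) e j : ℤ) * x j = 0 := by
  classical
  simp only [Lnk, not_forall] at hA
  obtain ⟨p, hp, a, ha, b, hb, hab⟩ := hA
  set x : S.erase r → ℤ := fun i => if (p i ↔ p r) then 0 else 1 with hx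
  have hext : ∀ v ∈ S, ext0 (S.erase r) x v = if (p v ↔ p r) then 0 else 1 := by
    intro v hv
    unfold ext0
    split_ifs with h1 h2 h2
    · simp [hx, h2]
    · simp [hx, h2]
    · rfl
    · exfalso
      apply h1
      refine Finset.mem_erase.mpr ⟨?_, hv⟩
      rintro rfl
      exact h2 Iff.rfl
  refine ⟨x, ?_, ?_⟩
  · intro h0
    have h1 : ∀ v ∈ S, (p v ↔ p r) := by
      intro v hv
      have := hext v hv
      rw [h0] at this
      by_contra hc
      rw [if_neg hc] at this
      unfold ext0 at this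
      split_ifs at this <;> simp at this
    exact hab ((h1 a ha).trans (h1 b hb).symm)
  · intro e he
    have := sum_inc_mul (K := ℤ) (S.erase r) x e
    simp only [Int.cast_id] at this
    rw [this, sub_eq_zero]
    induction e using Sym2.ind with
    | h c d =>
      rw [out_eq_iff, hext c (hAS _ he c (by simp)), hext d (hAS _ he d (by simp))]
      simp only [hp c d he]

open Classical in
theorem det_gram_inc {S : Finset V} {r : V} (hr : r ∈ S)
    {A : Finset (Sym2 V)} (hAS : ∀ e ∈ A, ∀ a ∈ e, a ∈ S)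
    (hc : A.card = Fintype.card (S.erase r)) :
    (gram A (fun e i => ((inc (S.erase r) e i : ℤ) : ℂ)) (fun _ => 1)).det =
      if Lnk S A then 1 else 0 := by
  obtain ⟨g⟩ : Nonempty (S.erase r ≃ A) := by
    apply Fintype.card_eq.mp
    rw [← hc]; simp
  rw [det_gram_one_eq_sq A _ g]
  set M : Matrix (S.erase r) (S.erase r) ℤ := Matrix.of fun i j => inc (S.erase r) (g i) j with hM
  have hcast : ∀ (K : Type) [CommRing K],
      (Matrix.of fun i j => ((inc (S.erase r) (g i) j : ℤ) : K)).det = ((M.det : ℤ) : K) := by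
    intro K _
    have := (Int.castRingHom K).map_det M
    simp only [eq_intCast] at this
    rw [this]
    congr 1
  rw [hcast]
  split_ifs with hL
  · have hp : ∀ p : ℕ, p.Prime → ¬ (p : ℤ) ∣ M.det := by
      intro p hp hdvd
      have := Fact.mk hp
      have h0 : ((M.det : ℤ) : ZMod p) = 0 := (ZMod.intCast_zmod_eq_zero_iff_dvd _ _).mpr hdvd
      rw [← hcast] at h0
      obtain ⟨x, hx0, hx⟩ := Matrix.exists_mulVec_eq_zero_iff.mpr h0
      apply hx0
      apply ker_trivial hr hL x
      intro e he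
      have := congrFun hx (g.symm ⟨e, he⟩)
      simpa [Matrix.mulVec, dotProduct] using this
    have h1 : M.det.natAbs = 1 := by
      by_contra hne
      obtain ⟨p, hp', hd⟩ := Nat.exists_prime_and_dvd hne
      exact hp p hp' (Int.natCast_dvd.mpr hd)
    rcases Int.natAbs_eq_iff.mp h1 with h | h <;> rw [h] <;> simp
  · obtain ⟨x, hx0, hx⟩ := ker_nontrivial hr hAS hL
    have : M.det = 0 := by
      apply Matrix.exists_mulVec_eq_zero_iff.mp
      refine ⟨x, hx0, ?_⟩
      funext i
      have := hx _ (g i).2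
      simpa [Matrix.mulVec, dotProduct, hM] using this
    rw [this]; simp

end Inc

open Classical in
/-- weighted matrix-tree theorem -/
theorem det_gram_eq_trees (G : SimpleGraph V) {S : Finset V} {r : V} (hr : r ∈ S)
    (z : Sym2 V → ℂ) :
    (gram (edgesIn G S) (fun e i => ((inc (S.erase r) e i : ℤ) : ℂ)) z).det =
      ∑ A ∈ trees G S, ∏ e ∈ A, z e := by
  rw [det_gram_eq_sum]
  have hcard : Fintype.card (S.erase r) + 1 = S.card := by
    rw [Fintype.card_coe, Finset.card_erase_add_one hr]
  rw [Finset.sum_congr rfl (g := fun A => if Lnk S A then ∏ e ∈ A, z e else 0)]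
  · rw [← Finset.sum_filter]
    refine Finset.sum_congr ?_ fun _ _ => rfl
    ext A
    rw [mem_trees, isSpanningTreeOn_iff]
    simp only [Finset.mem_filter, Finset.mem_powerset]
    constructor
    · rintro ⟨⟨h1, h2⟩, h3⟩
      exact ⟨h1, ⟨r, hr⟩, h3, by omega⟩
    · rintro ⟨h1, _, h3, h4⟩
      exact ⟨⟨h1, by omega⟩, h3⟩
  · intro A hA
    obtain ⟨h1, h2⟩ := Finset.mem_filter.mp hA
    rw [Finset.mem_powerset] at h1
    rw [det_gram_inc hr (fun e he => (mem_edgesIn.mp (h1 he)).2) h2]
    split_ifs <;> simp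

theorem trees_stable (G : SimpleGraph V) (S : Finset V) (hS : (G.induce (S : Set V)).Connected)
    (z : Sym2 V → ℂ) (hz : ∀ e, 0 < (z e).im ∨ ((z e).im = 0 ∧ 0 < (z e).re)) :
    ∑ A ∈ trees G S, ∏ e ∈ A, z e ≠ 0 := by
  classical
  obtain ⟨⟨r, hr⟩, hL⟩ := (induce_connected_iff G S).mp hS
  rw [← det_gram_eq_trees G hr z]
  convert det_gram_ne_zero (edgesIn G S) (inc (S.erase r)) z hz
    (fun x hx => ker_trivial hr hL x hx)

theorem trees_nonempty (G : SimpleGraph V) (S : Finset V)
    (hS : (G.induce (S : Set V)).Connected) : (trees G S).Nonempty := by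
  rw [Finset.nonempty_iff_ne_empty]
  intro h
  apply trees_stable G S hS (fun _ => 1) (fun _ => Or.inr ⟨by simp, by simp⟩)
  rw [h, Finset.sum_empty]

theorem ustContains_eq [DecidableEq V] (G : SimpleGraph V) (S : Finset V) (F : Finset (Sym2 V)) :
    ustContains G S F =
      (((trees G S).filter (fun A => F ⊆ A)).card : ℝ) / (trees G S).card := by
  unfold ustContains trees
  congr 3
  ext A
  simp only [Finset.mem_filter, and_assoc]

end Crest.Agent.R168
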