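import Mathlib

/-!
The Rayleigh property of a finite family of finite sets: it follows from stability of the
generating polynomial, passes to minors and gives negative-correlation inequalities for counts.
-/

set_option autoImplicit false

namespace Crest.Agent.R168

open Finset

variable {α : Type*} [DecidableEq α]

/-- generating sum of a family of finite sets -/
def wsum {K : Type*} [CommSemiring K] (T : Finset (Finset α)) (w : α → K) : K :=
  ∑ A ∈ T, ∏ e ∈ A, w e

theorem wsum_scale {K : Type*} [CommSemiring K] (T : Finset (Finset α)) (w : α → K) (g : α)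
    (t : K) :
    wsum T (fun a => w a * if a = g then t else 1) =
      wsum (T.filter (g ∉ ·)) w + t * wsum (T.filter (g ∈ ·)) w := by
  unfold wsum
  rw [Finset.mul_sum, Finset.sum_filter, Finset.sum_filter, ← Finset.sum_add_distrib]
  refine Finset.sum_congr rfl fun A _ => ?_
  rw [Finset.prod_mul_distrib, Finset.prod_ite_eq']
  by_cases h : g ∈ A <;> simp [h, mul_comm]

omit [DecidableEq α] in
theorem wsum_nonneg (T : Finset (Finset α)) (w : α → ℝ) (hw : ∀ e, 0 < w e) : 0 ≤ wsum T w :=
  Finset.sum_nonneg fun _ _ => Finset.prod_nonneg fun e _ => (hw e).le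

omit [DecidableEq α] in
theorem wsum_one (T : Finset (Finset α)) : wsum T (fun _ => (1 : ℝ)) = T.card := by
  simp [wsum]

omit [DecidableEq α] in
theorem wsum_ofReal (T : Finset (Finset α)) (w : α → ℝ) :
    wsum T (fun a => (w a : ℂ)) = (wsum T w : ℝ) := by
  simp [wsum]

/-- the Rayleigh property -/
def Ray (T : Finset (Finset α)) : Prop :=
  ∀ w : α → ℝ, (∀ e, 0 < w e) → ∀ e f : α, e ≠ f →
    wsum ((T.filter (f ∉ ·)).filter (e ∉ ·)) w * wsum ((T.filter (f ∈ ·)).filter (e ∈ ·)) w ≤
      wsum ((T.filter (f ∉ ·)).filter (e ∈ ·)) w * wsum ((T.filter (f ∈ ·)).filter (e ∉ ·)) w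

theorem ray_of_stable (T : Finset (Finset α))
    (h : ∀ z : α → ℂ, (∀ e, 0 < (z e).im ∨ ((z e).im = 0 ∧ 0 < (z e).re)) →
      ∑ A ∈ T, ∏ e ∈ A, z e ≠ 0) : Ray T := by
  intro w hw e f hef
  by_contra hlt
  push Not at hlt
  set a := wsum ((T.filter (f ∉ ·)).filter (e ∉ ·)) w with ha
  set d := wsum ((T.filter (f ∈ ·)).filter (e ∈ ·)) w with hd
  set b := wsum ((T.filter (f ∉ ·)).filter (e ∈ ·)) w with hb
  set c := wsum ((T.filter (f ∈ ·)).filter (e ∉ ·)) w with hc
  have ha0 : 0 ≤ a := wsum_nonneg _ w hw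
  have hb0 : 0 ≤ b := wsum_nonneg _ w hw
  have hc0 : 0 ≤ c := wsum_nonneg _ w hw
  have hd0 : 0 ≤ d := wsum_nonneg _ w hw
  have hdpos : 0 < d := by
    rcases hd0.lt_or_eq with h' | h'
    · exact h'
    · rw [← h', mul_zero] at hlt
      exact absurd hlt (not_lt.mpr (mul_nonneg hb0 hc0))
  have hden : (c : ℂ) + Complex.I * d ≠ 0 := by
    intro h0
    have := congrArg Complex.im h0
    simp at this
    exact hdpos.ne' this
  set y : ℂ := -((a : ℂ) + Complex.I * b) / ((c : ℂ) + Complex.I * d) with hy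
  have hyim : 0 < y.im := by
    have hn : 0 < Complex.normSq ((c : ℂ) + Complex.I * d) := Complex.normSq_pos.mpr hden
    rw [hy, Complex.div_im]
    rw [← sub_div]
    apply div_pos _ hn
    simp
    nlinarith
  apply h (fun g => ((w g : ℂ) * if g = e then Complex.I else 1) * if g = f then y else 1)
  · intro g
    by_cases hge : g = e
    · subst hge
      left
      simp [hef, hw g]
    · by_cases hgf : g = f
      · subst hgf
        left
        simp only [hge, if_false, if_true, mul_one, Complex.mul_im, Complex.ofReal_re,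
          Complex.ofReal_im, zero_mul, add_zero]
        exact mul_pos (hw g) hyim
      · right
        simp [hge, hgf, hw g]
  · change wsum T _ = 0
    rw [wsum_scale, wsum_scale, wsum_scale, wsum_ofReal, wsum_ofReal, wsum_ofReal, wsum_ofReal,
      ← ha, ← hb, ← hc, ← hd, hy]
    field_simp
    ring

theorem quad_const {p0 p1 p2 : ℝ} (h : ∀ t : ℝ, 0 < t → p0 + p1 * t + p2 * t ^ 2 ≤ 0) :
    p0 ≤ 0 := by
  have hc : Continuous fun t : ℝ => p0 + p1 * t + p2 * t ^ 2 := by fun_prop
  have h1 : Filter.Tendsto (fun t : ℝ => p0 + p1 * t + p2 * t ^ 2) (nhdsWithin 0 (Set.Ioi 0))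
      (nhds (p0 + p1 * 0 + p2 * 0 ^ 2)) := (hc.tendsto 0).mono_left nhdsWithin_le_nhds
  have := le_of_tendsto h1 (eventually_nhdsWithin_of_forall fun t ht => h t ht)
  simpa using this

theorem quad_lead {p0 p1 p2 : ℝ} (h : ∀ t : ℝ, 0 < t → p0 + p1 * t + p2 * t ^ 2 ≤ 0) :
    p2 ≤ 0 := by
  apply quad_const (p1 := p1) (p2 := p0)
  intro t ht
  have h1 := h t⁻¹ (inv_pos.mpr ht)
  have h2 : p2 + p1 * t + p0 * t ^ 2 = t ^ 2 * (p0 + p1 * t⁻¹ + p2 * t⁻¹ ^ 2) := by
    field_simp
    ring
  rw [h2]
  exact mul_nonpos_of_nonneg_of_nonpos (sq_nonneg t) h1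

theorem quad_prod {a0 a1 b0 b1 c0 c1 d0 d1 : ℝ}
    (h : ∀ t : ℝ, 0 < t → (a0 + t * a1) * (d0 + t * d1) ≤ (b0 + t * b1) * (c0 + t * c1)) :
    a0 * d0 ≤ b0 * c0 ∧ a1 * d1 ≤ b1 * c1 := by
  have h' : ∀ t : ℝ, 0 < t → (a0 * d0 - b0 * c0) + (a0 * d1 + a1 * d0 - b0 * c1 - b1 * c0) * t +
      (a1 * d1 - b1 * c1) * t ^ 2 ≤ 0 := fun t ht => by
    have := h t ht
    nlinarith
  exact ⟨sub_nonpos.mp (quad_const h'), sub_nonpos.mp (quad_lead h')⟩

theorem Ray.minor {T : Finset (Finset α)} (hT : Ray T) (g : α) :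
    Ray (T.filter (g ∉ ·)) ∧ Ray (T.filter (g ∈ ·)) := by
  have comm : ∀ (p q r : Finset α → Prop) [DecidablePred p] [DecidablePred q] [DecidablePred r],
      ((T.filter p).filter q).filter r = ((T.filter q).filter r).filter p := by
    intro p q r _ _ _
    ext A
    simp only [Finset.mem_filter]
    tauto
  have key : ∀ w : α → ℝ, (∀ e, 0 < w e) → ∀ e f : α, e ≠ f → ∀ t : ℝ, 0 < t →
      (wsum (((T.filter (g ∉ ·)).filter (f ∉ ·)).filter (e ∉ ·)) w +
        t * wsum (((T.filter (g ∈ ·)).filter (f ∉ ·)).filter (e ∉ ·)) w) *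
      (wsum (((T.filter (g ∉ ·)).filter (f ∈ ·)).filter (e ∈ ·)) w +
        t * wsum (((T.filter (g ∈ ·)).filter (f ∈ ·)).filter (e ∈ ·)) w) ≤
      (wsum (((T.filter (g ∉ ·)).filter (f ∉ ·)).filter (e ∈ ·)) w +
        t * wsum (((T.filter (g ∈ ·)).filter (f ∉ ·)).filter (e ∈ ·)) w) *
      (wsum (((T.filter (g ∉ ·)).filter (f ∈ ·)).filter (e ∉ ·)) w +
        t * wsum (((T.filter (g ∈ ·)).filter (f ∈ ·)).filter (e ∉ ·)) w) := by
    intro w hw e f hef t ht
    have := hT (fun a => w a * if a = g then t else 1) (fun a => by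
      apply mul_pos (hw a)
      split_ifs
      · exact ht
      · exact one_pos) e f hef
    simp only [wsum_scale] at this
    simp only [comm (g ∉ ·), comm (g ∈ ·)]
    exact this
  exact ⟨fun w hw e f hef => (quad_prod (key w hw e f hef)).1,
    fun w hw e f hef => (quad_prod (key w hw e f hef)).2⟩

theorem card_split (T : Finset (Finset α)) (g : α) :
    (T.card : ℝ) = (T.filter (g ∉ ·)).card + (T.filter (g ∈ ·)).card := by
  have := Finset.card_filter_add_card_filter_not (s := T) (fun A => g ∈ A)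
  rw [← this]; push_cast; ring

/-- pairwise negative correlation -/
theorem Ray.pair {T : Finset (Finset α)} (hT : Ray T) {e f : α} (hef : e ≠ f) :
    (((T.filter (f ∈ ·)).filter (e ∈ ·)).card : ℝ) * T.card ≤
      ((T.filter (e ∈ ·)).card : ℝ) * (T.filter (f ∈ ·)).card := by
  have h := hT (fun _ => 1) (fun _ => one_pos) e f hef
  simp only [wsum_one] at h
  have h1 := card_split T f
  have h2 := card_split (T.filter (f ∉ ·)) e
  have h3 := card_split (T.filter (f ∈ ·)) e
  have h4 := card_split (T.filter (e ∈ ·)) f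
  rw [Finset.filter_comm (fun A => e ∈ A) (fun A => f ∉ A),
    Finset.filter_comm (fun A => e ∈ A) (fun A => f ∈ A)] at h4
  rw [h1, h2, h4, h3]
  nlinarith

/-- an edge and a cylinder event are negatively correlated -/
theorem Ray.cyl (F : Finset α) : ∀ {T : Finset (Finset α)} (_ : Ray T) {e : α} (_ : e ∉ F),
    (((T.filter (F ⊆ ·)).filter (e ∈ ·)).card : ℝ) * T.card ≤
      ((T.filter (e ∈ ·)).card : ℝ) * (T.filter (F ⊆ ·)).card := by
  induction F using Finset.induction_on with
  | empty => intro T _ e _; simp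
  | insert f F hf ih =>
    intro T hT e he
    rw [Finset.mem_insert, not_or] at he
    have h1 := ih (hT.minor f).2 he.2
    have h2 := hT.pair he.1
    have e1 : T.filter (insert f F ⊆ ·) = (T.filter (f ∈ ·)).filter (F ⊆ ·) := by
      ext A
      simp only [Finset.mem_filter, Finset.insert_subset_iff, and_assoc]
    rw [e1]
    set x := ((((T.filter (f ∈ ·)).filter (F ⊆ ·)).filter (e ∈ ·)).card : ℝ) with hx
    set n := (T.card : ℝ)
    set nf := ((T.filter (f ∈ ·)).card : ℝ) with hnf
    set ne := ((T.filter (e ∈ ·)).card : ℝ)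
    set nef := (((T.filter (f ∈ ·)).filter (e ∈ ·)).card : ℝ)
    set nF := (((T.filter (f ∈ ·)).filter (F ⊆ ·)).card : ℝ)
    have hn : 0 ≤ n := Nat.cast_nonneg _
    have hnF : 0 ≤ nF := Nat.cast_nonneg _
    have hne : 0 ≤ ne := Nat.cast_nonneg _
    have hxle : x ≤ nf := by
      rw [hx, hnf]
      exact_mod_cast Finset.card_le_card
        ((Finset.filter_subset _ _).trans (Finset.filter_subset _ _))
    have hx0 : 0 ≤ x := Nat.cast_nonneg _
    have hnf0 : 0 ≤ nf := Nat.cast_nonneg _
    rcases hnf0.lt_or_eq with hpos | hzero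
    · have : x * n * nf ≤ ne * nF * nf := by
        calc x * n * nf = (x * nf) * n := by ring
          _ ≤ (nef * nF) * n := mul_le_mul_of_nonneg_right h1 hn
          _ = (nef * n) * nF := by ring
          _ ≤ (ne * nf) * nF := mul_le_mul_of_nonneg_right h2 hnF
          _ = ne * nF * nf := by ring
      exact le_of_mul_le_mul_right this hpos
    · have : x = 0 := le_antisymm (hzero ▸ hxle) hx0
      rw [this, zero_mul]
      exact mul_nonneg hne hnF

/-- deleting edges outside `F` increases the probability of the cylinder event of `F` -/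
theorem Ray.del (F D : Finset α) : ∀ {T : Finset (Finset α)} (_ : Ray T) (_ : Disjoint F D),
    ((T.filter (F ⊆ ·)).card : ℝ) * (T.filter (Disjoint D ·)).card ≤
      (((T.filter (Disjoint D ·)).filter (F ⊆ ·)).card : ℝ) * T.card := by
  induction D using Finset.induction_on with
  | empty => intro T _ _; simp
  | insert d D hd ih =>
    intro T hT hFD
    rw [Finset.disjoint_insert_right] at hFD
    have h1 := ih (hT.minor d).1 hFD.2
    have h2 := Ray.cyl F hT hFD.1
    have e1 : T.filter (Disjoint (insert d D) ·) =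
        (T.filter (d ∉ ·)).filter (Disjoint D ·) := by
      ext A
      simp only [Finset.mem_filter, Finset.disjoint_insert_left, and_assoc]
    rw [e1]
    have h3 := card_split T d
    have h4 := card_split (T.filter (F ⊆ ·)) d
    rw [Finset.filter_comm (fun A => F ⊆ A) (fun A => d ∉ A)] at h4
    set x := ((((T.filter (d ∉ ·)).filter (Disjoint D ·)).filter (F ⊆ ·)).card : ℝ) with hx
    set n := (T.card : ℝ)
    set n0 := ((T.filter (d ∉ ·)).card : ℝ) with hn0
    set n1 := ((T.filter (d ∈ ·)).card : ℝ)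
    set nF := ((T.filter (F ⊆ ·)).card : ℝ)
    set nF0 := (((T.filter (d ∉ ·)).filter (F ⊆ ·)).card : ℝ)
    set nF1 := (((T.filter (F ⊆ ·)).filter (d ∈ ·)).card : ℝ)
    set y := (((T.filter (d ∉ ·)).filter (Disjoint D ·)).card : ℝ) with hy
    have hn : 0 ≤ n := Nat.cast_nonneg _
    have hy0 : 0 ≤ y := Nat.cast_nonneg _
    have hx0 : 0 ≤ x := Nat.cast_nonneg _
    have hyle : y ≤ n0 := by
      rw [hy, hn0]
      exact_mod_cast Finset.card_le_card (Finset.filter_subset _ _)
    have hn00 : 0 ≤ n0 := Nat.cast_nonneg _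
    have h5 : nF * n0 ≤ nF0 * n := by
      have : nF0 = nF - nF1 := by linarith
      have h' : n0 = n - n1 := by linarith
      rw [this, h']
      nlinarith
    rcases hn00.lt_or_eq with hpos | hzero
    · have : nF * y * n0 ≤ x * n * n0 := by
        calc nF * y * n0 = (nF * n0) * y := by ring
          _ ≤ (nF0 * n) * y := mul_le_mul_of_nonneg_right h5 hy0
          _ = (nF0 * y) * n := by ring
          _ ≤ (x * n0) * n := mul_le_mul_of_nonneg_right h1 hn
          _ = x * n * n0 := by ring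
      exact le_of_mul_le_mul_right this hpos
    · have : y = 0 := le_antisymm (hzero ▸ hyle) hy0
      rw [this, mul_zero]
      exact mul_nonneg hx0 hn

end Crest.Agent.R168
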