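import Mathlib
import Crest.Prelude.Def_SpanningTrees
import Crest.Agent.R168.UST2
import Crest.Agent.R168.UST3

/-!
Monotonicity of the uniform spanning tree measure with free boundary under enlarging the piece.
-/

set_option autoImplicit false

namespace Crest.Agent.R168

open Finset Crest.ProbabilityR.SpanningTrees

variable {V : Type*}

theorem edgesIn_mono (G : SimpleGraph V) {S S' : Finset V} (h : S ⊆ S') :
    edgesIn G S ⊆ edgesIn G S' := fun _ he =>
  mem_edgesIn.mpr ⟨(mem_edgesIn.mp he).1, fun a ha => h ((mem_edgesIn.mp he).2 a ha)⟩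

theorem Lnk.mono {S : Finset V} {A A' : Finset (Sym2 V)} (h : Lnk S A) (hA : A ⊆ A') :
    Lnk S A' := fun x hx => h x fun a b hab => hx a b (hA hab)

theorem Lnk.insert [DecidableEq V] {S : Finset V} {A : Finset (Sym2 V)} (h : Lnk S A) {u v : V}
    (hu : u ∈ S) : Lnk (insert v S) (insert s(u, v) A) := by
  intro x hx
  have h1 : ∀ a ∈ Insert.insert v S, (x a ↔ x u) := by
    intro a ha
    rcases Finset.mem_insert.mp ha with rfl | ha
    · exact (hx u a (Finset.mem_insert_self _ _)).symm
    · exact h x (fun c d hcd => hx c d (Finset.mem_insert_of_mem hcd)) a ha u hu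
  intro a ha b hb
  exact (h1 a ha).trans (h1 b hb).symm

theorem Lnk.of_insert [DecidableEq V] {S : Finset V} {A : Finset (Sym2 V)} {u v : V}
    (hu : u ∈ S) (hv : v ∉ S) (hA : ∀ e ∈ A, ∀ a ∈ e, a ∈ S)
    (h : Lnk (Insert.insert v S) (Insert.insert s(u, v) A)) : Lnk S A := by
  intro x hx a ha b hb
  have huv : u ≠ v := fun h' => hv (h' ▸ hu)
  have hne : ∀ c ∈ S, c ≠ v := fun c hc h' => hv (h' ▸ hc)
  have := h (Function.update x v (x u)) (fun c d hcd => ?_) a (Finset.mem_insert_of_mem ha) b
    (Finset.mem_insert_of_mem hb)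
  · rwa [Function.update_of_ne (hne a ha), Function.update_of_ne (hne b hb)] at this
  · rcases Finset.mem_insert.mp hcd with h' | h'
    · rcases Sym2.eq_iff.mp h' with ⟨rfl, rfl⟩ | ⟨rfl, rfl⟩
      · rw [Function.update_of_ne huv, Function.update_self]
      · rw [Function.update_of_ne huv, Function.update_self]
    · rw [Function.update_of_ne (hne c (hA _ h' c (by simp))),
        Function.update_of_ne (hne d (hA _ h' d (by simp)))]
      exact hx c d h'

theorem trees_ray [DecidableEq V] (G : SimpleGraph V) (S : Finset V)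
    (hS : (G.induce (S : Set V)).Connected) : Ray (trees G S) :=
  ray_of_stable _ fun z hz => trees_stable G S hS z hz

theorem trees_insert [DecidableEq V] (G : SimpleGraph V) {S : Finset V} {u v : V}
    (hu : u ∈ S) (hv : v ∉ S) (huv : G.Adj u v) :
    (trees G (insert v S)).filter
        (Disjoint (((edgesIn G (insert v S)).filter (v ∈ ·)).erase s(u, v)) ·) =
      (trees G S).image (insert s(u, v)) := by
  ext A'
  simp only [Finset.mem_filter, Finset.mem_image, mem_trees, isSpanningTreeOn_iff]
  constructor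
  · rintro ⟨⟨h1, -, h3, h4⟩, h5⟩
    have hno : ∀ e ∈ A', e ≠ s(u, v) → v ∉ e := by
      intro e he hne hve
      exact Finset.disjoint_left.mp h5
        (Finset.mem_erase.mpr ⟨hne, Finset.mem_filter.mpr ⟨h1 he, hve⟩⟩) he
    have hmem : s(u, v) ∈ A' := by
      by_contra hn
      have := h3 (fun w => w = v) (fun a b hab => ?_) u (Finset.mem_insert_of_mem hu) v
        (Finset.mem_insert_self _ _)
      · exact huv.ne (this.mpr rfl)
      · have h6 := hno _ hab (fun h' => hn (h' ▸ hab))
        simp only [Sym2.mem_iff, not_or] at h6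
        exact ⟨fun h' => absurd h'.symm h6.1, fun h' => absurd h'.symm h6.2⟩
    have hsub : A'.erase s(u, v) ⊆ edgesIn G S := by
      intro e he
      obtain ⟨hne, he'⟩ := Finset.mem_erase.mp he
      obtain ⟨h6, h7⟩ := mem_edgesIn.mp (h1 he')
      refine mem_edgesIn.mpr ⟨h6, fun a ha => ?_⟩
      rcases Finset.mem_insert.mp (h7 a ha) with h8 | h8
      · exact absurd (h8 ▸ ha) (hno e he' hne)
      · exact h8
    refine ⟨A'.erase s(u, v), ⟨hsub, ⟨u, hu⟩, ?_, ?_⟩, Finset.insert_erase hmem⟩
    · apply Lnk.of_insert hu hv (fun e he => (mem_edgesIn.mp (hsub he)).2)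
      rwa [Finset.insert_erase hmem]
    · rw [Finset.card_erase_add_one hmem]
      rw [Finset.card_insert_of_notMem hv] at h4
      omega
  · rintro ⟨A, ⟨h1, -, h3, h4⟩, rfl⟩
    have hn : s(u, v) ∉ A := fun h' => hv (mk_mem_edgesIn.mp (h1 h')).2.2
    refine ⟨⟨?_, ⟨v, Finset.mem_insert_self _ _⟩, h3.insert hu, ?_⟩, ?_⟩
    · intro e he
      rcases Finset.mem_insert.mp he with rfl | he
      · exact mk_mem_edgesIn.mpr
          ⟨huv, Finset.mem_insert_of_mem hu, Finset.mem_insert_self _ _⟩
      · exact edgesIn_mono G (Finset.subset_insert _ _) (h1 he)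
    · rw [Finset.card_insert_of_notMem hn, Finset.card_insert_of_notMem hv, h4]
    · rw [Finset.disjoint_left]
      intro e he he'
      obtain ⟨hne, he⟩ := Finset.mem_erase.mp he
      rcases Finset.mem_insert.mp he' with h' | h'
      · exact hne h'
      · exact hv ((mem_edgesIn.mp (h1 h')).2 v (Finset.mem_filter.mp he).2)

theorem induce_insert_connected [DecidableEq V] (G : SimpleGraph V) {S : Finset V} {u v : V}
    (hu : u ∈ S) (huv : G.Adj u v) (hS : (G.induce (S : Set V)).Connected) :
    (G.induce ((insert v S : Finset V) : Set V)).Connected := by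
  rw [induce_connected_iff] at hS ⊢
  refine ⟨⟨v, Finset.mem_insert_self _ _⟩, (hS.2.insert (v := v) hu).mono ?_⟩
  intro e he
  rcases Finset.mem_insert.mp he with rfl | he
  · exact mk_mem_edgesIn.mpr ⟨huv, Finset.mem_insert_of_mem hu, Finset.mem_insert_self _ _⟩
  · exact edgesIn_mono G (Finset.subset_insert _ _) he

theorem ustContains_insert_le [DecidableEq V] (G : SimpleGraph V) {S : Finset V} {u v : V}
    (hu : u ∈ S) (hv : v ∉ S) (huv : G.Adj u v) (hS : (G.induce (S : Set V)).Connected)
    (F : Finset (Sym2 V)) (hF : F ⊆ edgesIn G S) :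
    ustContains G (insert v S) F ≤ ustContains G S F := by
  have hS' := induce_insert_connected G hu huv hS
  have hFD : Disjoint F (((edgesIn G (insert v S)).filter (v ∈ ·)).erase s(u, v)) := by
    rw [Finset.disjoint_left]
    intro e he he'
    exact hv ((mem_edgesIn.mp (hF he)).2 v (Finset.mem_filter.mp (Finset.mem_erase.mp he').2).2)
  have h := Ray.del F _ (trees_ray G _ hS') hFD
  rw [trees_insert G hu hv huv] at h
  have hn : ∀ A ∈ trees G S, s(u, v) ∉ A := fun A hA h' =>
    hv (mk_mem_edgesIn.mp ((mem_trees.mp hA).1 h')).2.2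
  have hinj : Set.InjOn (insert s(u, v)) (trees G S : Set (Finset (Sym2 V))) := by
    intro A hA B hB hAB
    rw [← Finset.erase_insert (hn A hA), ← Finset.erase_insert (hn B hB)]
    exact congrArg (fun C => Finset.erase C s(u, v)) hAB
  have h1 : ((trees G S).image (insert s(u, v))).filter (F ⊆ ·) =
      ((trees G S).filter (F ⊆ ·)).image (insert s(u, v)) := by
    rw [Finset.filter_image]
    congr 1
    refine Finset.filter_congr fun A _ => ?_
    have : s(u, v) ∉ F := fun h' => hv (mk_mem_edgesIn.mp (hF h')).2.2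
    exact Finset.subset_insert_iff_of_notMem this
  rw [h1, Finset.card_image_of_injOn hinj,
    Finset.card_image_of_injOn (hinj.mono (by
      intro A hA
      exact (Finset.mem_filter.mp hA).1))] at h
  rw [ustContains_eq, ustContains_eq]
  have p1 : (0 : ℝ) < (trees G S).card := by
    exact_mod_cast (trees_nonempty G S hS).card_pos
  have p2 : (0 : ℝ) < (trees G (insert v S)).card := by
    exact_mod_cast (trees_nonempty G _ hS').card_pos
  rw [div_le_div_iff₀ p2 p1]
  exact h

theorem ustContains_anti (G : SimpleGraph V) {S S' : Finset V} (hSS' : S ⊆ S')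
    (hS : (G.induce (S : Set V)).Connected) (hS' : (G.induce (S' : Set V)).Connected)
    (F : Finset (Sym2 V)) (hF : F ⊆ edgesIn G S) : ustContains G S' F ≤ ustContains G S F := by
  classical
  induction hn : (S' \ S).card generalizing S with
  | zero =>
    have : S = S' := Finset.Subset.antisymm hSS'
      (Finset.sdiff_eq_empty_iff_subset.mp (Finset.card_eq_zero.mp hn))
    rw [this]
  | succ n ih =>
    obtain ⟨w, hw⟩ : (S' \ S).Nonempty := Finset.card_pos.mp (by omega)
    obtain ⟨hw1, hw2⟩ := Finset.mem_sdiff.mp hw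
    obtain ⟨⟨r, hr⟩, -⟩ := (induce_connected_iff G S).mp hS
    obtain ⟨-, hL⟩ := (induce_connected_iff G S').mp hS'
    obtain ⟨u, v, hu, hv, hvS', huv⟩ : ∃ u v, u ∈ S ∧ v ∉ S ∧ v ∈ S' ∧ G.Adj u v := by
      by_contra hcon
      push Not at hcon
      have := hL (fun a => a ∈ S) (fun a b hab => ?_) r (hSS' hr) w hw1
      · exact hw2 (this.mp hr)
      · obtain ⟨h1, h2, h3⟩ := mk_mem_edgesIn.mp hab
        constructor
        · intro ha
          by_contra hb
          exact hcon a b ha hb h3 h1
        · intro hb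
          by_contra ha
          exact hcon b a hb ha h2 h1.symm
    refine le_trans (ih (S := insert v S) (Finset.insert_subset hvS' hSS')
      (induce_insert_connected G hu huv hS)
      (hF.trans (edgesIn_mono G (Finset.subset_insert _ _))) ?_)
      (ustContains_insert_le G hu hv huv hS F hF)
    rw [Finset.sdiff_insert, Finset.card_erase_of_mem (Finset.mem_sdiff.mpr ⟨hvS', hv⟩), hn]
    rfl

end Crest.Agent.R168
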