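import Crest.Agent.R168.Law
import Crest.Agent.R168.Natural
import Crest.Agent.R168.SR
import Crest.Agent.R168.UST

/-!
The free uniform spanning forest as a measure on edge sets: existence, inclusion probabilities,
Lipschitz property, equivariance and measurability in the graph.
-/

set_option autoImplicit false
set_option linter.unusedSectionVars false
set_option linter.unusedVariables false
set_option maxHeartbeats 400000

open MeasureTheory ProbabilityTheory Filter Topology
open Crest.ProbabilityR.SpanningTrees Crest.ProbabilityR.StronglyRayleigh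
open scoped ENNReal

namespace Crest.Agent.R168

/-- Indicator configuration of a finite edge set. -/
def ind (A : Finset (Sym2 ℕ)) : Sym2 ℕ → Bool := fun e => decide (e ∈ A)

/-- The uniform spanning tree of a finite piece, as a measure on configurations. -/
noncomputable def ustM (G : SimpleGraph ℕ) (S : Finset ℕ) : Measure (Sym2 ℕ → Bool) :=
  ((trees G S).card : ℝ≥0∞)⁻¹ • ∑ A ∈ trees G S, Measure.dirac (ind A)

lemma ustM_up (G : SimpleGraph ℕ) (S : Finset ℕ) (hS : (G.induce (S : Set ℕ)).Connected)
    (F : Finset (Sym2 ℕ)) :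
    ustM G S {ω | ∀ e ∈ F, ω e = true} = ENNReal.ofReal (ustContains G S F) := by
  have hpos : 0 < (trees G S).card := (trees_nonempty G S hS).card_pos
  rw [ustM, Measure.smul_apply, Measure.finsetSum_apply, ustContains_eq,
    ENNReal.ofReal_div_of_pos (by exact_mod_cast hpos), ENNReal.ofReal_natCast,
    ENNReal.ofReal_natCast, smul_eq_mul, ENNReal.div_eq_inv_mul]
  congr 1
  rw [Finset.card_filter]
  push_cast
  refine Finset.sum_congr rfl fun A _ => ?_
  rw [Measure.dirac_apply' _ (measurableSet_up F)]
  by_cases h : F ⊆ A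
  · rw [if_pos h, Set.indicator_of_mem]
    · rfl
    · intro e he
      simpa [ind] using h he
  · rw [if_neg h, Set.indicator_of_notMem]
    intro hc
    exact h fun e he => by simpa [ind] using hc e he

lemma isProbabilityMeasure_ustM (G : SimpleGraph ℕ) (S : Finset ℕ)
    (hS : (G.induce (S : Set ℕ)).Connected) : IsProbabilityMeasure (ustM G S) := by
  have hpos : 0 < (trees G S).card := (trees_nonempty G S hS).card_pos
  constructor
  rw [ustM, Measure.smul_apply, Measure.finsetSum_apply]
  simp only [measure_univ, Finset.sum_const, nsmul_eq_mul, mul_one, smul_eq_mul]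
  exact ENNReal.inv_mul_cancel (by exact_mod_cast hpos.ne') (by simp)

lemma ustM_stronglyRayleigh (G : SimpleGraph ℕ) (S : Finset ℕ)
    (hS : (G.induce (S : Set ℕ)).Connected) : IsStronglyRayleigh (ustM G S) := by
  have := isProbabilityMeasure_ustM G S hS
  have hpos : 0 < (trees G S).card := (trees_nonempty G S hS).card_pos
  intro F z hz
  have h1 := integral_filter (ustM G S) F (fun T => ∏ i ∈ T, z i)
  have h2 : genPoly (ustM G S) F z = ∑ T ∈ F.powerset, cyl (ustM G S) F T • ∏ i ∈ T, z i := by
    simp only [genPoly, cyl, Complex.real_smul]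
  have hm : Measurable (fun ω : Sym2 ℕ → Bool => ∏ i ∈ F.filter (fun i => ω i = true), z i) := by
    simp_rw [Finset.prod_filter]
    refine Finset.measurable_prod _ fun i _ => ?_
    exact Measurable.ite (measurableSet_eq_fun (measurable_pi_apply i) measurable_const)
      measurable_const measurable_const
  rw [h2, ← h1, ustM, integral_smul_measure, integral_finsetSum_measure
    (fun A _ => integrable_dirac' hm.stronglyMeasurable (by simp))]
  simp_rw [integral_dirac' _ _ hm.stronglyMeasurable]
  refine smul_ne_zero ?_ ?_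
  · simp [hpos.ne']
  · have h3 := trees_stable G S hS (fun e => if e ∈ F then z e else 1) (fun e => by
      by_cases he : e ∈ F
      · simp only [he, if_true]
        exact Or.inl (hz e he)
      · simp [he])
    convert h3 using 2 with A _
    rw [Finset.prod_ite_mem]
    congr 1
    ext e
    simp [ind, and_comm]

lemma ustContains_nonneg (G : SimpleGraph ℕ) (S : Finset ℕ) (F : Finset (Sym2 ℕ)) :
    0 ≤ ustContains G S F := by
  rw [ustContains_eq]
  positivity

lemma ustContains_eq_zero (G : SimpleGraph ℕ) (S : Finset ℕ) {F : Finset (Sym2 ℕ)}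
    (hF : ¬ (F : Set (Sym2 ℕ)) ⊆ G.edgeSet) : ustContains G S F = 0 := by
  rw [ustContains_eq, Finset.filter_false_of_mem]
  · simp
  · intro A hA hFA
    exact hF fun e he => (mem_edgesIn.1 ((mem_trees.1 hA).1 (hFA he))).1

open Classical in
/-- The term of the infimum defining the inclusion probabilities. -/
noncomputable def qTerm (G : SimpleGraph ℕ) (F : Finset (Sym2 ℕ)) (S : Finset ℕ) : ℝ≥0∞ :=
  if (G.induce (S : Set ℕ)).Connected ∧ F ⊆ edgesIn G S then ENNReal.ofReal (ustContains G S F)
  else ⊤

open Classical in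
/-- Inclusion probabilities of the free spanning forest. -/
noncomputable def qF (G : SimpleGraph ℕ) (F : Finset (Sym2 ℕ)) : ℝ≥0∞ :=
  if (F : Set (Sym2 ℕ)) ⊆ G.edgeSet then ⨅ S, qTerm G F S else 0

lemma eventually_subset {S : ℕ → Finset ℕ} (hmono : Monotone S) (hex : ∀ v, ∃ n, v ∈ S n)
    (T : Finset ℕ) : ∀ᶠ n in atTop, T ⊆ S n := by
  refine (Filter.eventually_all_finset T).2 fun v _ => ?_
  obtain ⟨n, hn⟩ := hex v
  exact (eventually_ge_atTop n).mono fun m hm => hmono hm hn

lemma tendsto_ust (G : SimpleGraph ℕ) {S : ℕ → Finset ℕ} (hmono : Monotone S)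
    (hex : ∀ v, ∃ n, v ∈ S n) (hconn : ∀ n, (G.induce (S n : Set ℕ)).Connected)
    (F : Finset (Sym2 ℕ)) :
    Tendsto (fun n => ENNReal.ofReal (ustContains G (S n) F)) atTop (𝓝 (qF G F)) := by
  classical
  by_cases hF : (F : Set (Sym2 ℕ)) ⊆ G.edgeSet
  · rw [qF, if_pos hF]
    have h1 : ∀ᶠ n in atTop, F ⊆ edgesIn G (S n) := by
      filter_upwards [eventually_subset hmono hex (F.biUnion fun e => e.toFinset)] with n hn e he
      refine mem_edgesIn.2 ⟨hF he, fun a ha => hn ?_⟩
      exact Finset.mem_biUnion.2 ⟨e, he, by simpa using ha⟩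
    refine tendsto_order.2 ⟨fun a ha => ?_, fun b hb => ?_⟩
    · filter_upwards [h1] with n hn
      refine ha.trans_le ((iInf_le _ (S n)).trans ?_)
      rw [qTerm, if_pos ⟨hconn n, hn⟩]
    · obtain ⟨S₀, hS₀⟩ := iInf_lt_iff.1 hb
      rw [qTerm] at hS₀
      split_ifs at hS₀ with h
      · filter_upwards [eventually_subset hmono hex S₀] with n hn
        exact (ENNReal.ofReal_le_ofReal (ustContains_anti G hn h.1 (hconn n) F h.2)).trans_lt hS₀
      · exact absurd hS₀ not_top_lt
  · simp only [qF, if_neg hF, ustContains_eq_zero G _ hF, ENNReal.ofReal_zero]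
    exact tendsto_const_nhds

lemma exists_exhaustion (G : SimpleGraph ℕ) (hG : G.Connected) :
    ∃ S : ℕ → Finset ℕ, Monotone S ∧ (∀ v, ∃ n, v ∈ S n) ∧
      ∀ n, (G.induce (S n : Set ℕ)).Connected := by
  choose ext h1 h2 using fun (t : Finset ℕ) (v : ℕ) =>
    SimpleGraph.extend_finset_to_connected hG.preconnected (Finset.insert_nonempty v t)
  let S : ℕ → Finset ℕ := fun n => Nat.rec (ext ∅ 0) (fun k T => ext T (k + 1)) n
  refine ⟨S, monotone_nat_of_le_succ fun n => ?_, fun v => ⟨v, ?_⟩, fun n => ?_⟩
  · exact (Finset.subset_insert _ _).trans (h1 (S n) (n + 1))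
  · cases v with
    | zero => exact h1 ∅ 0 (Finset.mem_insert_self _ _)
    | succ k => exact h1 (S k) (k + 1) (Finset.mem_insert_self _ _)
  · cases n with
    | zero => exact h2 ∅ 0
    | succ k => exact h2 (S k) (k + 1)

lemma continuous_bv : Continuous bv := continuous_of_discreteTopology

lemma isLip_of_tendsto {I ι : Type*} [Countable I] {l : Filter ι} [l.NeBot]
    {μs : ι → ProbabilityMeasure (I → Bool)} {μ : ProbabilityMeasure (I → Bool)}
    (h : Tendsto μs l (𝓝 μ)) {L : ℝ} (hL : ∀ n, IsLip (μs n : Measure (I → Bool)) L) :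
    IsLip (μ : Measure (I → Bool)) L := by
  have hb := continuous_bv
  have hpm : ∀ i W g, Tendsto (fun n => pm (μs n : Measure (I → Bool)) i W g) l
      (𝓝 (pm (μ : Measure (I → Bool)) i W g)) := by
    intro i W g
    have c1 : Continuous (wt W g) := by
      unfold wt
      fun_prop
    have c2 : Continuous (fun ω : I → Bool => bv (ω i) * wt W g ω) := by fun_prop
    have h1 := ProbabilityMeasure.tendsto_iff_forall_integral_tendsto.1 h
      (BoundedContinuousFunction.mkOfCompact ⟨_, c1⟩)
    have h2 := ProbabilityMeasure.tendsto_iff_forall_integral_tendsto.1 h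
      (BoundedContinuousFunction.mkOfCompact ⟨_, c2⟩)
    exact h2.div h1 (Zp_pos _ W g).ne'
  intro i W g g' r hr hg
  exact le_of_tendsto' ((hpm i W g).sub (hpm i W g')).abs fun n => hL n i W g g' r hr hg

lemma isClopen_up {I : Type*} (F : Finset I) :
    IsClopen {ω : I → Bool | ∀ i ∈ F, ω i = true} := by
  simp only [Set.ofPred_forall]
  exact isClopen_biInter_finset fun i _ =>
    (isClopen_discrete {true}).preimage (continuous_apply i)

lemma exists_fusf (G : SimpleGraph ℕ) (hG : G.Connected) :
    ∃ ν : Measure (Sym2 ℕ → Bool), IsProbabilityMeasure ν ∧ IsLip ν Lsr ∧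
      ∀ F : Finset (Sym2 ℕ), ν {ω | ∀ e ∈ F, ω e = true} = qF G F := by
  obtain ⟨S, hmono, hex, hconn⟩ := exists_exhaustion G hG
  let μs : ℕ → ProbabilityMeasure (Sym2 ℕ → Bool) := fun n =>
    ⟨ustM G (S n), isProbabilityMeasure_ustM G _ (hconn n)⟩
  obtain ⟨μ, -, hμ⟩ := isCompact_univ.ultrafilter_le_nhds ((hyperfilter ℕ).map μs) (by simp)
  have hμ' : Tendsto μs (hyperfilter ℕ) (𝓝 μ) := hμ
  refine ⟨μ, inferInstance, isLip_of_tendsto hμ' fun n => ?_, fun F => ?_⟩
  · have := isProbabilityMeasure_ustM G _ (hconn n)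
    exact isLip_of_stronglyRayleigh (ν := ustM G (S n)) (ustM_stronglyRayleigh G _ (hconn n))
  · have h1 := ProbabilityMeasure.tendsto_measure_of_null_frontier_of_tendsto' hμ'
      (E := {ω | ∀ e ∈ F, ω e = true}) (by simp [(isClopen_up F).frontier_eq])
    have h2 := (tendsto_ust G hmono hex hconn F).mono_left
      (show (hyperfilter ℕ : Filter ℕ) ≤ atTop from Nat.hyperfilter_le_atTop)
    refine tendsto_nhds_unique h1 ?_
    refine h2.congr fun n => ?_
    exact (ustM_up G _ (hconn n) F).symm

open Classical in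
/-- The free uniform spanning forest (the empty configuration for disconnected graphs). -/
noncomputable def fusf (G : SimpleGraph ℕ) : Measure (Sym2 ℕ → Bool) :=
  if h : G.Connected then (exists_fusf G h).choose else Measure.dirac (fun _ => false)

instance (G : SimpleGraph ℕ) : IsProbabilityMeasure (fusf G) := by
  unfold fusf
  split_ifs with h
  · exact (exists_fusf G h).choose_spec.1
  · infer_instance

lemma isLip_fusf {G : SimpleGraph ℕ} (hG : G.Connected) : IsLip (fusf G) Lsr := by
  rw [fusf, dif_pos hG]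
  exact (exists_fusf G hG).choose_spec.2.1

lemma fusf_up {G : SimpleGraph ℕ} (hG : G.Connected) (F : Finset (Sym2 ℕ)) :
    fusf G {ω | ∀ e ∈ F, ω e = true} = qF G F := by
  rw [fusf, dif_pos hG]
  exact (exists_fusf G hG).choose_spec.2.2 F

/-! ### Equivariance -/

section equivariance

variable (σ : Equiv.Perm ℕ)

/-- The action of a permutation on unordered pairs. -/
def sm : Sym2 ℕ ↪ Sym2 ℕ := σ.toEmbedding.sym2Map

@[simp] lemma sm_mk (a b : ℕ) : sm σ s(a, b) = s(σ a, σ b) := rfl

lemma sm_surjective : Function.Surjective (sm σ) := by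
  intro e
  induction e with
  | _ a b => exact ⟨s(σ.symm a, σ.symm b), by simp⟩

lemma sm_mem_edgeSet (G : SimpleGraph ℕ) (e : Sym2 ℕ) :
    sm σ e ∈ G.edgeSet ↔ e ∈ (G.comap σ).edgeSet := by
  induction e with
  | _ a b => simp

lemma sm_mem_edgesIn (G : SimpleGraph ℕ) (S : Finset ℕ) (e : Sym2 ℕ) :
    sm σ e ∈ edgesIn G (S.map σ.toEmbedding) ↔ e ∈ edgesIn (G.comap σ) S := by
  induction e with
  | _ a b => simp [mk_mem_edgesIn]

lemma edgesIn_map (G : SimpleGraph ℕ) (S : Finset ℕ) :
    edgesIn G (S.map σ.toEmbedding) = (edgesIn (G.comap σ) S).map (sm σ) := by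
  ext e
  obtain ⟨e, rfl⟩ := sm_surjective σ e
  rw [sm_mem_edgesIn, Finset.mem_map']

lemma lnk_map (S : Finset ℕ) (A : Finset (Sym2 ℕ)) :
    Lnk (S.map σ.toEmbedding) (A.map (sm σ)) ↔ Lnk S A := by
  constructor
  · intro h x hx a ha b hb
    have := h (fun v => x (σ.symm v)) (fun c d hcd => hx _ _ (by
      rw [← Finset.mem_map' (sm σ)]
      simpa using hcd)) (σ a) (by simpa using ha) (σ b) (by simpa using hb)
    simpa using this
  · intro h x hx a ha b hb
    have := h (fun v => x (σ v)) (fun c d hcd => hx _ _ (by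
      rw [← sm_mk, Finset.mem_map']
      exact hcd)) (σ.symm a) (by simpa using ha) (σ.symm b) (by simpa using hb)
    simpa using this

lemma induce_connected_map (G : SimpleGraph ℕ) (S : Finset ℕ) :
    (G.induce ((S.map σ.toEmbedding : Finset ℕ) : Set ℕ)).Connected ↔
      ((G.comap σ).induce (S : Set ℕ)).Connected := by
  rw [induce_connected_iff, induce_connected_iff, edgesIn_map, lnk_map, Finset.map_nonempty]

lemma finset_map_surjective {α : Type*} (f : α ↪ α) (hf : Function.Surjective f) :
    Function.Surjective (Finset.map f) := by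
  intro A
  refine ⟨A.preimage f f.injective.injOn, ?_⟩
  ext a
  obtain ⟨a, rfl⟩ := hf a
  simp

lemma trees_map (G : SimpleGraph ℕ) (S : Finset ℕ) :
    trees G (S.map σ.toEmbedding) =
      (trees (G.comap σ) S).map (Finset.mapEmbedding (sm σ)).toEmbedding := by
  ext A
  obtain ⟨A, rfl⟩ := finset_map_surjective (sm σ) (sm_surjective σ) A
  have : A.map (sm σ) = (Finset.mapEmbedding (sm σ)).toEmbedding A := rfl
  conv_rhs => rw [this, Finset.mem_map']
  rw [mem_trees, mem_trees, isSpanningTreeOn_iff, isSpanningTreeOn_iff, edgesIn_map, lnk_map,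
    Finset.map_nonempty, Finset.card_map, Finset.card_map, Finset.map_subset_map]

lemma ustContains_map (G : SimpleGraph ℕ) (S : Finset ℕ) (F : Finset (Sym2 ℕ)) :
    ustContains G (S.map σ.toEmbedding) (F.map (sm σ)) = ustContains (G.comap σ) S F := by
  rw [ustContains_eq, ustContains_eq, trees_map, Finset.filter_map, Finset.card_map,
    Finset.card_map]
  congr 3
  ext A
  simp [Finset.map_subset_map]

lemma qF_map (G : SimpleGraph ℕ) (F : Finset (Sym2 ℕ)) :
    qF G (F.map (sm σ)) = qF (G.comap σ) F := by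
  classical
  have h1 : ((F.map (sm σ) : Finset (Sym2 ℕ)) : Set (Sym2 ℕ)) ⊆ G.edgeSet ↔
      (F : Set (Sym2 ℕ)) ⊆ (G.comap σ).edgeSet := by
    simp only [Finset.coe_map, Set.image_subset_iff]
    exact forall₂_congr fun e _ => sm_mem_edgeSet σ G e
  have h2 : ⨅ S, qTerm G (F.map (sm σ)) S = ⨅ S, qTerm (G.comap σ) F S := by
    rw [← (finset_map_surjective σ.toEmbedding σ.surjective).iInf_comp]
    refine iInf_congr fun S => ?_
    unfold qTerm
    rw [ustContains_map]
    refine if_congr ?_ rfl rfl
    rw [induce_connected_map, edgesIn_map, Finset.map_subset_map]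
  unfold qF
  rw [h2]
  exact if_congr h1 rfl rfl

lemma comap_connected (G : SimpleGraph ℕ) : (G.comap σ).Connected ↔ G.Connected :=
  (SimpleGraph.Iso.comap σ G).connected_iff

lemma fusf_comap (G : SimpleGraph ℕ) :
    fusf (G.comap σ) = (fusf G).map (fun ω => ω ∘ sm σ) := by
  by_cases hG : G.Connected
  · have := Measure.isProbabilityMeasure_map (μ := fusf G)
      (measurable_comp_emb (X := Bool) (sm σ)).aemeasurable
    refine ext_upSets fun F => ?_
    rw [fusf_up ((comap_connected σ G).2 hG), ← qF_map, ← fusf_up hG,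
      Measure.map_apply (measurable_comp_emb _) (measurableSet_up F)]
    congr 1
    ext ω
    simp
  · rw [fusf, fusf, dif_neg hG, dif_neg (mt (comap_connected σ G).1 hG),
      Measure.map_dirac' (measurable_comp_emb _)]
    rfl

end equivariance

/-! ### Balls and windows -/

/-- Vertices within distance `n` of `T`. -/
def ball (G : SimpleGraph ℕ) (T : Set ℕ) : ℕ → Set ℕ
  | 0 => T
  | n + 1 => ball G T n ∪ {v | ∃ w ∈ ball G T n, G.Adj w v}

lemma ball_mono (G : SimpleGraph ℕ) (T : Set ℕ) : Monotone (ball G T) :=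
  monotone_nat_of_le_succ fun _ => Set.subset_union_left

lemma ball_finite {G : SimpleGraph ℕ} (hG : ∀ v, (G.neighborSet v).Finite) {T : Set ℕ}
    (hT : T.Finite) (n : ℕ) : (ball G T n).Finite := by
  induction n with
  | zero => exact hT
  | succ n ih =>
    refine ih.union ((ih.biUnion fun w _ => hG w).subset ?_)
    rintro v ⟨w, hw, hwv⟩
    exact Set.mem_biUnion hw hwv

lemma reachable_iff_ball (G : SimpleGraph ℕ) (T : Set ℕ) (v : ℕ) :
    (∃ u ∈ T, G.Reachable u v) ↔ ∃ n, v ∈ ball G T n := by
  constructor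
  · rintro ⟨u, hu, h⟩
    rw [SimpleGraph.reachable_iff_reflTransGen] at h
    induction h with
    | refl => exact ⟨0, hu⟩
    | tail _ h ih =>
      obtain ⟨n, hn⟩ := ih
      exact ⟨n + 1, Or.inr ⟨_, hn, h⟩⟩
  · rintro ⟨n, hn⟩
    induction n generalizing v with
    | zero => exact ⟨v, hn, .refl _⟩
    | succ n ih =>
      rcases hn with hn | ⟨w, hw, hwv⟩
      · exact ih v hn
      · obtain ⟨u, hu, h⟩ := ih w hw
        exact ⟨u, hu, h.trans hwv.reachable⟩

lemma ball_comap (σ : Equiv.Perm ℕ) (G : SimpleGraph ℕ) (T : Set ℕ) (n : ℕ) :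
    ball (G.comap σ) (σ ⁻¹' T) n = σ ⁻¹' ball G T n := by
  induction n with
  | zero => rfl
  | succ n ih =>
    simp only [ball, ih, Set.preimage_union]
    congr 1
    ext v
    simp only [Set.mem_preimage, SimpleGraph.comap_adj, Set.mem_ofPred_eq]
    constructor
    · rintro ⟨w, h1, h2⟩
      exact ⟨σ w, h1, h2⟩
    · rintro ⟨w, h1, h2⟩
      exact ⟨σ.symm w, by simpa using h1, by simpa using h2⟩

/-- Edges near `e`. -/
def nearSet (G : SimpleGraph ℕ) (N : ℕ) (e : Sym2 ℕ) : Set (Sym2 ℕ) :=
  {f | f ∈ G.edgeSet ∧ ∀ v ∈ f, v ∈ ball G {u | u ∈ e} N}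

open Classical in
/-- The windows for the graph `G`. -/
noncomputable def gwin (G : SimpleGraph ℕ) (N : ℕ) (e : Sym2 ℕ) : Finset (Sym2 ℕ) :=
  if h : (nearSet G N e).Finite then h.toFinset else ∅

lemma mem_gwin (G : SimpleGraph ℕ) (N : ℕ) (e f : Sym2 ℕ) :
    f ∈ gwin G N e ↔ (nearSet G N e).Finite ∧ f ∈ nearSet G N e := by
  unfold gwin
  split_ifs with h <;> simp [h]

lemma nearSet_comap (σ : Equiv.Perm ℕ) (G : SimpleGraph ℕ) (N : ℕ) (e : Sym2 ℕ) :
    nearSet (G.comap σ) N e = sm σ ⁻¹' nearSet G N (sm σ e) := by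
  have h1 : {u | u ∈ e} = σ ⁻¹' {u | u ∈ sm σ e} := by
    induction e with
    | _ a b =>
      ext u
      simp
  ext f
  simp only [nearSet, Set.mem_ofPred_eq, Set.mem_preimage, sm_mem_edgeSet, h1, ball_comap]
  induction f with
  | _ a b => simp

lemma gwin_comap (σ : Equiv.Perm ℕ) (G : SimpleGraph ℕ) (N : ℕ) (e : Sym2 ℕ) :
    gwin G N (sm σ e) = (gwin (G.comap σ) N e).map (sm σ) := by
  ext f
  obtain ⟨f, rfl⟩ := sm_surjective σ f
  rw [Finset.mem_map', mem_gwin, mem_gwin, nearSet_comap, Set.mem_preimage]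
  refine and_congr_left fun _ => ⟨fun h => h.preimage (sm σ).injective.injOn, fun h => ?_⟩
  exact h.of_preimage (sm_surjective σ)

lemma nearSet_finite {G : SimpleGraph ℕ} (hG : ∀ v, (G.neighborSet v).Finite) (N : ℕ)
    (e : Sym2 ℕ) : (nearSet G N e).Finite := by
  have h1 : ({u | u ∈ e} : Set ℕ).Finite := by
    induction e with
    | _ a b => exact (Set.toFinite {a, b}).subset fun u hu => by simpa using hu
  have h2 := ball_finite hG h1 N
  refine ((h2.prod h2).image fun p => s(p.1, p.2)).subset ?_
  rintro f ⟨-, hf⟩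
  induction f with
  | _ a b => exact ⟨(a, b), ⟨hf a (by simp), hf b (by simp)⟩, rfl⟩

/-! ### Measurability in the graph -/

section measurable

variable {Θ : Type*} [MeasurableSpace Θ] {G : Θ → SimpleGraph ℕ}
  (hG : ∀ u v, Measurable fun θ => (G θ).Adj u v)

lemma measurable_of_factors {α β I : Type*} [MeasurableSpace α] [MeasurableSpace β] [Countable I]
    [Nonempty β] {S : α → Finset I} (hS : ∀ j, MeasurableSet {a | j ∈ S a}) {f : α → β}
    (hf : ∀ a a', S a = S a' → f a = f a') : Measurable f := by
  have h1 : f = Function.extend S f (fun _ => Classical.arbitrary β) ∘ S :=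
    (Function.FactorsThrough.extend_comp _ fun a a' h => hf a a' h).symm
  rw [h1]
  exact measurable_plug (f := fun F _ => Function.extend S f (fun _ => Classical.arbitrary β) F)
    hS fun _ => measurable_const

include hG

lemma measurable_mem_edgeSet (e : Sym2 ℕ) : Measurable fun θ => e ∈ (G θ).edgeSet := by
  induction e with
  | _ a b => exact hG a b

lemma measurable_mem_ball (T : Set ℕ) (n v : ℕ) : Measurable fun θ => v ∈ ball (G θ) T n := by
  induction n generalizing v with
  | zero => exact measurable_const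
  | succ n ih => exact (ih v).or (Measurable.exists fun w => (ih w).and (hG w v))

lemma measurable_connected : Measurable fun θ => (G θ).Connected := by
  have : (fun θ => (G θ).Connected) = fun θ => ∀ v, ∃ n, v ∈ ball (G θ) {0} n := by
    funext θ
    simp only [← reachable_iff_ball, Set.mem_singleton_iff, exists_eq_left]
    refine propext ⟨fun h v => h.preconnected 0 v, fun h => ?_⟩
    exact (SimpleGraph.connected_iff_exists_forall_reachable _).2 ⟨0, h⟩
  rw [this]
  exact Measurable.forall fun v => Measurable.exists fun n => measurable_mem_ball hG _ n v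

lemma measurable_qTerm (F : Finset (Sym2 ℕ)) (S : Finset ℕ) :
    Measurable fun θ => qTerm (G θ) F S := by
  classical
  refine measurable_of_factors (S := fun θ => edgesIn (G θ) S) (fun e => ?_) fun θ θ' h => ?_
  · simp only [mem_edgesIn]
    exact measurableSet_setOfPred.2 ((measurable_mem_edgeSet hG e).and measurable_const)
  · have h1 : trees (G θ) S = trees (G θ') S := by
      ext A
      simp only [mem_trees, isSpanningTreeOn_iff, h]
    unfold qTerm
    rw [ustContains_eq, ustContains_eq, h1]
    refine if_congr ?_ rfl rfl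
    rw [induce_connected_iff, induce_connected_iff, h]

lemma measurable_qF (F : Finset (Sym2 ℕ)) : Measurable fun θ => qF (G θ) F := by
  unfold qF
  refine Measurable.ite (measurableSet_setOfPred.2 ?_)
    (Measurable.iInf fun S => measurable_qTerm hG F S) measurable_const
  exact Measurable.forall fun e => measurable_const.imp (measurable_mem_edgeSet hG e)

lemma measurable_fusf : Measurable fun θ => fusf (G θ) := by
  classical
  refine Measurable.measure_of_isPiSystem_of_isProbabilityMeasure (generateFrom_upSets _)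
    (isPiSystem_upSets _) ?_
  rintro _ ⟨F, rfl⟩
  have : (fun θ => fusf (G θ) {ω | ∀ e ∈ F, ω e = true}) = fun θ =>
      if (G θ).Connected then qF (G θ) F
      else Measure.dirac (fun _ => false) {ω : Sym2 ℕ → Bool | ∀ e ∈ F, ω e = true} := by
    funext θ
    split_ifs with h
    · exact fusf_up h F
    · rw [fusf, dif_neg h]
  simp only
  rw [this]
  exact Measurable.ite (measurableSet_setOfPred.2 (measurable_connected hG)) (measurable_qF hG F)
    measurable_const

lemma measurableSet_mem_gwin (N : ℕ) (e f : Sym2 ℕ) : MeasurableSet {θ | f ∈ gwin (G θ) N e} := by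
  have h1 : ∀ f, Measurable fun θ => f ∈ nearSet (G θ) N e := fun f =>
    (measurable_mem_edgeSet hG f).and
      (Measurable.forall fun v => measurable_const.imp (measurable_mem_ball hG _ N v))
  have h2 : Measurable fun θ => nearSet (G θ) N e := measurable_set_iff.2 h1
  simp only [mem_gwin]
  exact (h2 MeasurableSet.setOfPred_finite).inter (measurableSet_setOfPred.2 (h1 f))

end measurable

end Crest.Agent.R168
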