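import Crest.Agent.R168.Estimate

/-!
The output map pushes independent Laplace noise forward to `ν`.
-/

set_option autoImplicit false
set_option linter.unusedSectionVars false
set_option linter.unusedVariables false

open MeasureTheory ProbabilityTheory Filter Topology
open scoped ENNReal NNReal

universe u

namespace Crest.Agent.R168

variable {I : Type u} {ν : Measure (I → Bool)} [IsProbabilityMeasure ν]

section chain

variable {F : Finset I} {δ : ℝ} {U : ℕ} {Ω : Type*} [MeasurableSpace Ω] {P : Measure Ω}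
  {y : ℕ → Ω → I → ℝ} {ω : ℕ → Ω → I → Bool}

lemma IsChain.block {L : ℝ} (hL : IsLip ν L) (hL0 : 0 ≤ L) (hc : IsChain ν F δ U P y ω)
    {K M : ℕ} (hK : 0 < K) (hM : 0 < M) (hδ : δ = 1 / ((K : ℝ) * M)) (t : ℕ) (ht : t * M ≤ U)
    (x : Ω) (i : I) :
    |δ * ∑ u ∈ Finset.range (t * M), vel ν i F (u * δ) (y u x) -
      (1 / K : ℝ) * ∑ l ∈ Finset.range t, vel ν i F ((l : ℝ) / K) (y (l * M) x)| ≤
      t * (3 * L * (1 / K) ^ 2) := by
  have hK' : (0 : ℝ) < K := by exact_mod_cast hK
  have hM' : (0 : ℝ) < M := by exact_mod_cast hM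
  have hδ0 : 0 ≤ δ := by rw [hδ]; positivity
  have hMδ : M * δ = 1 / K := by rw [hδ]; field_simp
  induction t with
  | zero => simp
  | succ t ih =>
    have ht' : t * M + M ≤ U := by rw [← Nat.succ_mul]; exact ht
    have h1 := ih (by omega)
    rw [Nat.succ_mul, Finset.sum_range_add, Finset.sum_range_succ]
    have h2 : |δ * ∑ k ∈ Finset.range M, vel ν i F (((t * M + k : ℕ) : ℝ) * δ) (y (t * M + k) x) -
        (1 / K : ℝ) * vel ν i F ((t : ℝ) / K) (y (t * M) x)| ≤ 3 * L * (1 / K) ^ 2 := by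
      have h3 : δ * ∑ k ∈ Finset.range M, vel ν i F (((t * M + k : ℕ) : ℝ) * δ) (y (t * M + k) x) -
          (1 / K : ℝ) * vel ν i F ((t : ℝ) / K) (y (t * M) x) =
          δ * ∑ k ∈ Finset.range M, (vel ν i F (((t * M + k : ℕ) : ℝ) * δ) (y (t * M + k) x) -
            vel ν i F ((t : ℝ) / K) (y (t * M) x)) := by
        rw [Finset.sum_sub_distrib, Finset.sum_const, Finset.card_range, nsmul_eq_mul, ← hMδ]
        ring
      rw [h3, abs_mul, abs_of_nonneg hδ0]
      have h4 : ∀ k ∈ Finset.range M, |vel ν i F (((t * M + k : ℕ) : ℝ) * δ) (y (t * M + k) x) -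
          vel ν i F ((t : ℝ) / K) (y (t * M) x)| ≤ L * (2 * (1 / K) + 1 / K) := by
        intro k hk
        have hk' : k ≤ M := (Finset.mem_range.1 hk).le
        have hkδ : k * δ ≤ 1 / K := by
          rw [← hMδ]
          gcongr
        refine hL.vel i F (by positivity) (fun j _ => ?_) ?_
        · exact (hc.abs_incr_le hδ0 (t * M) k (by omega) x j).trans hkδ
        · have : ((t * M + k : ℕ) : ℝ) * δ - (t : ℝ) / K = k * δ := by
            push_cast
            rw [add_mul, mul_assoc, hMδ]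
            ring
          rw [this, abs_of_nonneg (by positivity)]
          exact hkδ
      have h5 := (Finset.abs_sum_le_sum_abs _ _).trans (Finset.sum_le_card_nsmul _ _ _ h4)
      rw [Finset.card_range, nsmul_eq_mul] at h5
      calc _ ≤ δ * (M * (L * (2 * (1 / K) + 1 / K))) := by gcongr
        _ = (M * δ) * (L * (2 * (1 / K) + 1 / K)) := by ring
        _ = _ := by rw [hMδ]; ring
    have h6 := abs_add_le (δ * ∑ u ∈ Finset.range (t * M), vel ν i F (u * δ) (y u x) -
      (1 / K : ℝ) * ∑ l ∈ Finset.range t, vel ν i F ((l : ℝ) / K) (y (l * M) x))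
      (δ * ∑ k ∈ Finset.range M, vel ν i F (((t * M + k : ℕ) : ℝ) * δ) (y (t * M + k) x) -
        (1 / K : ℝ) * vel ν i F ((t : ℝ) / K) (y (t * M) x))
    refine le_trans (le_of_eq ?_) (h6.trans ?_)
    · congr 1
      ring
    · push_cast at h1 h2 ⊢
      linarith

lemma IsChain.coarse [IsProbabilityMeasure P] {L : ℝ} (hL : IsLip ν L) (hL0 : 0 ≤ L)
    (hc : IsChain ν F δ U P y ω) {K M : ℕ} (hK : 0 < K) (hM : 0 < M)
    (hδ : δ = 1 / ((K : ℝ) * M)) (H : ℕ) (hH : H * M ≤ U) {ε : ℝ} (hε : 0 < ε)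
    (hεU : δ ^ 2 * U ≤ ε ^ 2) :
    IsCoarse ν F K H (H * (3 * L * (1 / K) ^ 2)) ε P (fun l => y (l * M)) := by
  have hK' : (0 : ℝ) < K := by exact_mod_cast hK
  have hM' : (0 : ℝ) < M := by exact_mod_cast hM
  have hδ0 : 0 ≤ δ := by rw [hδ]; positivity
  refine ⟨fun l => hc.my _, fun l hl => ?_, fun t ht i hi => ?_⟩
  · rw [hc.law _ ((Nat.mul_le_mul_right M hl).trans hH)]
    congr 1
    rw [hδ]
    push_cast
    field_simp
  · have htU : t * M ≤ U := (Nat.mul_le_mul_right M ht).trans hH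
    have hm := measurable_mart ν F δ hc.my hc.mω (t * M) i
    refine le_trans (lintegral_mono fun x => ENNReal.ofReal_le_ofReal ?_)
      (lintegral_abs_le_of_sq (f := fun x => δ * mart ν F δ y ω (t * M) i x) (C := δ * (t * M : ℕ))
        (by fun_prop) (fun x => ?_) hε ?_)
    · have h1 := hc.sub_eq (t * M) htU x hi
      have h2 := hc.block hL hL0 hK hM hδ t htU x i
      simp only [zero_mul]
      rw [h1, add_sub_assoc]
      refine sub_le_iff_le_add.2 ((abs_add_le _ _).trans ?_)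
      have h3 : (t : ℝ) * (3 * L * (1 / K) ^ 2) ≤ H * (3 * L * (1 / K) ^ 2) := by gcongr
      linarith
    · rw [abs_mul, abs_of_nonneg hδ0]
      gcongr
      exact abs_mart_le ν F δ y ω _ i x
    · simp_rw [mul_pow]
      rw [integral_const_mul]
      refine le_trans ?_ hεU
      gcongr
      exact (hc.hmart _ htU i).trans (by exact_mod_cast htU)

end chain

lemma Kn_pos (L : ℝ) (n : ℕ) : 0 < Kn L n := Nat.succ_pos _

lemma stage {L : ℝ} (hL : IsLip ν L) (hL0 : 0 ≤ L) {W : ℕ → I → Finset I} (hW : Exhausts W)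
    (n : ℕ) (i : I) :
    ∃ (F₀ : Finset I) (C : ℝ), 0 ≤ C ∧ ∀ (F : Finset I), F₀ ⊆ F →
      ∀ (N U : ℕ) (ε : ℝ), 0 < N → Kn L n ∣ N → n * N ≤ U → 0 < ε →
        (1 / (N : ℝ)) ^ 2 * U ≤ ε ^ 2 →
        ∀ (Ω : Type u) [MeasurableSpace Ω] (P : Measure Ω) [IsProbabilityMeasure P]
          (y : ℕ → Ω → I → ℝ) (ω : ℕ → Ω → I → Bool), IsChain ν F (1 / (N : ℝ)) U P y ω →
          P {x | 1 < |y (n * N) x i - pos ν W L n (y 0 x) i|} ≤
            ENNReal.ofReal ((1 / 2) ^ n + C * ε) := by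
  classical
  set K := Kn L n with hK
  obtain ⟨F₀, C, hC, h⟩ := coarse_main hL hL0 hW K (n * K) (n * K) le_rfl (jn L n) i
  refine ⟨insert i F₀, 2 * (C + 1), by positivity,
    fun F hF N U ε hN hKN hnN hε hεU Ω _ P _ y ω hc => ?_⟩
  obtain ⟨M, rfl⟩ := hKN
  have hK0 : 0 < K := Kn_pos L n
  have hM : 0 < M := Nat.pos_of_mul_pos_left hN
  have hK' : (0 : ℝ) < K := by exact_mod_cast hK0
  have hco := hc.coarse hL hL0 hK0 hM (by push_cast; rfl) (n * K) (by rw [mul_assoc]; exact hnN)
    hε hεU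
  set e : ℝ := ((n * K : ℕ) : ℝ) * (3 * L * (1 / K) ^ 2) with he
  have he0 : 0 ≤ e := by positivity
  have h1 := h F ((Finset.subset_insert _ _).trans hF) e ε he0 hε.le Ω P _ hco
  have h2 := hco.err (n * K) le_rfl i (hF (Finset.mem_insert_self _ _))
  set q : ℝ := 1 + 2 * L * (1 / K) with hq
  have hqn : q ^ (n * K) ≤ Real.exp (2 * L * n) := by
    have h3 : q ≤ Real.exp (2 * L * (1 / K)) := by
      rw [hq, add_comm]
      exact Real.add_one_le_exp _
    have hq0 : 0 ≤ q := by positivity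
    refine (pow_le_pow_left₀ hq0 h3 _).trans (le_of_eq ?_)
    rw [← Real.exp_nat_mul]
    congr 1
    push_cast
    field_simp
  have hq0 : 0 ≤ q := by positivity
  have heq : e * q ^ (n * K) ≤ 1 / 2 := by
    have h3 : 6 * L * n * Real.exp (2 * L * n) ≤ K := by
      rw [hK, Kn]
      push_cast
      linarith [Nat.le_ceil (6 * L * n * Real.exp (2 * L * n))]
    have h4 : e = 3 * L * n / K := by
      rw [he]
      push_cast
      field_simp
    rw [h4, div_mul_eq_mul_div, div_le_iff₀ hK']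
    have : 3 * L * n * q ^ (n * K) ≤ 3 * L * n * Real.exp (2 * L * n) := by gcongr
    linarith
  have hcj : ((n * K : ℕ) : ℝ) * (1 / K) * q ^ (n * K) / (jn L n + 1) ≤ (1 / 2) ^ (n + 1) := by
    have h3 : 2 ^ (n + 1) * n * Real.exp (2 * L * n) ≤ jn L n := Nat.le_ceil _
    have h4 : ((n * K : ℕ) : ℝ) * (1 / K) = n := by
      push_cast
      field_simp
    rw [h4, div_le_iff₀ (by positivity), one_div_pow, div_mul_eq_mul_div,
      le_div_iff₀ (by positivity)]
    have : n * q ^ (n * K) * 2 ^ (n + 1) ≤ n * Real.exp (2 * L * n) * 2 ^ (n + 1) := by gcongr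
    linarith
  set S : Ω → ℝ := fun x => (1 / K : ℝ) * ∑ l ∈ Finset.range (n * K),
    vel ν i F ((l : ℝ) / K) (y (l * M) x) with hS
  have hmS : Measurable S := Measurable.const_mul
    (Finset.measurable_sum _ fun l _ => (measurable_vel ν i F _).comp (hc.my _)) _
  have hm1 : Measurable (fun x => ENNReal.ofReal (|y (n * K * M) x i - y (0 * M) x i - S x| - e)) := by
    have := hc.my (n * K * M)
    have := hc.my (0 * M)
    fun_prop
  have hm2 : Measurable (fun x => ENNReal.ofReal (|S x -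
      sch ν W K (n * K) (y (0 * M) x) (n * K) (jn L n) i| - e * (q ^ (n * K) - 1))) := by
    have : Measurable (fun x => sch ν W K (n * K) (y (0 * M) x) (n * K) (jn L n) i) :=
      (measurable_sch W _ _ _ _ i).comp (hc.my _)
    fun_prop
  calc P {x | 1 < |y (n * (K * M)) x i - pos ν W L n (y 0 x) i|}
      ≤ ∫⁻ x, 2 * (ENNReal.ofReal (|y (n * K * M) x i - y (0 * M) x i - S x| - e) +
          ENNReal.ofReal (|S x - sch ν W K (n * K) (y (0 * M) x) (n * K) (jn L n) i| -
            e * (q ^ (n * K) - 1))) ∂P := by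
        refine meas_le_lintegral₀ (Measurable.aemeasurable (by fun_prop)) fun x hx => ?_
        simp only [Set.mem_ofPred_eq, pos, ← hK] at hx
        have h3 := abs_add_le (y (n * K * M) x i - y (0 * M) x i - S x)
          (S x - sch ν W K (n * K) (y (0 * M) x) (n * K) (jn L n) i)
        have h4 : (1 / 2 : ℝ) ≤ (|y (n * K * M) x i - y (0 * M) x i - S x| - e) +
            (|S x - sch ν W K (n * K) (y (0 * M) x) (n * K) (jn L n) i| -
              e * (q ^ (n * K) - 1)) := by
          have h5 : y (n * K * M) x i - y (0 * M) x i - S x +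
              (S x - sch ν W K (n * K) (y (0 * M) x) (n * K) (jn L n) i) =
              y (n * (K * M)) x i - (y 0 x i + sch ν W K (n * K) (y 0 x) (n * K) (jn L n) i) := by
            rw [zero_mul, mul_assoc]
            ring
          rw [h5] at h3
          linarith
        have h6 := (ENNReal.ofReal_le_ofReal h4).trans ENNReal.ofReal_add_le
        calc (1 : ℝ≥0∞) = 2 * ENNReal.ofReal (1 / 2) := by
              rw [← ENNReal.ofReal_ofNat, ← ENNReal.ofReal_mul (by norm_num)]
              norm_num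
          _ ≤ _ := by gcongr
    _ = 2 * (∫⁻ x, ENNReal.ofReal (|y (n * K * M) x i - y (0 * M) x i - S x| - e) ∂P +
          ∫⁻ x, ENNReal.ofReal (|S x - sch ν W K (n * K) (y (0 * M) x) (n * K) (jn L n) i| -
            e * (q ^ (n * K) - 1)) ∂P) := by
        rw [lintegral_const_mul _ (by fun_prop), lintegral_add_left hm1]
    _ ≤ 2 * (ENNReal.ofReal ε + ENNReal.ofReal ((1 / 2) ^ (n + 1) + C * ε)) := by
        gcongr
        exact h1.trans (ENNReal.ofReal_le_ofReal (by linarith))
    _ = _ := by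
        rw [← ENNReal.ofReal_add hε.le (by positivity), ← ENNReal.ofReal_ofNat,
          ← ENNReal.ofReal_mul (by norm_num)]
        congr 1
        ring

/-- The Laplace tail at stage `n`. -/
noncomputable def tau (n : ℕ) : ℝ := 2 * Real.exp (-(((n : ℝ) / 2 - 3) / 2))

lemma tau_nonneg (n : ℕ) : 0 ≤ tau n := by unfold tau; positivity

lemma lap_tail (c : ℝ) : lap {y | c ≤ |y|} ≤ ENNReal.ofReal (2 * Real.exp (-(c / 2))) := by
  have hm : MeasurableSet {y : ℝ | c ≤ |y|} := measurableSet_le (by fun_prop) (by fun_prop)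
  rw [lap, withDensity_apply _ hm]
  calc ∫⁻ y in {y | c ≤ |y|}, ENNReal.ofReal (Real.exp (-|y|) / 2)
      ≤ ∫⁻ y in {y | c ≤ |y|}, ENNReal.ofReal (Real.exp (-(c / 2)) / 2) *
          ENNReal.ofReal (Real.exp (-(1 / 2) * |y|)) := by
        refine setLIntegral_mono' hm fun y hy => ?_
        rw [← ENNReal.ofReal_mul (by positivity)]
        refine ENNReal.ofReal_le_ofReal ?_
        rw [div_mul_eq_mul_div, ← Real.exp_add]
        gcongr
        simp only [Set.mem_ofPred_eq] at hy
        linarith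
    _ ≤ ∫⁻ y, ENNReal.ofReal (Real.exp (-(c / 2)) / 2) *
          ENNReal.ofReal (Real.exp (-(1 / 2) * |y|)) := setLIntegral_le_lintegral _ _
    _ = _ := by
        rw [lintegral_const_mul _ (by fun_prop), lintegral_exp_neg_mul_abs (by norm_num),
          ← ENNReal.ofReal_mul (by positivity)]
        congr 1
        ring

lemma summable_tau : Summable tau := by
  have : tau = fun n : ℕ => (2 * Real.exp (3 / 2)) * Real.exp (-1 / 4) ^ n := by
    funext n
    rw [tau, ← Real.exp_nat_mul, mul_assoc, ← Real.exp_add]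
    congr 2
    ring
  rw [this]
  exact (summable_geometric_of_lt_one (Real.exp_pos _).le
    (Real.exp_lt_one_iff.2 (by norm_num))).mul_left _

lemma prod_tail (n : ℕ) (i : I) :
    ((gam I).prod ν) {p | (n : ℝ) / 2 - 3 ≤ |p.1 i|} ≤ ENNReal.ofReal (tau n) := by
  have h1 : MeasurePreserving (fun p : (I → ℝ) × (I → Bool) => p.1 i) ((gam I).prod ν) lap :=
    (measurePreserving_eval_infinitePi (fun _ : I => lap) i).comp measurePreserving_fst
  have hm : MeasurableSet {y : ℝ | (n : ℝ) / 2 - 3 ≤ |y|} :=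
    measurableSet_le (by fun_prop) (by fun_prop)
  exact (h1.measure_preimage hm.nullMeasurableSet).trans_le (lap_tail _)

lemma le_abs_of_near {n : ℕ} {z : ℝ} {b : Bool} (h : |z + n * bv b - n / 2| ≤ 3) :
    (n : ℝ) / 2 - 3 ≤ |z| := by
  rw [abs_le] at h
  cases b
  · simp only [bv, Bool.false_eq_true, if_false] at h
    linarith [le_abs_self z]
  · simp only [bv, if_true] at h
    linarith [neg_abs_le z]

lemma obs_near {F : Finset I} (n : ℕ) {i : I} (hi : i ∈ F) :
    obs ν F n {y | |y i - n / 2| ≤ 3} ≤ ENNReal.ofReal (tau n) := by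
  have hm : MeasurableSet {y : I → ℝ | |y i - n / 2| ≤ 3} :=
    measurableSet_le (by fun_prop) (by fun_prop)
  rw [obs, Measure.map_apply (by fun_prop) hm]
  refine le_trans (measure_mono fun p hp => ?_) (prod_tail (ν := ν) n i)
  simp only [Set.mem_preimage, Set.mem_ofPred_eq, shift_of_mem hi] at hp
  exact le_abs_of_near hp

lemma exists_mesh (K U : ℕ) (hK : 0 < K) {ε : ℝ} (hε : 0 < ε) :
    ∃ N : ℕ, 0 < N ∧ K ∣ N ∧ (1 / (N : ℝ)) ^ 2 * (U * N : ℕ) ≤ ε ^ 2 := by
  obtain ⟨M, hM⟩ := exists_nat_gt (U / ε ^ 2)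
  refine ⟨K * (M + 1), by positivity, Dvd.intro _ rfl, ?_⟩
  have hK' : (1 : ℝ) ≤ K := by exact_mod_cast hK
  have h1 : (1 / ((K * (M + 1) : ℕ) : ℝ)) ^ 2 * (U * (K * (M + 1)) : ℕ) = U / (K * (M + 1)) := by
    push_cast
    field_simp
  rw [h1, div_le_iff₀ (by positivity)]
  rw [div_lt_iff₀ (by positivity)] at hM
  have : (M : ℝ) ≤ K * (M + 1) := by nlinarith [(Nat.cast_nonneg M : (0 : ℝ) ≤ M)]
  nlinarith [sq_nonneg ε]

lemma chain_law_nat {F : Finset I} {N U : ℕ} (hN : 0 < N) {Ω : Type*} [MeasurableSpace Ω]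
    {P : Measure Ω} {y : ℕ → Ω → I → ℝ} {ω : ℕ → Ω → I → Bool}
    (hc : IsChain ν F (1 / (N : ℝ)) U P y ω) {n : ℕ} (hn : n * N ≤ U) :
    P.map (y (n * N)) = obs ν F n := by
  rw [hc.law _ hn]
  congr 1
  have : (0 : ℝ) < N := by exact_mod_cast hN
  push_cast
  field_simp

lemma le_ofReal_of_forall {a b : ℝ≥0∞} {c C : ℝ} (hc : 0 ≤ c) (hC : 0 ≤ C)
    (h : ∀ ε > 0, a ≤ b + ENNReal.ofReal (c + C * ε)) : a ≤ b + ENNReal.ofReal c := by
  have h1 : Tendsto (fun ε : ℝ => b + ENNReal.ofReal (c + C * ε)) (𝓝[>] 0)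
      (𝓝 (b + ENNReal.ofReal (c + C * 0))) := by
    refine Tendsto.mono_left ?_ nhdsWithin_le_nhds
    refine Continuous.tendsto ?_ 0
    exact continuous_const.add (ENNReal.continuous_ofReal.comp (by fun_prop))
  rw [mul_zero, add_zero] at h1
  exact ge_of_tendsto h1 (eventually_nhdsWithin_of_forall h)

lemma flip_le {L : ℝ} (hL : IsLip ν L) (hL0 : 0 ≤ L) {W : ℕ → I → Finset I} (hW : Exhausts W)
    (n : ℕ) (i : I) :
    gam I {z | ¬ ((n : ℝ) / 2 < pos ν W L n z i ↔ ((n + 1 : ℕ) : ℝ) / 2 < pos ν W L (n + 1) z i)} ≤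
      ENNReal.ofReal (2 * (1 / 2) ^ n + tau n) := by
  classical
  obtain ⟨F₁, C₁, hC₁, h₁⟩ := stage hL hL0 hW n i
  obtain ⟨F₂, C₂, hC₂, h₂⟩ := stage hL hL0 hW (n + 1) i
  rw [← zero_add (ENNReal.ofReal _)]
  refine le_ofReal_of_forall (C := C₁ + C₂) (by have := tau_nonneg n; positivity) (by positivity)
    fun ε hε => ?_
  obtain ⟨N, hN, hKN, hεN⟩ := exists_mesh (Kn L n * Kn L (n + 1)) (n + 1)
    (Nat.mul_pos (Kn_pos L n) (Kn_pos L (n + 1))) hε
  obtain ⟨Ω, mΩ, P, hP, y, ω, hc⟩ := exists_chain ν (insert i (F₁ ∪ F₂)) (1 / (N : ℝ))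
    ((n + 1) * N)
  have hnN : n * N ≤ (n + 1) * N := Nat.mul_le_mul_right _ (Nat.le_succ n)
  have b1 := h₁ _ (Finset.subset_union_left.trans (Finset.subset_insert _ _)) N _ ε hN
    (Dvd.dvd.trans (Dvd.intro _ rfl) hKN) hnN hε hεN Ω P y ω hc
  have b2 := h₂ _ (Finset.subset_union_right.trans (Finset.subset_insert _ _)) N _ ε hN
    (Dvd.dvd.trans (Dvd.intro_left _ rfl) hKN) le_rfl hε hεN Ω P y ω hc
  have b3 : P {x | |y (n * N) x i - n / 2| ≤ 3} ≤ ENNReal.ofReal (tau n) := by
    have hm : MeasurableSet {y : I → ℝ | |y i - n / 2| ≤ 3} :=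
      measurableSet_le (by fun_prop) (by fun_prop)
    have := obs_near (ν := ν) n (Finset.mem_insert_self i (F₁ ∪ F₂))
    rw [← chain_law_nat hN hc hnN, Measure.map_apply (hc.my _) hm] at this
    exact this
  have h0 : P.map (y 0) = gam I := by
    rw [hc.law 0 (Nat.zero_le _)]
    simp [obs_zero]
  have hm1 := measurable_pos (ν := ν) W L n i
  have hm2 := measurable_pos (ν := ν) W L (n + 1) i
  have hm : MeasurableSet {z | ¬ ((n : ℝ) / 2 < pos ν W L n z i ↔
      ((n + 1 : ℕ) : ℝ) / 2 < pos ν W L (n + 1) z i)} :=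
    ((measurableSet_lt measurable_const hm1).iff (measurableSet_lt measurable_const hm2)).compl
  rw [← h0, Measure.map_apply (hc.my 0) hm]
  calc _ ≤ P (({x | 1 < |y (n * N) x i - pos ν W L n (y 0 x) i|} ∪
        {x | 1 < |y ((n + 1) * N) x i - pos ν W L (n + 1) (y 0 x) i|}) ∪
        {x | |y (n * N) x i - n / 2| ≤ 3}) := by
        refine measure_mono fun x hx => ?_
        by_contra hcon
        simp only [Set.mem_union, Set.mem_ofPred_eq, not_or, not_lt, not_le] at hcon
        obtain ⟨⟨c1, c2⟩, c3⟩ := hcon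
        have c4 := hc.abs_incr_le (by positivity) (n * N) N (by rw [Nat.succ_mul]) x i
        have hN' : (0 : ℝ) < N := by exact_mod_cast hN
        rw [← Nat.succ_mul, mul_one_div_cancel hN'.ne'] at c4
        apply hx
        rw [abs_le] at c1 c2 c4
        push_cast
        rcases lt_abs.1 c3 with c | c
        · exact iff_of_true (by linarith) (by linarith)
        · exact iff_of_false (by linarith) (by linarith)
    _ ≤ ENNReal.ofReal ((1 / 2) ^ n + C₁ * ε) + ENNReal.ofReal ((1 / 2) ^ (n + 1) + C₂ * ε) +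
        ENNReal.ofReal (tau n) := by
        refine (measure_union_le _ _).trans ?_
        gcongr
        refine (measure_union_le _ _).trans ?_
        gcongr
    _ ≤ _ := by
        have := tau_nonneg n
        rw [← ENNReal.ofReal_add (by positivity) (by positivity),
          ← ENNReal.ofReal_add (by positivity) (by positivity), zero_add]
        refine ENNReal.ofReal_le_ofReal ?_
        have : (1 / 2 : ℝ) ^ (n + 1) ≤ (1 / 2) ^ n := pow_le_pow_of_le_one (by norm_num)
          (by norm_num) (Nat.le_succ n)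
        linarith

lemma measure_le_add_of_subset {Ω ι : Type*} [MeasurableSpace Ω] (P : Measure Ω) {A B : Set Ω}
    (s : Finset ι) (E : ι → Set Ω) {c : ℝ} (hc : 0 ≤ c) (hE : ∀ i ∈ s, P (E i) ≤ ENNReal.ofReal c)
    (h : ∀ x ∈ A, (∀ i ∈ s, x ∉ E i) → x ∈ B) : P A ≤ P B + ENNReal.ofReal (s.card * c) := by
  have h1 : A ⊆ B ∪ ⋃ i ∈ s, E i := by
    intro x hx
    by_contra hcon
    simp only [Set.mem_union, Set.mem_iUnion, not_or, not_exists] at hcon
    exact hcon.1 (h x hx hcon.2)
  refine (measure_mono h1).trans ((measure_union_le _ _).trans ?_)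
  gcongr
  refine (measure_biUnion_finset_le _ _).trans ?_
  refine (Finset.sum_le_card_nsmul _ _ _ hE).trans ?_
  rw [ENNReal.ofReal_mul (by positivity), nsmul_eq_mul, ENNReal.ofReal_natCast]

lemma stage_close {L : ℝ} (hL : IsLip ν L) (hL0 : 0 ≤ L) {W : ℕ → I → Finset I}
    (hW : Exhausts W) (n : ℕ) (hn : 7 ≤ n) (F₁ : Finset I) :
    gam I {z | ∀ i ∈ F₁, (n : ℝ) / 2 < pos ν W L n z i} ≤
      ν {ω | ∀ i ∈ F₁, ω i = true} + ENNReal.ofReal (F₁.card * ((1 / 2) ^ n + 2 * tau n)) ∧
    ν {ω | ∀ i ∈ F₁, ω i = true} ≤ gam I {z | ∀ i ∈ F₁, (n : ℝ) / 2 < pos ν W L n z i} +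
      ENNReal.ofReal (F₁.card * ((1 / 2) ^ n + 2 * tau n)) := by
  classical
  choose F₀ C hC h using fun i => stage hL hL0 hW n i
  have htau := tau_nonneg n
  set C' := ∑ i ∈ F₁, C i with hC'
  have hC'0 : 0 ≤ C' := Finset.sum_nonneg fun i _ => hC i
  have hmA : MeasurableSet {z : I → ℝ | ∀ i ∈ F₁, (n : ℝ) / 2 < pos ν W L n z i} := by
    simp only [Set.ofPred_forall]
    exact Finset.measurableSet_biInter _ fun i _ =>
      measurableSet_lt measurable_const (measurable_pos W L n i)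
  have hmB : MeasurableSet {z : I → ℝ | ∀ i ∈ F₁, (n : ℝ) / 2 < z i} := by
    simp only [Set.ofPred_forall]
    exact Finset.measurableSet_biInter _ fun i _ =>
      measurableSet_lt measurable_const (measurable_pi_apply i)
  have hmC : MeasurableSet {ω : I → Bool | ∀ i ∈ F₁, ω i = true} := by
    simp only [Set.ofPred_forall]
    exact Finset.measurableSet_biInter _ fun i _ =>
      measurableSet_eq_fun (measurable_pi_apply i) measurable_const
  set F := F₁ ∪ F₁.biUnion F₀ with hF
  -- comparison of the observation with the signal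
  have hνC : ν {ω | ∀ i ∈ F₁, ω i = true} = ((gam I).prod ν) {p | ∀ i ∈ F₁, p.2 i = true} :=
    ((measurePreserving_snd (μ := gam I) (ν := ν)).measure_preimage hmC.nullMeasurableSet).symm
  have hobs : obs ν F n {z | ∀ i ∈ F₁, (n : ℝ) / 2 < z i} =
      ((gam I).prod ν) {p | ∀ i ∈ F₁, (n : ℝ) / 2 < shift F n p.1 p.2 i} := by
    rw [obs, Measure.map_apply (by fun_prop) hmB]
    rfl
  have hn' : (7 : ℝ) ≤ n := by exact_mod_cast hn
  have k1 : obs ν F n {z | ∀ i ∈ F₁, (n : ℝ) / 2 < z i} ≤ ν {ω | ∀ i ∈ F₁, ω i = true} +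
      ENNReal.ofReal (F₁.card * tau n) := by
    rw [hνC, hobs]
    refine measure_le_add_of_subset _ F₁ (fun i => {p | (n : ℝ) / 2 - 3 ≤ |p.1 i|}) htau
      (fun i _ => prod_tail n i) fun p hp hE i hi => ?_
    have h1 := hp i hi
    have h2 := hE i hi
    rw [shift_of_mem (Finset.mem_union_left _ hi)] at h1
    simp only [Set.mem_ofPred_eq, not_le] at h2
    by_contra hcon
    simp only [Bool.not_eq_true] at hcon
    simp only [hcon, bv, Bool.false_eq_true, if_false] at h1
    linarith [le_abs_self (p.1 i)]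
  have k2 : ν {ω | ∀ i ∈ F₁, ω i = true} ≤ obs ν F n {z | ∀ i ∈ F₁, (n : ℝ) / 2 < z i} +
      ENNReal.ofReal (F₁.card * tau n) := by
    rw [hνC, hobs]
    refine measure_le_add_of_subset _ F₁ (fun i => {p | (n : ℝ) / 2 - 3 ≤ |p.1 i|}) htau
      (fun i _ => prod_tail n i) fun p hp hE i hi => ?_
    have h1 := hp i hi
    have h2 := hE i hi
    rw [shift_of_mem (Finset.mem_union_left _ hi)]
    simp only [Set.mem_ofPred_eq, not_le] at h2
    simp only [h1, bv, if_true]
    linarith [neg_abs_le (p.1 i)]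
  have k3 : ∀ ε > 0, gam I {z | ∀ i ∈ F₁, (n : ℝ) / 2 < pos ν W L n z i} ≤
      obs ν F n {z | ∀ i ∈ F₁, (n : ℝ) / 2 < z i} +
        ENNReal.ofReal (F₁.card * ((1 / 2) ^ n + tau n) + F₁.card * C' * ε) ∧
      obs ν F n {z | ∀ i ∈ F₁, (n : ℝ) / 2 < z i} ≤
        gam I {z | ∀ i ∈ F₁, (n : ℝ) / 2 < pos ν W L n z i} +
        ENNReal.ofReal (F₁.card * ((1 / 2) ^ n + tau n) + F₁.card * C' * ε) := by
    intro ε hε
    obtain ⟨N, hN, hKN, hεN⟩ := exists_mesh (Kn L n) n (Kn_pos L n) hε
    obtain ⟨Ω, mΩ, P, hP, y, ω, hc⟩ := exists_chain ν F (1 / (N : ℝ)) (n * N)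
    have h0 : P.map (y 0) = gam I := by
      rw [hc.law 0 (Nat.zero_le _)]
      simp [obs_zero]
    have hE : ∀ i ∈ F₁, P ({x | 1 < |y (n * N) x i - pos ν W L n (y 0 x) i|} ∪
        {x | |y (n * N) x i - n / 2| ≤ 3}) ≤ ENNReal.ofReal ((1 / 2) ^ n + tau n + C' * ε) := by
      intro i hi
      have b1 := h i F ((Finset.subset_biUnion_of_mem F₀ hi).trans Finset.subset_union_right)
        N _ ε hN hKN le_rfl hε hεN Ω P y ω hc
      have b3 : P {x | |y (n * N) x i - n / 2| ≤ 3} ≤ ENNReal.ofReal (tau n) := by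
        have hm : MeasurableSet {y : I → ℝ | |y i - n / 2| ≤ 3} :=
          measurableSet_le (by fun_prop) (by fun_prop)
        have := obs_near (ν := ν) (F := F) n (Finset.mem_union_left _ hi)
        rw [← chain_law_nat hN hc le_rfl, Measure.map_apply (hc.my _) hm] at this
        exact this
      refine (measure_union_le _ _).trans ((add_le_add b1 b3).trans ?_)
      have := hC i
      rw [← ENNReal.ofReal_add (by positivity) htau]
      refine ENNReal.ofReal_le_ofReal ?_
      have : C i ≤ C' := Finset.single_le_sum (fun i _ => hC i) hi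
      nlinarith
    have e1 : F₁.card * ((1 / 2) ^ n + tau n) + F₁.card * C' * ε =
      F₁.card * ((1 / 2) ^ n + tau n + C' * ε) := by ring
    rw [← h0, ← chain_law_nat hN hc le_rfl, Measure.map_apply (hc.my _) hmA,
      Measure.map_apply (hc.my _) hmB, e1]
    constructor
    · refine measure_le_add_of_subset _ F₁ _ (by positivity) hE fun x hx hE i hi => ?_
      have h1 := hx i hi
      have h2 := hE i hi
      simp only [Set.mem_union, Set.mem_ofPred_eq, not_or, not_lt, not_le] at h2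
      obtain ⟨c1, c2⟩ := h2
      rw [abs_le] at c1
      rcases lt_abs.1 c2 with c | c <;> linarith
    · refine measure_le_add_of_subset _ F₁ _ (by positivity) hE fun x hx hE i hi => ?_
      have h1 := hx i hi
      have h2 := hE i hi
      simp only [Set.mem_union, Set.mem_ofPred_eq, not_or, not_lt, not_le] at h2
      obtain ⟨c1, c2⟩ := h2
      rw [abs_le] at c1
      rcases lt_abs.1 c2 with c | c <;> linarith
  have k4 := le_ofReal_of_forall (by positivity) (by positivity) fun ε hε => (k3 ε hε).1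
  have k5 := le_ofReal_of_forall (by positivity) (by positivity) fun ε hε => (k3 ε hε).2
  have e2 : ENNReal.ofReal (F₁.card * ((1 / 2) ^ n + 2 * tau n)) =
      ENNReal.ofReal (F₁.card * tau n) + ENNReal.ofReal (F₁.card * ((1 / 2) ^ n + tau n)) := by
    rw [← ENNReal.ofReal_add (by positivity) (by positivity)]
    congr 1
    ring
  rw [e2]
  constructor
  · refine k4.trans ?_
    rw [← add_assoc]
    gcongr
  · refine k2.trans ?_
    rw [add_comm (ENNReal.ofReal (F₁.card * tau n)), ← add_assoc]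
    gcongr

lemma measurable_Phi (W : ℕ → I → Finset I) (L : ℝ) : Measurable (Phi ν W L) := by
  refine measurable_pi_lambda _ fun i => measurable_to_bool ?_
  have : (fun z => Phi ν W L z i) ⁻¹' {true} =
      ⋃ N : ℕ, ⋂ n : ℕ, ⋂ _ : N ≤ n, {z | (n : ℝ) / 2 < pos ν W L n z i} := by
    ext z
    simp [Phi, eventually_atTop]
  rw [this]
  exact MeasurableSet.iUnion fun N => MeasurableSet.iInter fun n => MeasurableSet.iInter fun _ =>
    measurableSet_lt measurable_const (measurable_pos W L n i)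

lemma eventually_iff_of_flip {p : ℕ → Prop} (h : ∀ᶠ n in atTop, (p n ↔ p (n + 1))) :
    ∀ᶠ n in atTop, (p n ↔ ∀ᶠ m in atTop, p m) := by
  obtain ⟨N, hN⟩ := eventually_atTop.1 h
  have h1 : ∀ n, N ≤ n → (p n ↔ p N) := by
    intro n hn
    induction n, hn using Nat.le_induction with
    | base => rfl
    | succ n hn ih => exact (hN n hn).symm.trans ih
  refine eventually_atTop.2 ⟨N, fun n hn => ⟨fun hp => ?_, fun hp => ?_⟩⟩
  · exact eventually_atTop.2 ⟨N, fun m hm => (h1 m hm).2 ((h1 n hn).1 hp)⟩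
  · obtain ⟨m, hm1, hm2⟩ := (hp.and (eventually_ge_atTop N)).exists
    exact (h1 n hn).2 ((h1 m hm2).1 hm1)

/-- The sets `{ω | ω = true on F}`. -/
def upSets (I : Type*) : Set (Set (I → Bool)) :=
  Set.range fun F : Finset I => {ω | ∀ i ∈ F, ω i = true}

lemma isPiSystem_upSets (I : Type*) : IsPiSystem (upSets I) := by
  classical
  rintro _ ⟨F, rfl⟩ _ ⟨F', rfl⟩ _
  refine ⟨F ∪ F', ?_⟩
  ext ω
  simp only [Finset.mem_union, Set.mem_ofPred_eq, Set.mem_inter_iff]
  constructor
  · intro h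
    exact ⟨fun i hi => h i (Or.inl hi), fun i hi => h i (Or.inr hi)⟩
  · rintro ⟨h1, h2⟩ i (hi | hi)
    exacts [h1 i hi, h2 i hi]

lemma measurableSet_up {I : Type*} (F : Finset I) :
    MeasurableSet {ω : I → Bool | ∀ i ∈ F, ω i = true} := by
  simp only [Set.ofPred_forall]
  exact Finset.measurableSet_biInter _ fun i _ =>
    measurableSet_eq_fun (measurable_pi_apply i) measurable_const

lemma generateFrom_upSets (I : Type*) :
    (inferInstance : MeasurableSpace (I → Bool)) = MeasurableSpace.generateFrom (upSets I) := by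
  refine le_antisymm ?_ (MeasurableSpace.generateFrom_le ?_)
  · refine iSup_le fun i => ?_
    refine Measurable.comap_le (@measurable_to_bool _ (MeasurableSpace.generateFrom _) _ ?_)
    refine MeasurableSpace.measurableSet_generateFrom ⟨{i}, ?_⟩
    ext ω
    simp
  · rintro _ ⟨F, rfl⟩
    exact measurableSet_up F

lemma ext_upSets {I : Type*} {μ μ' : Measure (I → Bool)} [IsProbabilityMeasure μ]
    [IsProbabilityMeasure μ']
    (h : ∀ F : Finset I, μ {ω | ∀ i ∈ F, ω i = true} = μ' {ω | ∀ i ∈ F, ω i = true}) : μ = μ' := by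
  refine ext_of_generate_finite _ (generateFrom_upSets I) (isPiSystem_upSets I) ?_ (by simp)
  rintro _ ⟨F, rfl⟩
  exact h F

theorem map_Phi {L : ℝ} (hL : IsLip ν L) (hL0 : 0 ≤ L) {W : ℕ → I → Finset I}
    (hW : Exhausts W) : (gam I).map (Phi ν W L) = ν := by
  have hm := measurable_Phi (ν := ν) W L
  have := Measure.isProbabilityMeasure_map (μ := gam I) hm.aemeasurable
  refine ext_upSets fun F => ?_
  rw [Measure.map_apply hm (measurableSet_up F)]
  have hsum : Summable fun n : ℕ => 2 * (1 / 2 : ℝ) ^ n + tau n :=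
    (summable_geometric_two.mul_left 2).add summable_tau
  have hae : ∀ i, ∀ᵐ z ∂gam I, ∀ᶠ n : ℕ in atTop,
      ((n : ℝ) / 2 < pos ν W L n z i ↔ Phi ν W L z i = true) := by
    intro i
    have h1 := ae_eventually_notMem (μ := gam I) (s := fun n : ℕ =>
      {z | ¬ ((n : ℝ) / 2 < pos ν W L n z i ↔ ((n + 1 : ℕ) : ℝ) / 2 < pos ν W L (n + 1) z i)})
      (ne_top_of_le_ne_top hsum.tsum_ofReal_ne_top
        (ENNReal.tsum_le_tsum fun n => flip_le hL hL0 hW n i))
    filter_upwards [h1] with z hz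
    have h2 := eventually_iff_of_flip (p := fun n : ℕ => (n : ℝ) / 2 < pos ν W L n z i)
      (by simpa using hz)
    simpa [Phi] using h2
  have hmA : ∀ n : ℕ, MeasurableSet {z : I → ℝ | ∀ i ∈ F, (n : ℝ) / 2 < pos ν W L n z i} := by
    intro n
    simp only [Set.ofPred_forall]
    exact Finset.measurableSet_biInter _ fun i _ =>
      measurableSet_lt measurable_const (measurable_pos W L n i)
  have h1 : Tendsto (fun n : ℕ => gam I {z | ∀ i ∈ F, (n : ℝ) / 2 < pos ν W L n z i}) atTop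
      (𝓝 (gam I (Phi ν W L ⁻¹' {ω | ∀ i ∈ F, ω i = true}))) := by
    refine tendsto_measure_of_ae_tendsto_indicator_of_isFiniteMeasure atTop
      (hm (measurableSet_up F)) hmA ?_
    have h2 : ∀ᵐ z ∂gam I, ∀ i ∈ F, ∀ᶠ n : ℕ in atTop,
        ((n : ℝ) / 2 < pos ν W L n z i ↔ Phi ν W L z i = true) :=
      (Filter.eventually_all_finset F).2 fun i _ => hae i
    filter_upwards [h2] with z hz
    filter_upwards [(Filter.eventually_all_finset F).2 hz] with n hn
    simp only [Set.mem_ofPred_eq, Set.mem_preimage]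
    exact forall₂_congr hn
  have h3 : Tendsto (fun n : ℕ => ENNReal.ofReal (F.card * ((1 / 2) ^ n + 2 * tau n))) atTop
      (𝓝 0) := by
    have : Summable fun n : ℕ => F.card * ((1 / 2 : ℝ) ^ n + 2 * tau n) :=
      (summable_geometric_two.add (summable_tau.mul_left 2)).mul_left _
    simpa using ENNReal.tendsto_ofReal this.tendsto_atTop_zero
  apply le_antisymm
  · have h4 := (tendsto_const_nhds (x := ν {ω | ∀ i ∈ F, ω i = true})).add h3
    rw [add_zero] at h4
    exact le_of_tendsto_of_tendsto h1 h4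
      ((eventually_ge_atTop 7).mono fun n hn => (stage_close hL hL0 hW n hn F).1)
  · have h4 := h1.add h3
    rw [add_zero] at h4
    exact ge_of_tendsto h4
      ((eventually_ge_atTop 7).mono fun n hn => (stage_close hL hL0 hW n hn F).2)

end Crest.Agent.R168
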