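import Crest.Agent.R168.FUSF
import Crest.Prelude.Def_Labels

/-!
Independent Laplace noise on the edges of a locally finite graph, built equivariantly from
independent labels on the vertices.
-/

set_option autoImplicit false
set_option linter.unusedSectionVars false
set_option linter.unusedVariables false
set_option maxHeartbeats 400000

open MeasureTheory ProbabilityTheory Filter Topology
open scoped ENNReal

namespace Crest.Agent.R168

/-- Rank of `v` among the neighbours of `u` for the keys `k`. -/
noncomputable def rank (G : SimpleGraph ℕ) (k : ℕ → ℝ) (u v : ℕ) : ℕ :=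
  Set.ncard {a | G.Adj u a ∧ k a < k v}

/-- The contribution of the endpoint `u` to the noise of the pair `u v`. -/
noncomputable def half (G : SimpleGraph ℕ) (w : ℕ → ℕ → ℝ) (u v : ℕ) : ℝ :=
  if w v 0 < w u 0 then w u (rank G (fun a => w a 0) u v + 1) else 0

/-- The noise on unordered pairs. -/
noncomputable def noise (G : SimpleGraph ℕ) (w : ℕ → ℕ → ℝ) : Sym2 ℕ → ℝ :=
  Sym2.lift ⟨fun u v => half G w u v + half G w v u, fun _ _ => add_comm _ _⟩

lemma noise_mk (G : SimpleGraph ℕ) (w : ℕ → ℕ → ℝ) (u v : ℕ) :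
    noise G w s(u, v) = half G w u v + half G w v u := rfl

lemma rank_comap (σ : Equiv.Perm ℕ) (G : SimpleGraph ℕ) (k : ℕ → ℝ) (u v : ℕ) :
    rank (G.comap σ) (k ∘ σ) u v = rank G k (σ u) (σ v) :=
  Set.ncard_preimage_of_injective_subset_range (f := σ)
    (s := {a | G.Adj (σ u) a ∧ k a < k (σ v)}) σ.injective (by simp)

lemma noise_comap (σ : Equiv.Perm ℕ) (G : SimpleGraph ℕ) (w : ℕ → ℕ → ℝ) :
    noise (G.comap σ) (w ∘ σ) = noise G w ∘ sm σ := by
  have h : ∀ u v, half (G.comap σ) (w ∘ σ) u v = half G w (σ u) (σ v) := by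
    intro u v
    unfold half
    rw [← rank_comap]
    rfl
  funext e
  induction e with
  | _ a b => simp only [Function.comp_apply, sm_mk, noise_mk, h]

lemma measurable_noise {Θ : Type*} [MeasurableSpace Θ] {G : Θ → SimpleGraph ℕ}
    (hG : ∀ u v, Measurable fun θ => (G θ).Adj u v) {w : Θ → ℕ → ℕ → ℝ} (hw : Measurable w) :
    Measurable fun θ => noise (G θ) (w θ) := by
  have hw' : ∀ a n, Measurable fun θ => w θ a n := fun a n =>
    (measurable_pi_apply n).comp ((measurable_pi_apply a).comp hw)
  have h1 : ∀ u v, Measurable fun θ => rank (G θ) (fun a => w θ a 0) u v := by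
    intro u v
    refine measurable_ncard.comp (measurable_set_iff.2 fun a => (hG u a).and ?_)
    exact measurableSet_setOfPred.1 (measurableSet_lt (hw' a 0) (hw' v 0))
  have h2 : ∀ u v, Measurable fun θ => half (G θ) (w θ) u v := by
    intro u v
    unfold half
    refine Measurable.ite (measurableSet_lt (hw' v 0) (hw' u 0)) ?_ measurable_const
    exact measurable_plug_nat (f := fun n θ => w θ u (n + 1)) (h1 u v) fun n => hw' u (n + 1)
  refine measurable_pi_lambda _ fun e => ?_
  induction e with
  | _ a b => exact (h2 a b).add (h2 b a)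

lemma gam_prod_map_elim (A B : Type*) :
    ((gam A).prod (gam B)).map (fun p => Sum.elim p.1 p.2) = gam (A ⊕ B) := by
  have hm : Measurable (fun p : (A → ℝ) × (B → ℝ) => Sum.elim p.1 p.2) := by
    refine measurable_pi_lambda _ fun i => ?_
    cases i with
    | inl a => exact (measurable_pi_apply a).comp measurable_fst
    | inr b => exact (measurable_pi_apply b).comp measurable_snd
  refine Measure.eq_infinitePi _ fun s t ht => ?_
  rw [Measure.map_apply hm (.pi s.countable_toSet fun i _ => ht i)]
  have : (fun p : (A → ℝ) × (B → ℝ) => Sum.elim p.1 p.2) ⁻¹' Set.pi (s : Set (A ⊕ B)) t =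
      Set.pi (s.toLeft : Set A) (fun a => t (Sum.inl a)) ×ˢ
        Set.pi (s.toRight : Set B) (fun b => t (Sum.inr b)) := by
    ext p
    simp [Set.mem_pi]
  rw [this, Measure.prod_prod, gam, gam, Measure.infinitePi_pi _ (fun a _ => ht _),
    Measure.infinitePi_pi _ (fun a _ => ht _), Finset.prod_sum_eq_prod_toLeft_mul_prod_toRight]

/-- Assemble keys and values into one array. -/
def asm (p : (ℕ → ℝ) × (ℕ × ℕ → ℝ)) (v : ℕ) : ℕ → ℝ
  | 0 => p.1 v
  | n + 1 => p.2 (v, n)

lemma measurable_asm : Measurable asm := by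
  refine measurable_pi_lambda _ fun v => measurable_pi_lambda _ fun n => ?_
  cases n with
  | zero => exact (measurable_pi_apply v).comp measurable_fst
  | succ n => exact (measurable_pi_apply (v, n)).comp measurable_snd

/-- The reindexing behind `asm`. -/
def asmIdx : ℕ × ℕ ↪ ℕ ⊕ (ℕ × ℕ) where
  toFun p := match p.2 with
    | 0 => Sum.inl p.1
    | n + 1 => Sum.inr (p.1, n)
  inj' := by
    rintro ⟨a, _ | n⟩ ⟨b, _ | m⟩ h <;> simp_all

lemma map_asm : ((gam ℕ).prod (gam (ℕ × ℕ))).map asm = Measure.infinitePi (fun _ : ℕ => gam ℕ) := by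
  have hm : Measurable (fun p : (ℕ → ℝ) × (ℕ × ℕ → ℝ) => Sum.elim p.1 p.2) := by
    refine measurable_pi_lambda _ fun i => ?_
    cases i with
    | inl a => exact (measurable_pi_apply a).comp measurable_fst
    | inr b => exact (measurable_pi_apply b).comp measurable_snd
  have h1 : asm = (MeasurableEquiv.curry ℕ ℕ ℝ) ∘ (fun z => z ∘ asmIdx) ∘
      (fun p : (ℕ → ℝ) × (ℕ × ℕ → ℝ) => Sum.elim p.1 p.2) := by
    funext p v n
    cases n <;> rfl
  rw [h1, ← Measure.map_map (MeasurableEquiv.measurable _) ((measurable_comp_emb _).comp hm),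
    ← Measure.map_map (measurable_comp_emb _) hm, gam_prod_map_elim, gam_map_comp]
  exact Measure.infinitePi_map_curry (fun _ _ => lap)

lemma ae_injective : ∀ᵐ k ∂gam ℕ, Function.Injective k := by
  have h : ∀ u v : ℕ, ∀ᵐ k ∂gam ℕ, k u = k v → u = v := by
    intro u v
    by_cases huv : u = v
    · simp [huv]
    · have h1 := Measure.infinitePi_map_eval_prod (P := fun _ : ℕ => lap) huv
      have hm : MeasurableSet {p : ℝ × ℝ | p.1 = p.2} :=
        measurableSet_eq_fun measurable_fst measurable_snd
      have h2 : (lap.prod lap) {p : ℝ × ℝ | p.1 = p.2} = 0 := by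
        refine Measure.measure_prod_null_of_ae_null hm (ae_of_all _ fun x => ?_)
        have : Prod.mk x ⁻¹' {p : ℝ × ℝ | p.1 = p.2} = {x} := by
          ext y
          simp [eq_comm]
        simp only [this, measure_singleton, Pi.zero_apply]
      rw [← h1, Measure.map_apply (by fun_prop) hm] at h2
      rw [ae_iff]
      refine measure_mono_null (fun k hk => ?_) h2
      simp only [Classical.not_imp, Set.mem_ofPred_eq] at hk
      exact hk.1
  filter_upwards [ae_all_iff.2 fun u => ae_all_iff.2 fun v => h u v] with k hk u v huv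
  exact hk u v huv

lemma rank_lt {G : SimpleGraph ℕ} (hG : ∀ v, (G.neighborSet v).Finite) (k : ℕ → ℝ) {u v v' : ℕ}
    (hv : G.Adj u v) (h : k v < k v') : rank G k u v < rank G k u v' := by
  refine Set.ncard_lt_ncard ⟨fun a ha => ⟨ha.1, ha.2.trans h⟩, fun hc => ?_⟩
    ((hG u).subset fun a ha => ha.1)
  exact lt_irrefl _ (hc (a := v) ⟨hv, h⟩).2

lemma map_noise_of_injective {G : SimpleGraph ℕ} (hG : ∀ v, (G.neighborSet v).Finite)
    {k : ℕ → ℝ} (hk : Function.Injective k) :
    (gam (ℕ × ℕ)).map (fun t (e : G.edgeSet) => noise G (asm (k, t)) e) = gam G.edgeSet := by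
  have h1 : ∀ e : G.edgeSet, ∃ u v, (e : Sym2 ℕ) = s(u, v) ∧ G.Adj u v ∧ k v < k u := by
    rintro ⟨e, he⟩
    induction e with
    | _ a b =>
      have hab : G.Adj a b := he
      rcases lt_or_gt_of_ne (hk.ne hab.ne) with h | h
      · exact ⟨b, a, Sym2.eq_swap, hab.symm, h⟩
      · exact ⟨a, b, rfl, hab, h⟩
  choose u v huv hadj hlt using h1
  let f : G.edgeSet ↪ ℕ × ℕ := ⟨fun e => (u e, rank G k (u e) (v e)), fun e e' h => by
    simp only [Prod.mk.injEq] at h
    obtain ⟨h1, h2⟩ := h
    have h3 : v e = v e' := by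
      by_contra hne
      rw [← h1] at h2
      rcases lt_or_gt_of_ne (hk.ne hne) with h | h
      · exact (rank_lt hG k (hadj e) h).ne h2
      · exact (rank_lt hG k (h1 ▸ hadj e') h).ne' h2
    exact Subtype.ext (by rw [huv e, huv e', h1, h3])⟩
  rw [← gam_map_comp f]
  congr 1
  funext t e
  rw [huv e, noise_mk]
  simp only [half, asm, hlt e, if_true, (hlt e).not_gt, if_false, add_zero]
  rfl

theorem map_noise {G : SimpleGraph ℕ} (hG : ∀ v, (G.neighborSet v).Finite) :
    (Measure.infinitePi (fun _ : ℕ => gam ℕ)).map (fun w (e : G.edgeSet) => noise G w e) =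
      gam G.edgeSet := by
  have hm : Measurable (fun (w : ℕ → ℕ → ℝ) (e : G.edgeSet) => noise G w e) :=
    measurable_pi_lambda _ fun e => (measurable_pi_apply (e : Sym2 ℕ)).comp
      (measurable_noise (G := fun _ => G) (fun _ _ => measurable_const) measurable_id)
  rw [← map_asm, Measure.map_map hm measurable_asm]
  ext A hA
  have hm2 := hm.comp measurable_asm
  rw [Measure.map_apply hm2 hA, Measure.prod_apply (hm2 hA)]
  have : ∀ᵐ k ∂gam ℕ, gam (ℕ × ℕ) (Prod.mk k ⁻¹'
      (((fun (w : ℕ → ℕ → ℝ) (e : G.edgeSet) => noise G w e) ∘ asm) ⁻¹' A)) = gam G.edgeSet A := by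
    filter_upwards [ae_injective] with k hk
    rw [← map_noise_of_injective hG hk]
    exact (Measure.map_apply (hm2.comp measurable_prodMk_left) hA).symm
  rw [lintegral_congr_ae this]
  simp

end Crest.Agent.R168
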